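import Vale.Agent.P176.AlgP

/-!
# P176, module ALGP2: the relations of `Utot` hold in every representation

`PP_hit`: from `LFree.hit_Q`, `LFree.hit_Z` for `L0 k` and the linear map `k → R.M`, `c ↦ c • r`.
`act_eq_zero`: every `r : R.M` is the sum of the `e_s r`, `s < 6`; for `e_s r` use `PP_hit`, and that
`(actU k) x = 0` implies that `x` acts as zero on each `PP k s`.
-/

namespace P176

variable {k : Type} [Field k] [CharZero k]

/-- Every element of `e_s R` is in the image of a morphism from `PP s`. -/
theorem PP_hit (R : Rep k) (s : ℕ) (hs : s < 6) (r : R.M) (hr : R.op (.e s) r = r) :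
    ∃ F : Rep.Hom (PP k s) R, ∃ t : (PP k s).M, F.f t = r := by
  have hf : ∀ u : k, R.op (.e s) ((LinearMap.toSpanSingleton k R.M r) u) =
      (LinearMap.toSpanSingleton k R.M r) u := by
    intro u
    rw [LinearMap.toSpanSingleton_apply, map_smul, hr]
  cases s with
  | zero =>
    obtain ⟨F, hF⟩ := (L0 k).hit_Z R (LinearMap.toSpanSingleton k R.M r) (fun u _ => hf u)
    refine ⟨F, (L0 k).top 0 (1 : k) trivial, ?_⟩
    refine (hF (1 : k) trivial).trans ?_
    exact (LinearMap.toSpanSingleton_apply k R.M r 1).trans (one_smul k r)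
  | succ s =>
    obtain ⟨F, hF⟩ := (L0 k).hit_Q (s + 1) (((G0 k).coneC 1).win_e0 s) R
      (LinearMap.toSpanSingleton k R.M r) (fun u _ => hf u)
    refine ⟨F, _, (hF (1 : k) trivial).trans ?_⟩
    exact (LinearMap.toSpanSingleton_apply k R.M r 1).trans (one_smul k r)

/-- Morphisms of representations commute with the action of the free algebra. -/
theorem Rep.Hom.act {R S : Rep k} (F : Rep.Hom R S) (x : FreeAlgebra k Gen) (m : R.M) :
    F.f (R.act x m) = S.act x (F.f m) := by
  induction x using FreeAlgebra.induction generalizing m with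
  | grade0 r =>
    rw [AlgHom.commutes, AlgHom.commutes]
    simp only [Module.algebraMap_end_apply, map_smul]
  | grade1 g =>
    rw [Rep.act, Rep.act, FreeAlgebra.lift_ι_apply, FreeAlgebra.lift_ι_apply]
    exact F.map_op g m
  | mul a b ha hb =>
    rw [map_mul, map_mul, Module.End.mul_apply, Module.End.mul_apply, ha, hb]
  | add a b ha hb =>
    rw [map_add, map_add, LinearMap.add_apply, LinearMap.add_apply, map_add, ha, hb]

/-- The projection of `Utot` onto `PP i`. -/
private noncomputable def algp2_proj (k : Type) [Field k] [CharZero k] (i : Fin 6) :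
    Rep.Hom (Utot k) (PP k i) where
  f := LinearMap.proj i
  map_op _ _ := rfl

private theorem algp2_zero (x : FreeAlgebra k Gen) (hx : x ∈ RingHom.ker (actU k)) (i : Fin 6)
    (t : (PP k i).M) : (PP k i).act x t = 0 := by
  have h1 : (Utot k).act x = 0 := hx
  have h2 := (algp2_proj k i).act x (Pi.single i t : ∀ i : Fin 6, (PP k i).M)
  rw [h1] at h2
  have h3 : (algp2_proj k i).f (Pi.single i t : ∀ i : Fin 6, (PP k i).M) = t :=
    Pi.single_eq_same (M := fun i : Fin 6 => (PP k i).M) i t
  rw [h3] at h2
  rw [← h2]
  exact map_zero _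

/-- Relations of the regular representation hold in every representation. -/
theorem act_eq_zero (R : Rep k) (x : FreeAlgebra k Gen) (hx : x ∈ RingHom.ker (actU k)) :
    R.act x = 0 := by
  refine LinearMap.ext fun r => ?_
  have hsum : ∑ j ∈ Finset.range 6, R.op (.e j) r = r := by
    have := R.isRep.e_sum
    have h2 := congrArg (fun φ : Module.End k R.M => φ r) this
    simpa only [LinearMap.sum_apply, Module.End.one_apply] using h2
  rw [LinearMap.zero_apply]
  conv_lhs => rw [← hsum]
  rw [map_sum]
  refine Finset.sum_eq_zero fun j hj => ?_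
  have hj6 : j < 6 := Finset.mem_range.1 hj
  have hr : R.op (.e j) (R.op (.e j) r) = R.op (.e j) r := by
    have := R.isRep.e_mul j j
    rw [if_pos rfl] at this
    exact congrArg (fun φ : Module.End k R.M => φ r) this
  obtain ⟨F, t, ht⟩ := PP_hit R j hj6 (R.op (.e j) r) hr
  rw [← ht, ← F.act x t]
  have := algp2_zero x hx ⟨j, hj6⟩ t
  rw [this, map_zero]

end P176
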