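import Vale.Agent.P176.AlgP1
import Vale.Agent.P176.AlgP2

/-!
# P176: the algebra `A` and its modules
-/

namespace P176

open CategoryTheory

variable {k : Type} [Field k] [CharZero k]

/-- The action of `A` on a representation. -/
noncomputable def Rep.actA (R : Rep k) : Alg k →ₐ[k] Module.End k R.M :=
  Ideal.Quotient.liftₐ _ R.act (act_eq_zero R)

theorem Rep.actA_mk (R : Rep k) (x : FreeAlgebra k Gen) :
    R.actA (Ideal.Quotient.mkₐ k (RingHom.ker (actU k)) x) = R.act x := rfl

theorem Rep.actA_gen (R : Rep k) (g : Gen) : R.actA (gen g) = R.op g := by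
  rw [gen, Rep.actA_mk, Rep.act, FreeAlgebra.lift_ι_apply]

/-- The carrier of the `A`-module of a representation. -/
def Rep.Car (R : Rep k) : Type := R.M

noncomputable instance (R : Rep k) : AddCommGroup R.Car := inferInstanceAs (AddCommGroup R.M)
noncomputable instance (R : Rep k) : Module k R.Car := inferInstanceAs (Module k R.M)
noncomputable instance (R : Rep k) : Module (Alg k) R.Car :=
  Module.compHom R.M (R.actA : Alg k →+* Module.End k R.M)

theorem Rep.smul_def (R : Rep k) (a : Alg k) (m : R.Car) :
    a • m = (R.actA a (m : R.M) : R.M) := rfl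

instance (R : Rep k) : IsScalarTower k (Alg k) R.Car where
  smul_assoc c a m := by
    change (R.actA (c • a) (m : R.M) : R.M) = c • (R.actA a (m : R.M) : R.M)
    rw [map_smul]
    rfl

/-- The `A`-module of a representation. -/
noncomputable abbrev Rep.toMod (R : Rep k) : ModuleCat.{0} (Alg k) := ModuleCat.of (Alg k) R.Car

/-- Morphisms of representations are `A`-linear. -/
noncomputable def Rep.Hom.lin {R S : Rep k} (F : Rep.Hom R S) : R.Car →ₗ[Alg k] S.Car where
  toFun := F.f
  map_add' := F.f.map_add
  map_smul' a m := by
    obtain ⟨x, rfl⟩ := Ideal.Quotient.mkₐ_surjective k (RingHom.ker (actU k)) a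
    exact F.act x m

/-- Morphisms of representations give morphisms in `ModuleCat`. -/
noncomputable def Rep.Hom.toMod {R S : Rep k} (F : Rep.Hom R S) : R.toMod ⟶ S.toMod :=
  ModuleCat.ofHom F.lin

section ofMod

variable (M : Type) [AddCommGroup M] [Module (Alg k) M]

/-- The representation of an `A`-module. -/
noncomputable def ofMod : Rep k :=
  letI : Module k M := Module.compHom M (algebraMap k (Alg k))
  letI : IsScalarTower k (Alg k) M := ⟨fun c a m => by
    rw [Algebra.smul_def, mul_smul]
    rfl⟩
  { M := M
    op := fun g => Module.toModuleEnd k M (gen (k := k) g)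
    isRep := IsRep.map (Module.toModuleEnd k (S := Alg k) M) (isRep_gen k) }

end ofMod

end P176
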