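import Vale.Agent.P176.UPQ

/-!
# P176: the indecomposable projectives and the regular representation
-/

namespace P176

section
variable (k : Type) [Field k]

/-- The trivial one-dimensional `gl_2`-module. -/
theorem isGl_zero : IsGl (fun _ _ => (0 : Module.End k k)) := by
  intro i j l m
  simp

variable [CharZero k]

theorem two_ne : (2 : k) ≠ 0 := two_ne_zero

/-- `Λ` as a graded `B`-module. -/
noncomputable def G0 : DG k :=
  fock (two_ne k) (fun _ _ => (0 : Module.End k k)) (isGl_zero k) ⊤ (fun _ _ _ _ => trivial)

/-- `Λ` is `Λ`-free. -/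
noncomputable def L0 : LFree (G0 k) :=
  lfreeFock (two_ne k) (fun _ _ => (0 : Module.End k k)) (isGl_zero k) ⊤ (fun _ _ _ _ => trivial)

/-- The indecomposable projectives. -/
noncomputable def PP : ℕ → Rep k
  | 0 => (((G0 k).coneC 1).win 0).Z
  | s + 1 => (((G0 k).coneC 1).win (s + 1)).Q (((G0 k).coneC 1).win_e0 s)

/-- The regular representation. -/
noncomputable def Utot : Rep k := Rep.pi fun i : Fin 6 => PP k i

/-- The free algebra acts on `Utot`. -/
noncomputable def actU : FreeAlgebra k Gen →ₐ[k] Module.End k (Utot k).M :=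
  FreeAlgebra.lift k (Utot k).op

/-- The algebra `A`. -/
abbrev Alg : Type := FreeAlgebra k Gen ⧸ RingHom.ker (actU k)

variable {k}

/-- The action of the free algebra on a representation. -/
noncomputable def Rep.act (R : Rep k) : FreeAlgebra k Gen →ₐ[k] Module.End k R.M :=
  FreeAlgebra.lift k R.op

/-- The images of the generators in `A`. -/
noncomputable def gen (g : Gen) : Alg k :=
  Ideal.Quotient.mkₐ k (RingHom.ker (actU k)) (FreeAlgebra.ι k g)

end

end P176
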