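import Vale.Agent.P176.AlgP

/-!
# P176, module ALGP1: finiteness of the regular representation and of `A`; relations in `A`

`PP k s` is a subspace of (or a product of subspaces of) `Fin 6 → Fk k × Fk k`; see `Fk.finite`.
`Alg k` embeds into `Module.End k (Utot k).M`; for `isRep_gen` use `IsRep.of_inj` for this
embedding.
-/

namespace P176

variable (k : Type) [Field k] [CharZero k]

private theorem algP1_win (s : ℕ) : Module.Finite k (((G0 k).coneC 1).win s).M := by
  have h1 : Module.Finite k (Fk k) := Fk.finite
  have h2 : Module.Finite k (Fk k × Fk k) := inferInstance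
  have h3 : Module.Finite k (Fin 6 → (Fk k × Fk k)) := inferInstance
  have h4 : IsNoetherian k (Fin 6 → (Fk k × Fk k)) := inferInstance
  have h5 : IsNoetherian k (Fin 6 → ((G0 k).coneC 1).M) := h4
  exact Module.Finite.of_injective (((G0 k).coneC 1).wval s)
    (fun v w h => DG.wval_inj _ _ h)

theorem PP_finite (i : ℕ) : Module.Finite k (PP k i).M := by
  cases i with
  | zero => exact algP1_win k 0
  | succ s =>
    have h := algP1_win k (s + 1)
    have h2 : Module.Finite k ((((G0 k).coneC 1).win (s + 1)).M ×
        (Fin 2 → (((G0 k).coneC 1).win (s + 1)).M) ×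
        (Fin 2 → (((G0 k).coneC 1).win (s + 1)).M)) := inferInstance
    exact h2

theorem Utot_finite : Module.Finite k (Utot k).M := by
  have h : ∀ i : Fin 6, Module.Finite k (PP k i).M := fun i => PP_finite k i
  have h2 : Module.Finite k (∀ i : Fin 6, (PP k i).M) := inferInstance
  exact h2

theorem alg_finite : Module.Finite k (Alg k) := by
  have h := Utot_finite k
  have h2 : Module.Finite k (Module.End k (Utot k).M) := inferInstance
  exact Module.Finite.of_injective (Ideal.kerLiftAlg (actU k)).toLinearMap
    (Ideal.kerLiftAlg_injective (actU k))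

theorem isRep_gen : IsRep (gen (k := k)) := by
  refine IsRep.of_inj (Ideal.kerLiftAlg (actU k) : Alg k →+* Module.End k (Utot k).M)
    (Ideal.kerLiftAlg_injective (actU k)) ?_
  have h : (fun g => (Ideal.kerLiftAlg (actU k) : Alg k →+* Module.End k (Utot k).M)
      (gen (k := k) g)) = (Utot k).op := by
    funext g
    change Ideal.kerLiftAlg (actU k) (Ideal.Quotient.mk _ (FreeAlgebra.ι k g)) = _
    rw [Ideal.kerLiftAlg_mk]
    exact FreeAlgebra.lift_ι_apply _ _
  rw [h]
  exact (Utot k).isRep

end P176
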