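import Vale.Agent.P176.RetrDefs

/-!
# P176, module BASE: finiteness and the basis of the lower bound
-/

namespace P176

section

variable {k : Type} [Field k]

/-- Coefficient at the vertex `1`. -/
noncomputable def bfun (G : DG k) (l : G.M →ₗ[k] k) :
    ((G.win 1).F (G.win_e0 0)).M →ₗ[k] k :=
  l ∘ₗ LinearMap.proj (1 : Fin 6) ∘ₗ G.wval 1 ∘ₗ LinearMap.proj (0 : Fin 2) ∘ₗ
    LinearMap.fst k (Fin 2 → (G.win 1).M) (Fin 2 → (G.win 1).M)

theorem bfun_apply (G : DG k) (l : G.M →ₗ[k] k) (m : ((G.win 1).F (G.win_e0 0)).M) :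
    bfun G l m = l (G.wval 1 (m.1 0) 1) := rfl

theorem bwval0 (G : DG k) (v : (G.win 1).M) : G.wval 1 v 0 = 0 := by
  have h := G.wval_mem 1 v 0
  rw [G.gr_neg _ (by norm_num), Submodule.mem_bot] at h
  exact h

theorem bwval_xi (G : DG k) (a b : Fin 2) (v : (G.win 1).M) :
    G.wval 1 ((G.win 1).xi a b v) 1 = 0 := by
  rw [DG.wval_xi, if_neg (by decide), show (1 : Fin 6) - 1 = 0 from rfl, bwval0, map_zero]

theorem bwval_tau (G : DG k) (v : (G.win 1).M) : G.wval 1 ((G.win 1).tau v) 1 = 0 := by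
  rw [DG.wval_tau, if_neg (by decide), show (1 : Fin 6) - 1 = 0 from rfl, bwval0, map_zero]

theorem bfun_e (G : DG k) (l : G.M →ₗ[k] k) (j : ℕ) (m : ((G.win 1).F (G.win_e0 0)).M) :
    bfun G l (((G.win 1).F (G.win_e0 0)).e j m) = if j = 0 then bfun G l m else 0 := by
  show l (G.wval 1 ((G.win 1).e (j + 1) (m.1 0)) 1) =
    if j = 0 then l (G.wval 1 (m.1 0) 1) else 0
  rw [DG.wval_e]
  by_cases hj : j = 0
  · subst hj
    rw [if_pos rfl, if_pos (by rfl)]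
  · have h1 : ¬ (((1 : Fin 6) : ℕ) = j + 1) := by
      intro h
      apply hj
      have h2 : ((1 : Fin 6) : ℕ) = 1 := rfl
      omega
    rw [if_neg h1, if_neg hj, map_zero]

theorem bfun_xi (G : DG k) (l : G.M →ₗ[k] k) (a b : Fin 2)
    (m : ((G.win 1).F (G.win_e0 0)).M) :
    bfun G l (((G.win 1).F (G.win_e0 0)).xi a b m) = 0 := by
  show l (G.wval 1 ((G.win 1).xi a b (m.1 0)) 1) = 0
  rw [bwval_xi, map_zero]

theorem bfun_tau (G : DG k) (l : G.M →ₗ[k] k) (m : ((G.win 1).F (G.win_e0 0)).M) :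
    bfun G l (((G.win 1).F (G.win_e0 0)).tau m) = 0 := by
  show l (G.wval 1 (tauW (G.win 1).xi (G.win 1).tau m.1 0) 1) = 0
  rw [tauW_apply, map_sub, map_sum, Pi.sub_apply, Finset.sum_apply, bwval_tau]
  simp only [bwval_xi]
  rw [Finset.sum_const_zero, sub_zero, map_zero]

theorem bfun_ne (G : DG k) (l : G.M →ₗ[k] k) (x : G.M) (hx : x ∈ G.gr 0) (hl : l x ≠ 0) :
    ∃ m, bfun G l m ≠ 0 := by
  refine ⟨(fun _ => G.wmk 1 (fun i => if (i : ℕ) = 1 then x else 0) ?_, 0), ?_⟩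
  · intro i
    split_ifs with h
    · rw [h]
      exact hx
    · exact Submodule.zero_mem _
  · show l (if ((1 : Fin 6) : ℕ) = 1 then x else 0) ≠ 0
    rw [if_pos (by rfl)]
    exact hl

end

variable (k : Type) [Field k] [CharZero k]

theorem Gn_win_finite (n s : ℕ) : Module.Finite k ((Gn k n).win s).M := by
  have hV : Module.Finite k (Vn k n) := Vn_finite k n
  have hG : ∀ i : Fin 6, Module.Finite k ((Gn k n).gr (((i : ℕ) : ℤ) - (s : ℤ))) := by
    intro i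
    exact Fk.deg_finite (Vn k n) _
  let φ : ((Gn k n).win s).M →ₗ[k] (∀ i : Fin 6, (Gn k n).gr (((i : ℕ) : ℤ) - (s : ℤ))) :=
    LinearMap.pi fun i => LinearMap.codRestrict _ (LinearMap.proj i ∘ₗ (Gn k n).wval s)
      fun v => (Gn k n).wval_mem s v i
  refine Module.Finite.of_injective φ ?_
  intro v w h
  refine (Gn k n).wval_inj s (funext fun i => ?_)
  have h1 := congrFun h i
  exact congrArg Subtype.val h1

/-- The coefficient of the vacuum. -/
noncomputable def bvac (k : Type) [Field k] : Fk (PO k) →ₗ[k] k :=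
  MvPolynomial.lcoeff k (0 : Fin 2 →₀ ℕ) ∘ₗ LinearMap.fst k _ _ ∘ₗ LinearMap.fst k _ _ ∘ₗ
    LinearMap.fst k _ _ ∘ₗ LinearMap.fst k _ _

theorem bvac_vac (k : Type) [Field k] : bvac k (vac k (1 : PO k)) = 1 := by
  show MvPolynomial.coeff 0 (1 : PO k) = 1
  simp

/-- A nonzero functional on the vertex `0` part of `F(win 1 (Λ ⊗ V_0))`. -/
theorem base_hom :
    ∃ F : (((Gn k 0).win 1).F ((Gn k 0).win_e0 0)).M →ₗ[k] k,
      (∀ j m, F ((((Gn k 0).win 1).F ((Gn k 0).win_e0 0)).e j m) = if j = 0 then F m else 0) ∧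
      (∀ a b m, F ((((Gn k 0).win 1).F ((Gn k 0).win_e0 0)).xi a b m) = 0) ∧
      (∀ m, F ((((Gn k 0).win 1).F ((Gn k 0).win_e0 0)).tau m) = 0) ∧ ∃ m, F m ≠ 0 := by
  refine ⟨bfun (Gn k 0) (bvac k), bfun_e _ _, bfun_xi _ _, bfun_tau _ _,
    bfun_ne (Gn k 0) (bvac k) (vac k (1 : PO k)) ?_ ?_⟩
  · exact (Fk.mem_deg_zero (Vn k 0) _).2 ⟨1, one_mem_Vn_zero k, rfl⟩
  · intro h
    exact one_ne_zero ((bvac_vac k).symm.trans h)

end P176
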