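import Vale.Agent.P176.CEDefs

/-!
# P176, module CE3: degree and functoriality of the differential
-/

namespace P176

variable {k : Type} [Field k] {U : Type} [AddCommGroup U] [Module k U]

private theorem ce3_apply {U : Type} [AddCommGroup U] [Module k U]
    (x : Fin 2 → Fin 2 → Module.End k U) (m : Fk U) :
    ce x m = ∑ a, ∑ b, cr k a b (Fk.map (x a b) m)
      - ∑ i, ∑ j, ∑ l, cr k i l (cr k l j (an k i j m)) := by
  unfold ce
  simp only [LinearMap.sub_apply, LinearMap.sum_apply, Module.End.mul_apply]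

theorem ce_deg (x : Fin 2 → Fin 2 → Module.End k U) (p : Submodule k U)
    (hp : ∀ a b, ∀ u ∈ p, x a b u ∈ p) (j : ℤ) (m : Fk U) (hm : m ∈ Fk.deg p j) :
    ce x m ∈ Fk.deg p (j + 1) := by
  rw [ce3_apply]
  refine Submodule.sub_mem _ ?_ ?_
  · refine Submodule.sum_mem _ (fun a _ => Submodule.sum_mem _ (fun b _ => ?_))
    exact Fk.cr_deg p a b j _ (Fk.map_deg (x a b) p p (hp a b) j m hm)
  · refine Submodule.sum_mem _ (fun a _ => Submodule.sum_mem _ (fun b _ =>
      Submodule.sum_mem _ (fun l _ => ?_)))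
    have h1 := Fk.an_deg p a b j m hm
    have h2 := Fk.cr_deg p l b (j - 1) _ h1
    rw [sub_add_cancel] at h2
    exact Fk.cr_deg p a l j _ h2

/-- `Fk.map f` commutes with the differentials if `f` is equivariant. -/
theorem map_ce {U' : Type} [AddCommGroup U'] [Module k U']
    (x : Fin 2 → Fin 2 → Module.End k U) (x' : Fin 2 → Fin 2 → Module.End k U')
    (f : U →ₗ[k] U') (hf : ∀ a b u, f (x a b u) = x' a b (f u)) (m : Fk U) :
    Fk.map f (ce x m) = ce x' (Fk.map f m) := by
  rw [ce3_apply, ce3_apply, map_sub, map_sum, map_sum]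
  congr 1
  · refine Finset.sum_congr rfl (fun a _ => ?_)
    rw [map_sum]
    refine Finset.sum_congr rfl (fun b _ => ?_)
    rw [Fk.map_cr]
    congr 1
    have h1 : f ∘ₗ x a b = x' a b ∘ₗ f := LinearMap.ext (hf a b)
    have h2 := congrArg Fk.map h1
    rw [Fk.map_comp, Fk.map_comp] at h2
    exact LinearMap.congr_fun h2 m
  · refine Finset.sum_congr rfl (fun a _ => ?_)
    rw [map_sum]
    refine Finset.sum_congr rfl (fun b _ => ?_)
    rw [map_sum]
    refine Finset.sum_congr rfl (fun l _ => ?_)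
    rw [Fk.map_cr, Fk.map_cr, Fk.map_an]

end P176
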