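import Vale.Agent.P176.CE2
import Vale.Agent.P176.CE3

/-!
# P176: the graded `B`-modules `Λ ⊗ p`
-/

namespace P176

variable {k : Type} [Field k] {U : Type} [AddCommGroup U] [Module k U]

/-- The graded `B`-module `Λ ⊗ p` for a stable subspace `p` of a `gl_2`-module. -/
def fock (h2 : (2 : k) ≠ 0) (x : Fin 2 → Fin 2 → Module.End k U) (hx : IsGl x)
    (p : Submodule k U) (hp : ∀ a b, ∀ u ∈ p, x a b u ∈ p) : DG k where
  M := Fk U
  xi := cr k
  tau := ce x
  isB := ⟨cr_cr, ce_cr x, ce_ce h2 x hx⟩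
  gr := Fk.deg p
  xi_gr a b j m hm := Fk.cr_deg p a b j m hm
  tau_gr j m hm := ce_deg x p hp j m hm
  gr_neg := Fk.deg_neg p

end P176
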