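import Vale.Agent.P176.CEDefs

/-!
# P176, module CE1: anticommutator of the differential with the creation operators

Use `cr_cr`, `an_cr`, `Fk.map_cr`, `Fk.map_vac`, `an_vac`.
-/

namespace P176

variable {k : Type} [Field k] {U : Type} [AddCommGroup U] [Module k U]

theorem ce_cr (x : Fin 2 → Fin 2 → Module.End k U) (i j : Fin 2) :
    ce x * cr k i j + cr k i j * ce x = -∑ l, cr k i l * cr k l j := by
  have hm : ∀ f : Module.End k U, (Fk.map f : Module.End k (Fk U)) * cr k i j =
      cr k i j * Fk.map f := fun f => LinearMap.ext fun m => Fk.map_cr f i j m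
  have A : (∑ a, ∑ b, cr k a b * (Fk.map (x a b) : Module.End k (Fk U))) * cr k i j +
      cr k i j * (∑ a, ∑ b, cr k a b * (Fk.map (x a b) : Module.End k (Fk U))) = 0 := by
    simp only [Finset.sum_mul, Finset.mul_sum, ← Finset.sum_add_distrib]
    refine Finset.sum_eq_zero fun a _ => Finset.sum_eq_zero fun b _ => ?_
    rw [mul_assoc, hm, ← mul_assoc, ← mul_assoc, ← add_mul, cr_cr, zero_mul]
  have B : (∑ i', ∑ j', ∑ l, cr k i' l * cr k l j' * an k i' j' :
      Module.End k (Fk U)) * cr k i j +
      cr k i j * (∑ i', ∑ j', ∑ l, cr k i' l * cr k l j' * an k i' j') =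
        ∑ l, cr k i l * cr k l j := by
    simp only [Finset.sum_mul, Finset.mul_sum, ← Finset.sum_add_distrib]
    have h : ∀ i' j' l : Fin 2, (cr k i' l * cr k l j' * an k i' j' * cr k i j +
        cr k i j * (cr k i' l * cr k l j' * an k i' j') : Module.End k (Fk U)) =
          if i' = i ∧ j' = j then cr k i' l * cr k l j' else 0 := by
      intro i' j' l
      have h1 : (cr k i j * cr k i' l : Module.End k (Fk U)) = -(cr k i' l * cr k i j) :=
        eq_neg_of_add_eq_zero_left (cr_cr i j i' l)
      have h2 : (cr k i j * cr k l j' : Module.End k (Fk U)) = -(cr k l j' * cr k i j) :=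
        eq_neg_of_add_eq_zero_left (cr_cr i j l j')
      have h3 : (cr k i j * (cr k i' l * cr k l j' * an k i' j') : Module.End k (Fk U)) =
          cr k i' l * cr k l j' * (cr k i j * an k i' j') := by
        calc (cr k i j * (cr k i' l * cr k l j' * an k i' j') : Module.End k (Fk U))
            = (cr k i j * cr k i' l) * cr k l j' * an k i' j' := by simp only [mul_assoc]
          _ = -(cr k i' l * (cr k i j * cr k l j') * an k i' j') := by
              rw [h1]
              simp only [neg_mul, mul_assoc]
          _ = _ := by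
              rw [h2]
              simp only [neg_mul, mul_neg, neg_neg, mul_assoc]
      rw [h3, mul_assoc _ (an k i' j') (cr k i j), ← mul_add, an_cr]
      split_ifs
      · rw [mul_one]
      · rw [mul_zero]
    simp only [h]
    rw [Finset.sum_eq_single i, Finset.sum_eq_single j]
    · simp
    · intro b _ hb
      simp [hb]
    · simp
    · intro b _ hb
      simp [hb]
    · simp
  unfold ce
  rw [sub_mul, mul_sub]
  have e : ∀ p q r s : Module.End k (Fk U), p - q + (r - s) = (p + r) - (q + s) := by
    intro p q r s
    abel
  rw [e, A, B, zero_sub]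

theorem ce_vac (x : Fin 2 → Fin 2 → Module.End k U) (u : U) :
    ce x (vac k u) = ∑ a, ∑ b, cr k a b (vac k (x a b u)) := by
  unfold ce
  simp only [LinearMap.sub_apply, LinearMap.sum_apply, Module.End.mul_apply, an_vac, map_zero,
    Finset.sum_const_zero, sub_zero]
  exact Finset.sum_congr rfl fun a _ => Finset.sum_congr rfl fun b _ => by rw [Fk.map_vac]

end P176
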