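import Vale.Agent.P176.CE1

/-!
# P176, module CE2: the square of the differential is zero

`D = ce * ce` commutes with all `cr i j` (this follows from `ce_cr` alone) and kills `vac u`
(from `ce_vac`, `ce_cr` and `IsGl`); hence `D = 0` by `Fk.gen'` applied to the kernel of `D`.
-/

namespace P176

variable {k : Type} [Field k] {U : Type} [AddCommGroup U] [Module k U]

private theorem ce2_cr (x : Fin 2 → Fin 2 → Module.End k U) (i j : Fin 2) :
    ce x * (ce x * cr k i j) = cr k i j * (ce x * ce x) := by
  have h : ∀ i j : Fin 2, ce x * cr k i j = -(cr k i j * ce x) - ∑ l, cr k i l * cr k l j := by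
    intro i j
    have h1 := ce_cr x i j
    rw [sub_eq_add_neg, ← h1]
    abel
  have h3 : ∑ l, ce x * (cr k i l * cr k l j) = (∑ l, cr k i l * cr k l j) * ce x := by
    have h4 : ∀ l, ce x * (cr k i l * cr k l j) = cr k i l * cr k l j * ce x +
        ((∑ m, cr k i l * (cr k l m * cr k m j)) - ∑ m, cr k i m * cr k m l * cr k l j) := by
      intro l
      rw [← mul_assoc, h i l, sub_mul, neg_mul, mul_assoc, h l j, mul_sub, mul_neg, neg_sub,
        Finset.mul_sum, Finset.sum_mul, mul_assoc, sub_neg_eq_add]
      abel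
    simp only [h4, Finset.sum_add_distrib, Finset.sum_sub_distrib, Finset.sum_mul]
    have h5 : ∑ l, ∑ m, (cr k i l * (cr k l m * cr k m j) : Module.End k (Fk U)) =
        ∑ l, ∑ m, cr k i m * cr k m l * cr k l j := by
      rw [Finset.sum_comm]
      exact Finset.sum_congr rfl fun l _ => Finset.sum_congr rfl fun m _ => by rw [mul_assoc]
    rw [h5, sub_self, add_zero]
  rw [h i j, mul_sub, mul_neg, ← mul_assoc, h i j, Finset.mul_sum, h3, sub_mul, neg_mul]
  rw [mul_assoc]
  abel

private theorem ce2_vac (h2 : (2 : k) ≠ 0) (x : Fin 2 → Fin 2 → Module.End k U) (hx : IsGl x)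
    (u : U) : ce x (ce x (vac k u)) = 0 := by
  have h : ∀ (i j : Fin 2) (m : Fk U), ce x (cr k i j m) = -(cr k i j (ce x m)) -
      ∑ l, cr k i l (cr k l j m) := by
    intro i j m
    have := congrArg (fun f : Module.End k (Fk U) => f m) (ce_cr x i j)
    simp only [LinearMap.add_apply, LinearMap.neg_apply, LinearMap.sum_apply,
      Module.End.mul_apply] at this
    rw [eq_sub_iff_add_eq, ← sub_eq_zero]
    have h3 : ce x (cr k i j m) + ∑ l, cr k i l (cr k l j m) - -(cr k i j (ce x m)) =
      (ce x (cr k i j m) + cr k i j (ce x m)) + ∑ l, cr k i l (cr k l j m) := by abel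
    rw [h3, this]
    simp
  have hcc : ∀ (a b c d : Fin 2) (m : Fk U), cr k a b (cr k c d m) = -(cr k c d (cr k a b m)) := by
    intro a b c d m
    have := congrArg (fun f : Module.End k (Fk U) => f m) (cr_cr (U := U) (k := k) a b c d)
    simp only [LinearMap.add_apply, Module.End.mul_apply, LinearMap.zero_apply] at this
    exact eq_neg_of_add_eq_zero_left this
  set T : Fk U := ∑ a, ∑ b, ∑ c, ∑ d, cr k a b (cr k c d (vac k (x c d (x a b u)))) with hT
  set W : Fk U := ∑ a, ∑ b, ∑ l, cr k a l (cr k l b (vac k (x a b u))) with hW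
  have e1 : ce x (ce x (vac k u)) = -T - W := by
    rw [ce_vac]
    simp only [map_sum, h, ce_vac, Finset.sum_sub_distrib, Finset.sum_neg_distrib, hT, hW]
  -- swap the names
  have e2 : T = -∑ a, ∑ b, ∑ c, ∑ d, cr k a b (cr k c d (vac k (x a b (x c d u)))) := by
    have e3 : T = ∑ c, ∑ d, ∑ a, ∑ b, cr k a b (cr k c d (vac k (x c d (x a b u)))) := by
      rw [hT]
      calc ∑ a, ∑ b, ∑ c, ∑ d, cr k a b (cr k c d (vac k (x c d (x a b u))))
          = ∑ a, ∑ c, ∑ b, ∑ d, cr k a b (cr k c d (vac k (x c d (x a b u)))) :=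
            Finset.sum_congr rfl fun a _ => Finset.sum_comm
        _ = ∑ c, ∑ a, ∑ b, ∑ d, cr k a b (cr k c d (vac k (x c d (x a b u)))) :=
            Finset.sum_comm
        _ = ∑ c, ∑ a, ∑ d, ∑ b, cr k a b (cr k c d (vac k (x c d (x a b u)))) :=
            Finset.sum_congr rfl fun c _ => Finset.sum_congr rfl fun a _ => Finset.sum_comm
        _ = _ := Finset.sum_congr rfl fun c _ => Finset.sum_comm
    rw [e3]
    simp only [← Finset.sum_neg_distrib]
    refine Finset.sum_congr rfl fun c _ => Finset.sum_congr rfl fun d _ =>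
      Finset.sum_congr rfl fun a _ => Finset.sum_congr rfl fun b _ => ?_
    rw [hcc]
  have e4 : T + T = -(W + W) := by
    have e5 : T + T = ∑ a, ∑ b, ∑ c, ∑ d, cr k a b (cr k c d (vac k
        ((if d = a then x c b u else 0) - (if c = b then x a d u else 0)))) := by
      nth_rewrite 2 [e2]
      rw [hT, ← sub_eq_add_neg]
      simp only [← Finset.sum_sub_distrib, ← map_sub]
      refine Finset.sum_congr rfl fun a _ => Finset.sum_congr rfl fun b _ =>
        Finset.sum_congr rfl fun c _ => Finset.sum_congr rfl fun d _ => ?_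
      have h5 := congrArg (fun f : Module.End k U => f u) (hx c d a b)
      simp only [LinearMap.sub_apply, Module.End.mul_apply] at h5
      rw [h5]
      congr 4 <;> split_ifs <;> rfl
    have e6 : ∑ a, ∑ b, ∑ c, ∑ d, cr k a b (cr k c d (vac k (if d = a then x c b u else 0))) =
        -W := by
      have e7 : ∀ a b c : Fin 2, ∑ d, cr k a b (cr k c d (vac k
          (if d = a then x c b u else 0))) = cr k a b (cr k c a (vac k (x c b u))) := by
        intro a b c
        rw [Finset.sum_eq_single a]
        · rw [if_pos rfl]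
        · intro d _ hd
          rw [if_neg hd, map_zero, map_zero, map_zero]
        · simp
      simp only [e7]
      rw [hW, ← Finset.sum_neg_distrib]
      calc ∑ a, ∑ b, ∑ c, cr k a b (cr k c a (vac k (x c b u)))
          = ∑ a, ∑ c, ∑ b, cr k a b (cr k c a (vac k (x c b u))) :=
            Finset.sum_congr rfl fun a _ => Finset.sum_comm
        _ = ∑ c, ∑ a, ∑ b, cr k a b (cr k c a (vac k (x c b u))) := Finset.sum_comm
        _ = ∑ c, ∑ b, ∑ a, cr k a b (cr k c a (vac k (x c b u))) :=
            Finset.sum_congr rfl fun c _ => Finset.sum_comm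
        _ = _ := by
          refine Finset.sum_congr rfl fun c _ => ?_
          rw [← Finset.sum_neg_distrib]
          refine Finset.sum_congr rfl fun b _ => ?_
          rw [← Finset.sum_neg_distrib]
          refine Finset.sum_congr rfl fun a _ => ?_
          rw [hcc]
    have e8 : ∑ a, ∑ b, ∑ c, ∑ d, cr k a b (cr k c d (vac k (if c = b then x a d u else 0))) =
        W := by
      have e9 : ∀ a b : Fin 2, ∑ c, ∑ d, cr k a b (cr k c d (vac k
          (if c = b then x a d u else 0))) = ∑ d, cr k a b (cr k b d (vac k (x a d u))) := by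
        intro a b
        rw [Finset.sum_eq_single b]
        · simp
        · intro c _ hc
          simp [hc]
        · simp
      simp only [e9]
      rw [hW]
      exact Finset.sum_congr rfl fun a _ => Finset.sum_comm
    rw [e5]
    simp only [map_sub, Finset.sum_sub_distrib]
    rw [e6, e8]
    abel
  have e5 : T = -W := by
    have h5 : (2 : k) • (T + W) = 0 := by
      rw [two_smul]
      calc T + W + (T + W) = (T + T) + (W + W) := by abel
        _ = 0 := by rw [e4, neg_add_cancel]
    have h6 := (smul_eq_zero.1 h5).resolve_left h2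
    exact eq_neg_of_add_eq_zero_left h6
  rw [e1, e5]
  abel

theorem ce_ce (h2 : (2 : k) ≠ 0) (x : Fin 2 → Fin 2 → Module.End k U) (hx : IsGl x) :
    ce x * ce x = 0 := by
  have h : LinearMap.ker (ce x * ce x) = ⊤ := by
    refine Fk.gen' _ (fun u => ?_) fun a b m hm => ?_
    · rw [LinearMap.mem_ker]
      exact ce2_vac h2 x hx u
    · rw [LinearMap.mem_ker] at hm ⊢
      have h1 := congrArg (fun f : Module.End k (Fk U) => f m) (ce2_cr x a b)
      simp only [Module.End.mul_apply] at h1 hm ⊢
      rw [h1, hm, map_zero]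
  exact LinearMap.ker_eq_top.1 h

end P176
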