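import Vale.Agent.P176.Defs
import Vale.Agent.P176.Fock

/-!
# P176: the Chevalley-Eilenberg differential

For a `gl_2`-module `U` (operators `x a b`), the operator
`ce x = ∑ ξ_ab x_ab - ∑ ξ_il ξ_lj ∂_ij` on `Λ ⊗ U = Fk U`.
-/

namespace P176

variable {k : Type} [Field k] {U : Type} [AddCommGroup U] [Module k U]

/-- The relations of `gl_2`. -/
def IsGl (x : Fin 2 → Fin 2 → Module.End k U) : Prop :=
  ∀ i j l m, x i j * x l m - x l m * x i j =
    (if j = l then x i m else 0) - (if i = m then x l j else 0)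

/-- The Chevalley-Eilenberg differential. -/
def ce (x : Fin 2 → Fin 2 → Module.End k U) : Module.End k (Fk U) :=
  ∑ a, ∑ b, cr k a b * Fk.map (x a b) - ∑ i, ∑ j, ∑ l, cr k i l * cr k l j * an k i j

end P176
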