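import Vale.Agent.P176.Defs

/-!
# P176, module RELC: the cone and the windows satisfy the relations
-/

namespace P176

variable {k : Type} [Field k] {M : Type} [AddCommGroup M] [Module k M]

private theorem relc_val : ∀ i : Fin 6, i ≠ 0 → (((i - 1 : Fin 6) : ℕ)) + 1 = (i : ℕ) := by
  decide

/-- The cone of an endomorphism `φ` of a `B`-module is a `B`-module. -/
theorem isB_C {xi : Fin 2 → Fin 2 → Module.End k M} {tau : Module.End k M} (h : IsB xi tau)
    {φ : Module.End k M} (hxi : ∀ a b, φ * xi a b = xi a b * φ) (htau : φ * tau = tau * φ) :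
    IsB (xiC xi) (tauC tau φ) := by
  have h1 : ∀ a b c d (m : M), xi a b (xi c d m) + xi c d (xi a b m) = 0 := fun a b c d m =>
    LinearMap.congr_fun (h.xi_xi a b c d) m
  have h2 : ∀ a b (m : M), tau (xi a b m) + xi a b (tau m) = -∑ l, xi a l (xi l b m) := by
    intro a b m
    have := LinearMap.congr_fun (h.tau_xi a b) m
    simpa [LinearMap.sum_apply] using this
  have h3 : ∀ m : M, tau (tau m) = 0 := fun m => LinearMap.congr_fun h.tau_tau m
  have h4 : ∀ a b (m : M), φ (xi a b m) = xi a b (φ m) := fun a b m =>
    LinearMap.congr_fun (hxi a b) m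
  have h5 : ∀ m : M, φ (tau m) = tau (φ m) := fun m => LinearMap.congr_fun htau m
  refine ⟨fun a b c d => ?_, fun a b => ?_, ?_⟩
  · refine LinearMap.ext fun u => Prod.ext ?_ ?_
    · exact h1 a b c d u.1
    · simp only [LinearMap.add_apply, Module.End.mul_apply, xiC_apply, Prod.snd_add, map_neg,
        neg_neg, LinearMap.zero_apply, Prod.snd_zero]
      exact h1 a b c d u.2
  · refine LinearMap.ext fun u => Prod.ext ?_ ?_
    · have := h2 a b u.1
      simp only [LinearMap.add_apply, Module.End.mul_apply, xiC_apply, tauC_apply,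
        LinearMap.neg_apply, LinearMap.sum_apply, Prod.fst_add, Prod.fst_neg, Prod.fst_sum]
      exact this
    · have := h2 a b u.2
      simp only [LinearMap.add_apply, Module.End.mul_apply, xiC_apply, tauC_apply,
        LinearMap.neg_apply, LinearMap.sum_apply, Prod.snd_add, Prod.snd_neg, Prod.snd_sum,
        map_neg, neg_neg, map_sub, h4]
      rw [← this]
      abel
  · refine LinearMap.ext fun u => Prod.ext ?_ ?_
    · exact h3 u.1
    · simp only [Module.End.mul_apply, tauC_apply, map_sub, h5, h3, LinearMap.zero_apply,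
        Prod.snd_zero]
      abel

private theorem relc_shf (f g : Module.End k M) (v : Fin 6 → M) (i : Fin 6) :
    shf f (shf g v) i = if i = 0 ∨ i - 1 = 0 then 0 else f (g (v (i - 1 - 1))) := by
  rw [shf_apply]
  by_cases h : i = 0
  · simp [h]
  · rw [if_neg h, shf_apply]
    by_cases h1 : i - 1 = 0
    · simp [h1]
    · rw [if_neg h1, if_neg (by tauto)]

private theorem relc_eshf (f : Module.End k M) (j : ℕ) :
    shf f * eW (k := k) (M := M) j = eW (j + 1) * shf f := by
  refine LinearMap.ext fun v => funext fun i => ?_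
  rw [Module.End.mul_apply, Module.End.mul_apply, shf_apply, eW_apply, eW_apply, shf_apply]
  by_cases h : i = 0
  · simp [h]
  · have hv := relc_val i h
    rw [if_neg h, if_neg h]
    by_cases h1 : ((i - 1 : Fin 6) : ℕ) = j
    · rw [if_pos h1, if_pos (by omega)]
    · rw [if_neg h1, if_neg (by omega), map_zero]

private theorem relc_e0shf (f : Module.End k M) : eW (k := k) (M := M) 0 * shf f = 0 := by
  refine LinearMap.ext fun v => funext fun i => ?_
  rw [Module.End.mul_apply, eW_apply, shf_apply]
  by_cases h : i = 0
  · simp [h]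
  · have h1 : ¬ ((i : ℕ) = 0) := fun h2 => h (Fin.ext h2)
    rw [if_neg h1]
    rfl

/-- Functions on `{0, ..., 5}` with values in a `B`-module satisfy the relations of `G`. -/
theorem isG_win {xi : Fin 2 → Fin 2 → Module.End k M} {tau : Module.End k M} (h : IsB xi tau) :
    IsG (eW (k := k) (M := M)) (fun a b => shf (xi a b)) (shf tau) := by
  have h1 : ∀ a b c d (m : M), xi a b (xi c d m) + xi c d (xi a b m) = 0 := fun a b c d m =>
    LinearMap.congr_fun (h.xi_xi a b c d) m
  have h2 : ∀ a b (m : M), tau (xi a b m) + xi a b (tau m) = -∑ l, xi a l (xi l b m) := by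
    intro a b m
    have := LinearMap.congr_fun (h.tau_xi a b) m
    simpa [LinearMap.sum_apply] using this
  have h3 : ∀ m : M, tau (tau m) = 0 := fun m => LinearMap.congr_fun h.tau_tau m
  refine { xi_xi := ?_, tau_xi := ?_, tau_tau := ?_, e_mul := ?_, e_big := ?_, e_sum := ?_,
           xi_e := ?_, e0_xi := ?_, tau_e := ?_, e0_tau := ?_ }
  · intro a b c d
    refine LinearMap.ext fun v => funext fun i => ?_
    rw [LinearMap.add_apply, Pi.add_apply, Module.End.mul_apply, Module.End.mul_apply, relc_shf,
      relc_shf]
    by_cases hi : i = 0 ∨ i - 1 = 0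
    · rw [if_pos hi, if_pos hi, add_zero]
      rfl
    · rw [if_neg hi, if_neg hi, h1]
      rfl
  · intro a b
    refine LinearMap.ext fun v => funext fun i => ?_
    rw [LinearMap.add_apply, Pi.add_apply, Module.End.mul_apply, Module.End.mul_apply, relc_shf,
      relc_shf, LinearMap.neg_apply, Pi.neg_apply, LinearMap.sum_apply, Finset.sum_apply]
    simp only [Module.End.mul_apply, relc_shf]
    by_cases hi : i = 0 ∨ i - 1 = 0
    · simp only [if_pos hi]
      simp
    · simp only [if_neg hi]
      exact h2 a b _
  · refine LinearMap.ext fun v => funext fun i => ?_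
    rw [Module.End.mul_apply, relc_shf]
    by_cases hi : i = 0 ∨ i - 1 = 0
    · rw [if_pos hi]
      rfl
    · rw [if_neg hi, h3]
      rfl
  · intro i j
    refine LinearMap.ext fun v => funext fun l => ?_
    rw [Module.End.mul_apply, eW_apply, eW_apply]
    by_cases hij : i = j
    · subst hij
      rw [if_pos rfl, eW_apply]
      by_cases hl : (l : ℕ) = i
      · rw [if_pos hl]
      · rw [if_neg hl, if_neg hl]
    · rw [if_neg hij]
      by_cases hl : (l : ℕ) = i
      · rw [if_pos hl, if_neg (by omega)]
        rfl
      · rw [if_neg hl]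
        rfl
  · intro j hj
    refine LinearMap.ext fun v => funext fun l => ?_
    rw [eW_apply, if_neg (by omega)]
    rfl
  · refine LinearMap.ext fun v => funext fun l => ?_
    rw [LinearMap.sum_apply, Finset.sum_apply]
    simp only [eW_apply]
    rw [Finset.sum_ite_eq, if_pos (Finset.mem_range.2 l.2)]
    rfl
  · intro a b j
    exact relc_eshf _ _
  · intro a b
    exact relc_e0shf _
  · intro j
    exact relc_eshf _ _
  · exact relc_e0shf _

/-- Restriction of a representation of `G` to an invariant subspace. -/
theorem IsG.restrict {e : ℕ → Module.End k M} {xi : Fin 2 → Fin 2 → Module.End k M}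
    {tau : Module.End k M} (h : IsG e xi tau) (p : Submodule k M)
    (he : ∀ j, ∀ m ∈ p, e j m ∈ p) (hxi : ∀ a b, ∀ m ∈ p, xi a b m ∈ p)
    (htau : ∀ m ∈ p, tau m ∈ p) :
    IsG (fun j => (e j).restrict (he j)) (fun a b => (xi a b).restrict (hxi a b))
      (tau.restrict htau) := by
  refine { xi_xi := ?_, tau_xi := ?_, tau_tau := ?_, e_mul := ?_, e_big := ?_, e_sum := ?_,
           xi_e := ?_, e0_xi := ?_, tau_e := ?_, e0_tau := ?_ }
  · intro a b c d
    exact LinearMap.ext fun m => Subtype.ext (LinearMap.congr_fun (h.xi_xi a b c d) (m : M))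
  · intro a b
    refine LinearMap.ext fun m => Subtype.ext ?_
    have := LinearMap.congr_fun (h.tau_xi a b) (m : M)
    simp only [LinearMap.add_apply, Module.End.mul_apply, LinearMap.neg_apply,
      LinearMap.sum_apply] at this
    simp only [LinearMap.add_apply, Module.End.mul_apply, LinearMap.neg_apply,
      LinearMap.sum_apply, Submodule.coe_add, Submodule.coe_neg, Submodule.coe_sum,
      LinearMap.coe_restrict_apply]
    exact this
  · exact LinearMap.ext fun m => Subtype.ext (LinearMap.congr_fun h.tau_tau (m : M))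
  · intro i j
    refine LinearMap.ext fun m => Subtype.ext ?_
    have := LinearMap.congr_fun (h.e_mul i j) (m : M)
    by_cases hij : i = j
    · rw [if_pos hij] at this ⊢
      exact this
    · rw [if_neg hij] at this ⊢
      exact this
  · intro j hj
    exact LinearMap.ext fun m => Subtype.ext (LinearMap.congr_fun (h.e_big j hj) (m : M))
  · refine LinearMap.ext fun m => Subtype.ext ?_
    have := LinearMap.congr_fun h.e_sum (m : M)
    simp only [LinearMap.sum_apply] at this
    simp only [LinearMap.sum_apply, Submodule.coe_sum, LinearMap.coe_restrict_apply]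
    exact this
  · intro a b j
    exact LinearMap.ext fun m => Subtype.ext (LinearMap.congr_fun (h.xi_e a b j) (m : M))
  · intro a b
    exact LinearMap.ext fun m => Subtype.ext (LinearMap.congr_fun (h.e0_xi a b) (m : M))
  · intro j
    exact LinearMap.ext fun m => Subtype.ext (LinearMap.congr_fun (h.tau_e j) (m : M))
  · exact LinearMap.ext fun m => Subtype.ext (LinearMap.congr_fun h.e0_tau (m : M))

/-- Windows are stable under the idempotents. -/
theorem eW_mem_winS (gr : ℤ → Submodule k M) (s j : ℕ) (v : Fin 6 → M) (hv : v ∈ winS gr s) :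
    eW (k := k) j v ∈ winS gr s := by
  rw [mem_winS] at hv ⊢
  intro i
  rw [eW_apply]
  by_cases h : (i : ℕ) = j
  · rw [if_pos h]
    exact hv i
  · rw [if_neg h]
    exact Submodule.zero_mem _

/-- Windows are stable under shifts of operators of degree one. -/
theorem shf_mem_winS (gr : ℤ → Submodule k M) (f : Module.End k M)
    (hf : ∀ j m, m ∈ gr j → f m ∈ gr (j + 1)) (s : ℕ) (v : Fin 6 → M) (hv : v ∈ winS gr s) :
    shf f v ∈ winS gr s := by
  rw [mem_winS] at hv ⊢
  intro i
  rw [shf_apply]
  by_cases h : i = 0
  · rw [if_pos h]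
    exact Submodule.zero_mem _
  · rw [if_neg h]
    have h1 := hf _ _ (hv (i - 1))
    have h2 : ((((i - 1 : Fin 6) : ℕ) : ℤ) - (s : ℤ) + 1) = (((i : ℕ) : ℤ) - (s : ℤ)) := by
      have := relc_val i h
      omega
    rw [h2] at h1
    exact h1

end P176
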