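import Vale.Agent.P176.RelE

/-!
# P176, module RELQ: `F(N)`, `Q(N)` and `Z(N)` satisfy the relations
-/

namespace P176

variable {k : Type} [Field k] {M : Type} [AddCommGroup M] [Module k M]

/-- `F(N)` is a representation of `G` if `e 0 = 0` on `N`. -/
theorem isG_F {e : ℕ → Module.End k M} {xi : Fin 2 → Fin 2 → Module.End k M}
    {tau : Module.End k M} (h : IsG e xi tau) (h0 : e 0 = 0) :
    IsG (eF e) (xiE xi) (tauE xi tau) := by
  have hmul : ∀ i j m, e i (e j m) = if i = j then e i m else 0 := by
    intro i j m
    have := LinearMap.congr_fun (h.e_mul i j) m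
    rw [Module.End.mul_apply] at this
    rw [this]
    split_ifs <;> rfl
  have hxe : ∀ a b j m, xi a b (e j m) = e (j + 1) (xi a b m) := fun a b j m =>
    LinearMap.congr_fun (h.xi_e a b j) m
  have hte : ∀ j m, tau (e j m) = e (j + 1) (tau m) := fun j m =>
    LinearMap.congr_fun (h.tau_e j) m
  have h0' : ∀ m, e 0 m = 0 := fun m => by rw [h0]; rfl
  have hx1 : ∀ a b m, e 1 (xi a b m) = 0 := fun a b m => by
    have := hxe a b 0 m
    rw [h0', map_zero] at this
    exact this.symm
  have ht1 : ∀ m, e 1 (tau m) = 0 := fun m => by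
    have := hte 0 m
    rw [h0', map_zero] at this
    exact this.symm
  refine ⟨isB_E h.toIsB, ?_, ?_, ?_, ?_, ?_, ?_, ?_⟩
  · intro i j
    refine LinearMap.ext fun u => ?_
    rw [Module.End.mul_apply]
    by_cases hij : i = j
    · subst hij
      rw [if_pos rfl]
      refine Prod.ext (funext fun c => ?_) (funext fun c => ?_)
      · simp [hmul]
      · simp [hmul]
    · rw [if_neg hij]
      refine Prod.ext (funext fun c => ?_) (funext fun c => ?_)
      · simp [hmul, hij]
      · simp [hmul, hij]
  · intro j hj
    refine LinearMap.ext fun u => ?_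
    refine Prod.ext (funext fun c => ?_) (funext fun c => ?_)
    · simp [h.e_big (j + 1) (by omega)]
    · simp [h.e_big j hj]
  · refine LinearMap.ext fun u => ?_
    have hs : ∀ m, ∑ j ∈ Finset.range 6, e j m = m := fun m => by
      have := LinearMap.congr_fun h.e_sum m
      rw [LinearMap.sum_apply] at this
      exact this
    have hs1 : ∀ m, ∑ j ∈ Finset.range 6, e (j + 1) m = m := fun m => by
      have h1 : ∑ j ∈ Finset.range 7, e j m = ∑ j ∈ Finset.range 6, e (j + 1) m + e 0 m :=
        Finset.sum_range_succ' _ _
      have h2 : ∑ j ∈ Finset.range 7, e j m = ∑ j ∈ Finset.range 6, e j m + e 6 m :=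
        Finset.sum_range_succ _ _
      rw [h0', add_zero] at h1
      rw [← h1, h2, hs, h.e_big 6 le_rfl]
      simp
    rw [LinearMap.sum_apply]
    refine Prod.ext (funext fun c => ?_) (funext fun c => ?_)
    · rw [Prod.fst_sum, Finset.sum_apply]
      exact hs1 (u.1 c)
    · rw [Prod.snd_sum, Finset.sum_apply]
      exact hs (u.2 c)
  · intro a b j
    refine LinearMap.ext fun u => ?_
    rw [Module.End.mul_apply, Module.End.mul_apply]
    refine Prod.ext (funext fun c => ?_) (funext fun c => ?_)
    · simp [hxe]
    · simp only [xiE_apply, eF_apply, wmap_apply, Pi.sub_apply, Pi.neg_apply, thW_apply, map_sub,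
        map_neg, hxe]
      congr 1
      congr 1
      · split_ifs <;> simp
      · split_ifs <;> simp
  · intro a b
    refine LinearMap.ext fun u => ?_
    rw [Module.End.mul_apply]
    refine Prod.ext (funext fun c => ?_) (funext fun c => ?_)
    · simp [hx1]
    · simp [h0']
  · intro j
    refine LinearMap.ext fun u => ?_
    rw [Module.End.mul_apply, Module.End.mul_apply]
    refine Prod.ext (funext fun c => ?_) (funext fun c => ?_)
    · simp [hxe, hte]
    · simp [hxe, hte]
  · refine LinearMap.ext fun u => ?_
    rw [Module.End.mul_apply]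
    refine Prod.ext (funext fun c => ?_) (funext fun c => ?_)
    · simp [hx1, ht1]
    · simp [h0']

/-- the product of two representations of `G` -/
private theorem relQ_prod {M' : Type} [AddCommGroup M'] [Module k M']
    {e : ℕ → Module.End k M} {xi : Fin 2 → Fin 2 → Module.End k M} {tau : Module.End k M}
    {e' : ℕ → Module.End k M'} {xi' : Fin 2 → Fin 2 → Module.End k M'} {tau' : Module.End k M'}
    (h : IsG e xi tau) (h' : IsG e' xi' tau') :
    IsG (fun j => (e j).prodMap (e' j)) (fun a b => (xi a b).prodMap (xi' a b))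
      (tau.prodMap tau') where
  xi_xi a b c d := by
    refine LinearMap.ext fun u => Prod.ext ?_ ?_
    · exact LinearMap.congr_fun (h.xi_xi a b c d) u.1
    · exact LinearMap.congr_fun (h'.xi_xi a b c d) u.2
  tau_xi a b := by
    refine LinearMap.ext fun u => Prod.ext ?_ ?_
    · have := LinearMap.congr_fun (h.tau_xi a b) u.1
      simp only [LinearMap.add_apply, Module.End.mul_apply, LinearMap.neg_apply,
        LinearMap.sum_apply, LinearMap.prodMap_apply, Prod.fst_add, Prod.fst_neg,
        Prod.fst_sum] at this ⊢
      exact this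
    · have := LinearMap.congr_fun (h'.tau_xi a b) u.2
      simp only [LinearMap.add_apply, Module.End.mul_apply, LinearMap.neg_apply,
        LinearMap.sum_apply, LinearMap.prodMap_apply, Prod.snd_add, Prod.snd_neg,
        Prod.snd_sum] at this ⊢
      exact this
  tau_tau := by
    refine LinearMap.ext fun u => Prod.ext ?_ ?_
    · exact LinearMap.congr_fun h.tau_tau u.1
    · exact LinearMap.congr_fun h'.tau_tau u.2
  e_mul i j := by
    by_cases hij : i = j
    · rw [if_pos hij]
      refine LinearMap.ext fun u => Prod.ext ?_ ?_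
      · have := LinearMap.congr_fun (h.e_mul i j) u.1
        rw [if_pos hij] at this
        exact this
      · have := LinearMap.congr_fun (h'.e_mul i j) u.2
        rw [if_pos hij] at this
        exact this
    · rw [if_neg hij]
      refine LinearMap.ext fun u => Prod.ext ?_ ?_
      · have := LinearMap.congr_fun (h.e_mul i j) u.1
        rw [if_neg hij] at this
        exact this
      · have := LinearMap.congr_fun (h'.e_mul i j) u.2
        rw [if_neg hij] at this
        exact this
  e_big j hj := by
    refine LinearMap.ext fun u => Prod.ext ?_ ?_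
    · exact LinearMap.congr_fun (h.e_big j hj) u.1
    · exact LinearMap.congr_fun (h'.e_big j hj) u.2
  e_sum := by
    refine LinearMap.ext fun u => Prod.ext ?_ ?_
    · have := LinearMap.congr_fun h.e_sum u.1
      simp only [LinearMap.sum_apply, LinearMap.prodMap_apply, Prod.fst_sum] at this ⊢
      exact this
    · have := LinearMap.congr_fun h'.e_sum u.2
      simp only [LinearMap.sum_apply, LinearMap.prodMap_apply, Prod.snd_sum] at this ⊢
      exact this
  xi_e a b j := by
    refine LinearMap.ext fun u => Prod.ext ?_ ?_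
    · exact LinearMap.congr_fun (h.xi_e a b j) u.1
    · exact LinearMap.congr_fun (h'.xi_e a b j) u.2
  e0_xi a b := by
    refine LinearMap.ext fun u => Prod.ext ?_ ?_
    · exact LinearMap.congr_fun (h.e0_xi a b) u.1
    · exact LinearMap.congr_fun (h'.e0_xi a b) u.2
  tau_e j := by
    refine LinearMap.ext fun u => Prod.ext ?_ ?_
    · exact LinearMap.congr_fun (h.tau_e j) u.1
    · exact LinearMap.congr_fun (h'.tau_e j) u.2
  e0_tau := by
    refine LinearMap.ext fun u => Prod.ext ?_ ?_
    · exact LinearMap.congr_fun h.e0_tau u.1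
    · exact LinearMap.congr_fun h'.e0_tau u.2

private theorem relQ_single (f : Module.End k M) (c : Fin 2) (m : M) :
    wmap f (Pi.single c m) = Pi.single c (f m) := by
  funext x
  rw [wmap_apply]
  by_cases hx : x = c
  · subst hx
    simp
  · simp [hx]

private theorem relQ_tauW (xi : Fin 2 → Fin 2 → Module.End k M) (tau : Module.End k M)
    (c : Fin 2) (m : M) :
    tauW xi tau (Pi.single c m) = Pi.single c (tau m) - ∑ b, Pi.single b (xi c b m) := by
  funext x
  rw [tauW_apply, Pi.sub_apply, Finset.sum_apply]
  have h1 : ∑ a, xi a x ((Pi.single c m : Fin 2 → M) a) = xi c x m := by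
    rw [Finset.sum_eq_single c]
    · rw [Pi.single_eq_same]
    · intro b _ hb
      rw [Pi.single_eq_of_ne hb, map_zero]
    · intro hc
      exact absurd (Finset.mem_univ c) hc
  have h2 : ∑ b, (Pi.single b (xi c b m) : Fin 2 → M) x = xi c x m := by
    rw [Finset.sum_eq_single x]
    · rw [Pi.single_eq_same]
    · intro b _ hb
      rw [Pi.single_eq_of_ne (Ne.symm hb)]
    · intro hc
      exact absurd (Finset.mem_univ x) hc
  rw [h1, h2]
  congr 1
  by_cases hx : x = c
  · subst hx
    simp
  · simp [hx]

/-- `Q(N)` is a representation of `A` if `e 0 = 0` on `N`. -/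
theorem isRep_Q {e : ℕ → Module.End k M} {xi : Fin 2 → Fin 2 → Module.End k M}
    {tau : Module.End k M} (h : IsG e xi tau) (h0 : e 0 = 0) :
    IsRep (opQ e xi tau) := by
  have hG : IsG (fun j => opQ e xi tau (.e j)) (fun a b => opQ e xi tau (.xi a b))
      (opQ e xi tau .tau) := relQ_prod h (isG_F h h0)
  have h0' : ∀ m, e 0 m = 0 := fun m => by rw [h0]; rfl
  refine ⟨hG, ?_, ?_, ?_, ?_, ?_, ?_, ?_, ?_, ?_, ?_, ?_, ?_⟩
  · intro c j
    refine LinearMap.ext fun u => ?_
    rw [Module.End.mul_apply, Module.End.mul_apply]
    simp only [opQ_al, opQ_e, eF_apply, relQ_single, map_zero]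
  · intro c
    refine LinearMap.ext fun u => ?_
    rw [Module.End.mul_apply]
    simp only [opQ_al, opQ_e, h0', Pi.single_zero]
    rfl
  · intro c j
    refine LinearMap.ext fun u => ?_
    rw [Module.End.mul_apply, Module.End.mul_apply]
    simp only [opQ_be, opQ_e, eF_apply, relQ_single, map_zero]
  · intro c
    refine LinearMap.ext fun u => ?_
    rw [Module.End.mul_apply]
    simp only [opQ_be, opQ_e, h0', Pi.single_zero]
    rfl
  · intro c d
    refine LinearMap.ext fun u => ?_
    rw [Module.End.mul_apply]
    simp only [opQ_al, Pi.single_zero]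
    rfl
  · intro c d
    refine LinearMap.ext fun u => ?_
    rw [Module.End.mul_apply]
    simp only [opQ_al, opQ_be, Pi.single_zero]
    rfl
  · intro c d
    refine LinearMap.ext fun u => ?_
    rw [Module.End.mul_apply]
    simp only [opQ_al, opQ_be, Pi.single_zero]
    rfl
  · intro c d
    refine LinearMap.ext fun u => ?_
    rw [Module.End.mul_apply]
    simp only [opQ_be, Pi.single_zero]
    rfl
  · intro a b c
    refine LinearMap.ext fun u => ?_
    rw [LinearMap.sub_apply, LinearMap.add_apply, Module.End.mul_apply, Module.End.mul_apply]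
    simp only [opQ_al, opQ_xi, xiE_apply, relQ_single, map_zero]
    refine Prod.ext ?_ (Prod.ext ?_ ?_)
    · split_ifs <;> simp
    · split_ifs <;> simp
    · funext x
      fin_cases a <;> fin_cases b <;> fin_cases c <;> fin_cases x <;> simp
  · intro a b c
    refine LinearMap.ext fun u => ?_
    rw [LinearMap.neg_apply, Module.End.mul_apply, Module.End.mul_apply]
    simp only [opQ_be, opQ_xi, xiE_apply, relQ_single, map_zero]
    simp
  · intro c
    refine LinearMap.ext fun u => ?_
    rw [LinearMap.sub_apply, LinearMap.sum_apply, Module.End.mul_apply, Module.End.mul_apply]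
    simp only [opQ_al, opQ_tau, tauE_apply, relQ_tauW, map_zero, Module.End.mul_apply, opQ_xi]
    refine Prod.ext ?_ (Prod.ext ?_ ?_)
    · simp [Prod.fst_sum]
    · simp [Prod.fst_sum, Prod.snd_sum]
    · simp [Prod.snd_sum]
  · intro c
    refine LinearMap.ext fun u => ?_
    rw [LinearMap.add_apply, LinearMap.neg_apply, LinearMap.sum_apply, Module.End.mul_apply,
      Module.End.mul_apply]
    simp only [opQ_be, opQ_tau, tauE_apply, relQ_tauW, map_zero, Module.End.mul_apply, opQ_xi]
    refine Prod.ext ?_ (Prod.ext ?_ ?_)
    · simp [Prod.fst_sum]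
    · simp [Prod.fst_sum, Prod.snd_sum]
    · simp [Prod.snd_sum]
      abel

/-- `Z(N)` is a representation of `A`. -/
theorem isRep_Z {e : ℕ → Module.End k M} {xi : Fin 2 → Fin 2 → Module.End k M}
    {tau : Module.End k M} (h : IsG e xi tau) :
    IsRep (opZ e xi tau) := by
  have hG : IsG (fun j => opZ e xi tau (.e j)) (fun a b => opZ e xi tau (.xi a b))
      (opZ e xi tau .tau) := h
  refine ⟨hG, ?_, ?_, ?_, ?_, ?_, ?_, ?_, ?_, ?_, ?_, ?_, ?_⟩
  all_goals
    intros
    simp [opZ]

end P176
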