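import Vale.Agent.P176.Defs

/-!
# P176, module TRANS: transfer of the relations along ring homomorphisms, products
-/

namespace P176

variable {k : Type} [Field k]

/-- Transfer of the relations of `G` along injective ring homomorphisms. -/
theorem IsG.of_inj {R S : Type} [Ring R] [Ring S] (f : R →+* S) (hf : Function.Injective f)
    {e : ℕ → R} {xi : Fin 2 → Fin 2 → R} {tau : R}
    (h : IsG (fun j => f (e j)) (fun a b => f (xi a b)) (f tau)) : IsG e xi tau where
  xi_xi a b c d := hf (by simpa using h.xi_xi a b c d)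
  tau_xi a b := hf (by simpa using h.tau_xi a b)
  tau_tau := hf (by simpa using h.tau_tau)
  e_mul i j := hf (by
    have h1 := h.e_mul i j
    rw [map_mul, h1]
    split_ifs
    · rfl
    · rw [map_zero])
  e_big j hj := hf (by simpa using h.e_big j hj)
  e_sum := hf (by rw [map_sum, map_one]; exact h.e_sum)
  xi_e a b j := hf (by simpa using h.xi_e a b j)
  e0_xi a b := hf (by simpa using h.e0_xi a b)
  tau_e j := hf (by simpa using h.tau_e j)
  e0_tau := hf (by simpa using h.e0_tau)

/-- Transfer of the relations of `A` along an injective ring homomorphism. -/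
theorem IsRep.of_inj {R S : Type} [Ring R] [Ring S] (f : R →+* S) (hf : Function.Injective f)
    {op : Gen → R} (h : IsRep fun g => f (op g)) : IsRep op where
  toIsG := IsG.of_inj f hf h.toIsG
  al_e c j := hf (by simpa using h.al_e c j)
  al_e0 c := hf (by simpa using h.al_e0 c)
  be_e c j := hf (by simpa using h.be_e c j)
  be_e0 c := hf (by simpa using h.be_e0 c)
  al_al c d := hf (by simpa using h.al_al c d)
  al_be c d := hf (by simpa using h.al_be c d)
  be_al c d := hf (by simpa using h.be_al c d)
  be_be c d := hf (by simpa using h.be_be c d)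
  xi_al a b c := hf (by
    have h1 := h.xi_al a b c
    rw [map_mul, h1, map_sub, map_add, map_mul, apply_ite f, apply_ite f, map_zero])
  xi_be a b c := hf (by simpa using h.xi_be a b c)
  tau_al c := hf (by
    have h1 := h.tau_al c
    simp only [map_mul, map_sub, map_sum] at h1 ⊢
    exact h1)
  tau_be c := hf (by
    have h1 := h.tau_be c
    simp only [map_mul, map_neg, map_add, map_sum] at h1 ⊢
    exact h1)

private theorem trans_IsG_map {R S : Type} [Ring R] [Ring S] (f : R →+* S)
    {e : ℕ → R} {xi : Fin 2 → Fin 2 → R} {tau : R} (h : IsG e xi tau) :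
    IsG (fun j => f (e j)) (fun a b => f (xi a b)) (f tau) where
  xi_xi a b c d := by rw [← map_mul, ← map_mul, ← map_add, h.xi_xi, map_zero]
  tau_xi a b := by
    rw [← map_mul, ← map_mul, ← map_add, h.tau_xi, map_neg, map_sum]
    simp only [map_mul]
  tau_tau := by rw [← map_mul, h.tau_tau, map_zero]
  e_mul i j := by
    rw [← map_mul, h.e_mul, apply_ite f, map_zero]
  e_big j hj := by rw [h.e_big j hj, map_zero]
  e_sum := by rw [← map_sum, h.e_sum, map_one]
  xi_e a b j := by rw [← map_mul, h.xi_e, map_mul]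
  e0_xi a b := by rw [← map_mul, h.e0_xi, map_zero]
  tau_e j := by rw [← map_mul, h.tau_e, map_mul]
  e0_tau := by rw [← map_mul, h.e0_tau, map_zero]

/-- Transfer of the relations of `A` along a ring homomorphism. -/
theorem IsRep.map {R S : Type} [Ring R] [Ring S] (f : R →+* S)
    {op : Gen → R} (h : IsRep op) : IsRep fun g => f (op g) where
  toIsG := trans_IsG_map f h.toIsG
  al_e c j := by rw [← map_mul, h.al_e, map_mul]
  al_e0 c := by rw [← map_mul, h.al_e0, map_zero]
  be_e c j := by rw [← map_mul, h.be_e, map_mul]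
  be_e0 c := by rw [← map_mul, h.be_e0, map_zero]
  al_al c d := by rw [← map_mul, h.al_al, map_zero]
  al_be c d := by rw [← map_mul, h.al_be, map_zero]
  be_al c d := by rw [← map_mul, h.be_al, map_zero]
  be_be c d := by rw [← map_mul, h.be_be, map_zero]
  xi_al a b c := by
    rw [← map_mul, h.xi_al, map_sub, map_add, map_mul, apply_ite f, apply_ite f, map_zero]
  xi_be a b c := by rw [← map_mul, h.xi_be, map_neg, map_mul]
  tau_al c := by
    rw [← map_mul, h.tau_al]
    simp only [map_mul, map_sub, map_sum]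
  tau_be c := by
    rw [← map_mul, h.tau_be]
    simp only [map_mul, map_neg, map_add, map_sum]

private theorem trans_IsG_pi {ι : Type} {R : ι → Type} [∀ i, Ring (R i)]
    {e : ℕ → ∀ i, R i} {xi : Fin 2 → Fin 2 → ∀ i, R i} {tau : ∀ i, R i}
    (h : ∀ i, IsG (fun j => e j i) (fun a b => xi a b i) (tau i)) : IsG e xi tau where
  xi_xi a b c d := funext fun i => (h i).xi_xi a b c d
  tau_xi a b := funext fun i => by
    have h1 := (h i).tau_xi a b
    simpa using h1
  tau_tau := funext fun i => (h i).tau_tau
  e_mul i j := funext fun l => by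
    have h1 := (h l).e_mul i j
    rw [Pi.mul_apply, h1]
    split_ifs <;> rfl
  e_big j hj := funext fun i => (h i).e_big j hj
  e_sum := funext fun i => by
    have h1 := (h i).e_sum
    rw [Finset.sum_apply]
    exact h1
  xi_e a b j := funext fun i => (h i).xi_e a b j
  e0_xi a b := funext fun i => (h i).e0_xi a b
  tau_e j := funext fun i => (h i).tau_e j
  e0_tau := funext fun i => (h i).e0_tau

private theorem trans_IsRep_pi {ι : Type} {R : ι → Type} [∀ i, Ring (R i)]
    {op : Gen → ∀ i, R i} (h : ∀ i, IsRep fun g => op g i) : IsRep op where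
  toIsG := trans_IsG_pi fun i => (h i).toIsG
  al_e c j := funext fun i => (h i).al_e c j
  al_e0 c := funext fun i => (h i).al_e0 c
  be_e c j := funext fun i => (h i).be_e c j
  be_e0 c := funext fun i => (h i).be_e0 c
  al_al c d := funext fun i => (h i).al_al c d
  al_be c d := funext fun i => (h i).al_be c d
  be_al c d := funext fun i => (h i).be_al c d
  be_be c d := funext fun i => (h i).be_be c d
  xi_al a b c := funext fun i => by
    have h1 := (h i).xi_al a b c
    rw [Pi.mul_apply, h1, Pi.sub_apply, Pi.add_apply, Pi.mul_apply]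
    split_ifs <;> rfl
  xi_be a b c := funext fun i => (h i).xi_be a b c
  tau_al c := funext fun i => by
    have h1 := (h i).tau_al c
    rw [Pi.mul_apply, h1, Pi.sub_apply, Pi.mul_apply, Finset.sum_apply]
    rfl
  tau_be c := funext fun i => by
    have h1 := (h i).tau_be c
    rw [Pi.mul_apply, h1, Pi.add_apply, Pi.neg_apply, Pi.mul_apply, Finset.sum_apply]
    rfl

private theorem trans_IsG_prod {R S : Type} [Ring R] [Ring S]
    {e : ℕ → R × S} {xi : Fin 2 → Fin 2 → R × S} {tau : R × S}
    (h : IsG (fun j => (e j).1) (fun a b => (xi a b).1) tau.1)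
    (h' : IsG (fun j => (e j).2) (fun a b => (xi a b).2) tau.2) : IsG e xi tau where
  xi_xi a b c d := Prod.ext (h.xi_xi a b c d) (h'.xi_xi a b c d)
  tau_xi a b := Prod.ext (by simpa [Prod.fst_sum] using h.tau_xi a b)
    (by simpa [Prod.snd_sum] using h'.tau_xi a b)
  tau_tau := Prod.ext h.tau_tau h'.tau_tau
  e_mul i j := Prod.ext (by
      have h1 := h.e_mul i j
      rw [Prod.fst_mul, h1]
      split_ifs <;> rfl) (by
      have h1 := h'.e_mul i j
      rw [Prod.snd_mul, h1]
      split_ifs <;> rfl)
  e_big j hj := Prod.ext (h.e_big j hj) (h'.e_big j hj)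
  e_sum := Prod.ext (by rw [Prod.fst_sum]; exact h.e_sum) (by rw [Prod.snd_sum]; exact h'.e_sum)
  xi_e a b j := Prod.ext (h.xi_e a b j) (h'.xi_e a b j)
  e0_xi a b := Prod.ext (h.e0_xi a b) (h'.e0_xi a b)
  tau_e j := Prod.ext (h.tau_e j) (h'.tau_e j)
  e0_tau := Prod.ext h.e0_tau h'.e0_tau

private theorem trans_IsRep_prod {R S : Type} [Ring R] [Ring S]
    {op : Gen → R × S} (h : IsRep fun g => (op g).1) (h' : IsRep fun g => (op g).2) :
    IsRep op where
  toIsG := trans_IsG_prod h.toIsG h'.toIsG
  al_e c j := Prod.ext (h.al_e c j) (h'.al_e c j)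
  al_e0 c := Prod.ext (h.al_e0 c) (h'.al_e0 c)
  be_e c j := Prod.ext (h.be_e c j) (h'.be_e c j)
  be_e0 c := Prod.ext (h.be_e0 c) (h'.be_e0 c)
  al_al c d := Prod.ext (h.al_al c d) (h'.al_al c d)
  al_be c d := Prod.ext (h.al_be c d) (h'.al_be c d)
  be_al c d := Prod.ext (h.be_al c d) (h'.be_al c d)
  be_be c d := Prod.ext (h.be_be c d) (h'.be_be c d)
  xi_al a b c := Prod.ext (by
      have h1 := h.xi_al a b c
      rw [Prod.fst_mul, h1, Prod.fst_sub, Prod.fst_add, Prod.fst_mul]
      split_ifs <;> rfl) (by
      have h1 := h'.xi_al a b c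
      rw [Prod.snd_mul, h1, Prod.snd_sub, Prod.snd_add, Prod.snd_mul]
      split_ifs <;> rfl)
  xi_be a b c := Prod.ext (h.xi_be a b c) (h'.xi_be a b c)
  tau_al c := Prod.ext (by
      have h1 := h.tau_al c
      rw [Prod.fst_mul, h1, Prod.fst_sub, Prod.fst_mul, Prod.fst_sum]
      rfl) (by
      have h1 := h'.tau_al c
      rw [Prod.snd_mul, h1, Prod.snd_sub, Prod.snd_mul, Prod.snd_sum]
      rfl)
  tau_be c := Prod.ext (by
      have h1 := h.tau_be c
      rw [Prod.fst_mul, h1, Prod.fst_add, Prod.fst_neg, Prod.fst_mul, Prod.fst_sum]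
      rfl) (by
      have h1 := h'.tau_be c
      rw [Prod.snd_mul, h1, Prod.snd_add, Prod.snd_neg, Prod.snd_mul, Prod.snd_sum]
      rfl)

/-- the block diagonal ring homomorphism -/
private def trans_piHom {ι : Type} (M : ι → Type) [∀ i, AddCommGroup (M i)]
    [∀ i, Module k (M i)] : (∀ i, Module.End k (M i)) →+* Module.End k (∀ i, M i) where
  toFun f := LinearMap.pi fun i => f i ∘ₗ LinearMap.proj i
  map_one' := rfl
  map_mul' _ _ := rfl
  map_zero' := rfl
  map_add' _ _ := rfl

/-- Product of relations. -/
theorem isRep_pi {ι : Type} (R : ι → Rep k) :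
    IsRep (fun g => (LinearMap.pi fun i => (R i).op g ∘ₗ LinearMap.proj i :
      Module.End k (∀ i, (R i).M))) :=
  IsRep.map (trans_piHom fun i => (R i).M)
    (trans_IsRep_pi (op := fun g i => (R i).op g) fun i => (R i).isRep)

/-- the block diagonal ring homomorphism -/
private def trans_prodHom (M N : Type) [AddCommGroup M] [AddCommGroup N]
    [Module k M] [Module k N] : (Module.End k M × Module.End k N) →+* Module.End k (M × N) where
  toFun f := f.1.prodMap f.2
  map_one' := rfl
  map_mul' _ _ := rfl
  map_zero' := rfl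
  map_add' _ _ := rfl

/-- Product of relations. -/
theorem isRep_prod (R S : Rep k) :
    IsRep (fun g => ((R.op g).prodMap (S.op g) : Module.End k (R.M × S.M))) :=
  IsRep.map (trans_prodHom R.M S.M)
    (trans_IsRep_prod (op := fun g => (R.op g, S.op g)) R.isRep S.isRep)

end P176
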