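import Vale.Agent.P176.RelE
import Vale.Agent.P176.RelC
import Vale.Agent.P176.RelQ
import Vale.Agent.P176.Transfer

/-!
# P176: bundled constructions
-/

namespace P176

variable {k : Type} [Field k]

section raw

variable {M : Type} [AddCommGroup M] [Module k M]

/-- Homogeneous parts of `M ⊗ W`. -/
def twGr (gr : ℤ → Submodule k M) (j : ℤ) : Submodule k (Fin 2 → M) :=
  Submodule.pi Set.univ fun _ => gr j

theorem mem_twGr (gr : ℤ → Submodule k M) (j : ℤ) (m : Fin 2 → M) :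
    m ∈ twGr gr j ↔ ∀ c, m c ∈ gr j := by
  simp only [twGr, Submodule.mem_pi, Set.mem_univ, forall_const]

/-- Homogeneous parts of `E(M)`. -/
def eeGr (gr : ℤ → Submodule k M) (j : ℤ) : Submodule k ((Fin 2 → M) × (Fin 2 → M)) :=
  (twGr gr j).prod (twGr gr (j - 1))

theorem mem_eeGr (gr : ℤ → Submodule k M) (j : ℤ) (m : (Fin 2 → M) × (Fin 2 → M)) :
    m ∈ eeGr gr j ↔ (∀ c, m.1 c ∈ gr j) ∧ ∀ c, m.2 c ∈ gr (j - 1) := by
  rw [eeGr, Submodule.mem_prod, mem_twGr, mem_twGr]

/-- Homogeneous parts of the cone. -/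
def coneGr (gr : ℤ → Submodule k M) (j : ℤ) : Submodule k (M × M) :=
  (gr j).prod (gr (j - 1))

theorem mem_coneGr (gr : ℤ → Submodule k M) (j : ℤ) (m : M × M) :
    m ∈ coneGr gr j ↔ m.1 ∈ gr j ∧ m.2 ∈ gr (j - 1) := by
  rw [coneGr, Submodule.mem_prod]

end raw

/-- `M ⊗ W`. -/
def DG.tw (G : DG k) : DG k where
  M := Fin 2 → G.M
  xi a b := wmap (G.xi a b)
  tau := tauW G.xi G.tau
  isB := isB_W G.isB
  gr := twGr G.gr
  xi_gr a b j m hm := by
    rw [mem_twGr] at hm ⊢
    exact fun i => G.xi_gr a b j _ (hm i)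
  tau_gr j m hm := by
    rw [mem_twGr] at hm ⊢
    intro i
    rw [tauW_apply]
    exact Submodule.sub_mem _ (G.tau_gr j _ (hm i))
      (Submodule.sum_mem _ fun a _ => G.xi_gr a i j _ (hm a))
  gr_neg j hj := by
    rw [eq_bot_iff]
    intro m hm
    rw [mem_twGr] at hm
    rw [Submodule.mem_bot]
    funext c
    have := hm c
    rw [G.gr_neg j hj, Submodule.mem_bot] at this
    exact this

/-- `E(M)`. -/
def DG.ee (G : DG k) : DG k where
  M := (Fin 2 → G.M) × (Fin 2 → G.M)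
  xi := xiE G.xi
  tau := tauE G.xi G.tau
  isB := isB_E G.isB
  gr := eeGr G.gr
  xi_gr a b j m hm := by
    rw [mem_eeGr] at hm ⊢
    obtain ⟨h1, h2⟩ := hm
    refine ⟨fun c => G.xi_gr a b j _ (h1 c), fun c => ?_⟩
    have e1 : j + 1 - 1 = j - 1 + 1 := by ring
    have e2 : j + 1 - 1 = j := by ring
    have e3 : (xiE G.xi a b m).2 c = -(G.xi a b (m.2 c)) -
        ((if a = b then m.1 c else 0) - (if a = c then m.1 b else 0)) := rfl
    rw [e3]
    refine Submodule.sub_mem _ (Submodule.neg_mem _ ?_) (Submodule.sub_mem _ ?_ ?_)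
    · rw [e1]
      exact G.xi_gr a b _ _ (h2 c)
    · rw [e2]
      split_ifs
      · exact h1 c
      · exact Submodule.zero_mem _
    · rw [e2]
      split_ifs
      · exact h1 b
      · exact Submodule.zero_mem _
  tau_gr j m hm := by
    have e1 : j + 1 - 1 = j - 1 + 1 := by ring
    rw [eeGr, Submodule.mem_prod] at hm ⊢
    refine ⟨G.tw.tau_gr j _ hm.1, Submodule.neg_mem _ ?_⟩
    rw [e1]
    exact G.tw.tau_gr (j - 1) _ hm.2
  gr_neg j hj := by
    rw [eq_bot_iff]
    intro m hm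
    rw [mem_eeGr] at hm
    rw [Submodule.mem_bot]
    refine Prod.ext (funext fun c => ?_) (funext fun c => ?_)
    · have := hm.1 c
      rw [G.gr_neg j hj, Submodule.mem_bot] at this
      exact this
    · have := hm.2 c
      rw [G.gr_neg (j - 1) (by omega), Submodule.mem_bot] at this
      exact this

/-- Endomorphisms of a graded `B`-module, of degree zero. -/
structure DG.Comm (G : DG k) (φ : Module.End k G.M) : Prop where
  xi : ∀ a b, φ * G.xi a b = G.xi a b * φ
  tau : φ * G.tau = G.tau * φ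
  gr : ∀ j m, m ∈ G.gr j → φ m ∈ G.gr j

/-- The cone of an endomorphism. -/
def DG.cone (G : DG k) (φ : Module.End k G.M) (hφ : G.Comm φ) : DG k where
  M := G.M × G.M
  xi := xiC G.xi
  tau := tauC G.tau φ
  isB := isB_C G.isB hφ.xi hφ.tau
  gr := coneGr G.gr
  xi_gr a b j m hm := by
    have e1 : j + 1 - 1 = j - 1 + 1 := by ring
    rw [mem_coneGr] at hm ⊢
    refine ⟨G.xi_gr a b j _ hm.1, ?_⟩
    rw [e1]
    exact Submodule.neg_mem _ (G.xi_gr a b (j - 1) _ hm.2)
  tau_gr j m hm := by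
    have e1 : j + 1 - 1 = j - 1 + 1 := by ring
    have e2 : j + 1 - 1 = j := by ring
    rw [mem_coneGr] at hm ⊢
    refine ⟨G.tau_gr j _ hm.1, Submodule.sub_mem _ ?_ ?_⟩
    · rw [e2]
      exact hφ.gr j _ hm.1
    · rw [e1]
      exact G.tau_gr (j - 1) _ hm.2
  gr_neg j hj := by
    rw [eq_bot_iff]
    intro m hm
    rw [mem_coneGr, G.gr_neg j hj, G.gr_neg (j - 1) (by omega), Submodule.mem_bot,
      Submodule.mem_bot] at hm
    rw [Submodule.mem_bot]
    exact Prod.ext hm.1 hm.2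

/-- Scalars commute with everything. -/
theorem DG.comm_smul (G : DG k) (c : k) : G.Comm (c • (1 : Module.End k G.M)) where
  xi a b := by
    ext m
    simp
  tau := by
    ext m
    simp
  gr j m hm := Submodule.smul_mem _ c hm

/-- The cone of a scalar. -/
def DG.coneC (G : DG k) (c : k) : DG k := G.cone _ (G.comm_smul c)

/-- The first inclusion into the cone (not a morphism for `c ≠ 0`). -/
def DG.cinl (G : DG k) (c : k) : G.M →ₗ[k] (G.coneC c).M := LinearMap.inl k G.M G.M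

/-- The second inclusion into the cone. -/
def DG.cinr (G : DG k) (c : k) : G.M →ₗ[k] (G.coneC c).M := LinearMap.inr k G.M G.M

/-- The first projection of the cone. -/
def DG.cfst (G : DG k) (c : k) : (G.coneC c).M →ₗ[k] G.M := LinearMap.fst k G.M G.M

/-- The second projection of the cone. -/
def DG.csnd (G : DG k) (c : k) : (G.coneC c).M →ₗ[k] G.M := LinearMap.snd k G.M G.M

theorem DG.mem_coneC_gr (G : DG k) (c : k) (j : ℤ) (m : (G.coneC c).M) :
    m ∈ (G.coneC c).gr j ↔ G.cfst c m ∈ G.gr j ∧ G.csnd c m ∈ G.gr (j - 1) :=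
  mem_coneGr G.gr j m

theorem DG.cinl_mem (G : DG k) (c : k) (j : ℤ) (m : G.M) (hm : m ∈ G.gr j) :
    G.cinl c m ∈ (G.coneC c).gr j :=
  (mem_coneGr G.gr j _).2 ⟨hm, Submodule.zero_mem _⟩

theorem DG.cinr_mem (G : DG k) (c : k) (j : ℤ) (m : G.M) (hm : m ∈ G.gr (j - 1)) :
    G.cinr c m ∈ (G.coneC c).gr j :=
  (mem_coneGr G.gr j _).2 ⟨Submodule.zero_mem _, hm⟩

theorem DG.cone_ext (G : DG k) (c : k) {m m' : (G.coneC c).M} (h1 : G.cfst c m = G.cfst c m')
    (h2 : G.csnd c m = G.csnd c m') : m = m' := Prod.ext h1 h2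

@[simp] theorem DG.cfst_cinl (G : DG k) (c : k) (m : G.M) : G.cfst c (G.cinl c m) = m := rfl
@[simp] theorem DG.csnd_cinl (G : DG k) (c : k) (m : G.M) : G.csnd c (G.cinl c m) = 0 := rfl
@[simp] theorem DG.cfst_cinr (G : DG k) (c : k) (m : G.M) : G.cfst c (G.cinr c m) = 0 := rfl
@[simp] theorem DG.csnd_cinr (G : DG k) (c : k) (m : G.M) : G.csnd c (G.cinr c m) = m := rfl

@[simp] theorem DG.cfst_xi (G : DG k) (c : k) (a b : Fin 2) (m : (G.coneC c).M) :
    G.cfst c ((G.coneC c).xi a b m) = G.xi a b (G.cfst c m) := rfl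

@[simp] theorem DG.csnd_xi (G : DG k) (c : k) (a b : Fin 2) (m : (G.coneC c).M) :
    G.csnd c ((G.coneC c).xi a b m) = -G.xi a b (G.csnd c m) := rfl

@[simp] theorem DG.cfst_tau (G : DG k) (c : k) (m : (G.coneC c).M) :
    G.cfst c ((G.coneC c).tau m) = G.tau (G.cfst c m) := rfl

@[simp] theorem DG.csnd_tau (G : DG k) (c : k) (m : (G.coneC c).M) :
    G.csnd c ((G.coneC c).tau m) = c • G.cfst c m - G.tau (G.csnd c m) := rfl

/-- The window of a graded `B`-module, placed at the vertices `s, s + 1, ..., 5`. -/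
def DG.win (G : DG k) (s : ℕ) : GRep k where
  M := winS G.gr s
  e j := (eW (k := k) j).restrict (eW_mem_winS G.gr s j)
  xi a b := (shf (G.xi a b)).restrict (shf_mem_winS G.gr (G.xi a b) (G.xi_gr a b) s)
  tau := (shf G.tau).restrict (shf_mem_winS G.gr G.tau G.tau_gr s)
  isG := (isG_win G.isB).restrict (winS G.gr s) (eW_mem_winS G.gr s)
    (fun a b => shf_mem_winS G.gr (G.xi a b) (G.xi_gr a b) s)
    (shf_mem_winS G.gr G.tau G.tau_gr s)

/-- Elements of a window as functions. -/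
def DG.wval (G : DG k) (s : ℕ) : (G.win s).M →ₗ[k] (Fin 6 → G.M) := (winS G.gr s).subtype

theorem DG.wval_inj (G : DG k) (s : ℕ) {v w : (G.win s).M} (h : G.wval s v = G.wval s w) :
    v = w := Subtype.ext h

theorem DG.wval_mem (G : DG k) (s : ℕ) (v : (G.win s).M) (i : Fin 6) :
    G.wval s v i ∈ G.gr (((i : ℕ) : ℤ) - (s : ℤ)) := (mem_winS G.gr s _).1 v.2 i

@[simp] theorem DG.wval_e (G : DG k) (s : ℕ) (j : ℕ) (v : (G.win s).M) (i : Fin 6) :
    G.wval s ((G.win s).e j v) i = if (i : ℕ) = j then G.wval s v i else 0 := rfl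

@[simp] theorem DG.wval_xi (G : DG k) (s : ℕ) (a b : Fin 2) (v : (G.win s).M) (i : Fin 6) :
    G.wval s ((G.win s).xi a b v) i = if i = 0 then 0 else G.xi a b (G.wval s v (i - 1)) := rfl

@[simp] theorem DG.wval_tau (G : DG k) (s : ℕ) (v : (G.win s).M) (i : Fin 6) :
    G.wval s ((G.win s).tau v) i = if i = 0 then 0 else G.tau (G.wval s v (i - 1)) := rfl

/-- Make an element of a window from a function. -/
def DG.wmk (G : DG k) (s : ℕ) (v : Fin 6 → G.M)
    (hv : ∀ i : Fin 6, v i ∈ G.gr (((i : ℕ) : ℤ) - (s : ℤ))) : (G.win s).M :=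
  ⟨v, (mem_winS G.gr s v).2 hv⟩

@[simp] theorem DG.wval_wmk (G : DG k) (s : ℕ) (v : Fin 6 → G.M)
    (hv : ∀ i : Fin 6, v i ∈ G.gr (((i : ℕ) : ℤ) - (s : ℤ))) :
    G.wval s (G.wmk s v hv) = v := rfl

theorem DG.win_e0 (G : DG k) (s : ℕ) : (G.win (s + 1)).e 0 = 0 := by
  refine LinearMap.ext fun v => G.wval_inj _ (funext fun i => ?_)
  have hv := G.wval_mem (s + 1) v i
  rw [DG.wval_e, LinearMap.zero_apply, map_zero]
  split_ifs with h
  · rw [G.gr_neg _ (by rw [h]; push_cast; omega), Submodule.mem_bot] at hv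
    exact hv
  · rfl

/-- `Z(N)`. -/
def GRep.Z (N : GRep k) : Rep k where
  M := N.M
  op := opZ N.e N.xi N.tau
  isRep := isRep_Z N.isG

/-- `F(N)`. -/
def GRep.F (N : GRep k) (h0 : N.e 0 = 0) : GRep k where
  M := (Fin 2 → N.M) × (Fin 2 → N.M)
  e := eF N.e
  xi := xiE N.xi
  tau := tauE N.xi N.tau
  isG := isG_F N.isG h0

/-- `Q(N)`. -/
def GRep.Q (N : GRep k) (h0 : N.e 0 = 0) : Rep k where
  M := N.M × (Fin 2 → N.M) × (Fin 2 → N.M)
  op := opQ N.e N.xi N.tau
  isRep := isRep_Q N.isG h0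

/-- The underlying representation of `G`. -/
def Rep.toG (R : Rep k) : GRep k where
  M := R.M
  e j := R.op (.e j)
  xi a b := R.op (.xi a b)
  tau := R.op .tau
  isG := R.isRep.toIsG

/-- Product of two representations. -/
def Rep.prod (R S : Rep k) : Rep k where
  M := R.M × S.M
  op g := (R.op g).prodMap (S.op g)
  isRep := isRep_prod R S

/-- Product of a family of representations. -/
def Rep.pi {ι : Type} (R : ι → Rep k) : Rep k where
  M := ∀ i, (R i).M
  op g := LinearMap.pi fun i => (R i).op g ∘ₗ LinearMap.proj i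
  isRep := isRep_pi R

end P176
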