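import Mathlib

/-!
# P176: basic definitions

The quadratic algebra `B` (generators `xi a b`, `tau`), its window algebra `G` (idempotents
`e 0, ..., e 5`), and the trivial extension `A` of `G` by a bimodule (generators `al c`, `be c`),
all described by relations.  `Rep k` is the category of representations of `A`.
-/

namespace P176

/-- The relations of the quadratic algebra `B` in a ring. -/
structure IsB {R : Type} [Ring R] (xi : Fin 2 → Fin 2 → R) (tau : R) : Prop where
  xi_xi : ∀ a b c d, xi a b * xi c d + xi c d * xi a b = 0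
  tau_xi : ∀ a b, tau * xi a b + xi a b * tau = -∑ l, xi a l * xi l b
  tau_tau : tau * tau = 0

/-- The relations of the window algebra `G` in a ring. -/
structure IsG {R : Type} [Ring R] (e : ℕ → R) (xi : Fin 2 → Fin 2 → R) (tau : R) : Prop
    extends IsB xi tau where
  e_mul : ∀ i j, e i * e j = if i = j then e i else 0
  e_big : ∀ j, 6 ≤ j → e j = 0
  e_sum : ∑ j ∈ Finset.range 6, e j = 1
  xi_e : ∀ a b j, xi a b * e j = e (j + 1) * xi a b
  e0_xi : ∀ a b, e 0 * xi a b = 0
  tau_e : ∀ j, tau * e j = e (j + 1) * tau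
  e0_tau : e 0 * tau = 0

/-- The generators of the algebra `A`. -/
inductive Gen : Type
  | e (j : ℕ) : Gen
  | xi (a b : Fin 2) : Gen
  | tau : Gen
  | al (c : Fin 2) : Gen
  | be (c : Fin 2) : Gen

/-- The relations of the algebra `A` in a ring. -/
structure IsRep {R : Type} [Ring R] (op : Gen → R) : Prop
    extends IsG (fun j => op (.e j)) (fun a b => op (.xi a b)) (op .tau) where
  al_e : ∀ c j, op (.al c) * op (.e (j + 1)) = op (.e j) * op (.al c)
  al_e0 : ∀ c, op (.al c) * op (.e 0) = 0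
  be_e : ∀ c j, op (.be c) * op (.e j) = op (.e j) * op (.be c)
  be_e0 : ∀ c, op (.be c) * op (.e 0) = 0
  al_al : ∀ c d, op (.al c) * op (.al d) = 0
  al_be : ∀ c d, op (.al c) * op (.be d) = 0
  be_al : ∀ c d, op (.be c) * op (.al d) = 0
  be_be : ∀ c d, op (.be c) * op (.be d) = 0
  xi_al : ∀ a b c, op (.xi a b) * op (.al c) =
    op (.al c) * op (.xi a b) + (if b = c then op (.be a) else 0) -
      (if a = b then op (.be c) else 0)
  xi_be : ∀ a b c, op (.xi a b) * op (.be c) = -(op (.be c) * op (.xi a b))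
  tau_al : ∀ c, op .tau * op (.al c) =
    op (.al c) * op .tau - ∑ b, op (.al b) * op (.xi c b)
  tau_be : ∀ c, op .tau * op (.be c) =
    -(op (.be c) * op .tau) + ∑ b, op (.be b) * op (.xi c b)

section raw

variable {k : Type} [Field k] {M : Type} [AddCommGroup M] [Module k M]

/-- A linear map acting on the components of a `W`-valued vector. -/
def wmap (f : Module.End k M) : Module.End k (Fin 2 → M) :=
  LinearMap.pi fun c => f ∘ₗ LinearMap.proj c

@[simp] theorem wmap_apply (f : Module.End k M) (u : Fin 2 → M) (c : Fin 2) :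
    wmap f u c = f (u c) := rfl

/-- The operators `θ a b` on `W`-valued vectors: `(θ a b u) c = δ_ab u_c - δ_ac u_b`. -/
def thW (a b : Fin 2) : Module.End k (Fin 2 → M) where
  toFun u := fun c => (if a = b then u c else 0) - (if a = c then u b else 0)
  map_add' u v := by
    ext c
    simp only [Pi.add_apply]
    split_ifs <;> abel
  map_smul' r u := by
    ext c
    simp only [Pi.smul_apply, RingHom.id_apply, smul_sub, smul_ite, smul_zero]

@[simp] theorem thW_apply (a b : Fin 2) (u : Fin 2 → M) (c : Fin 2) :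
    thW (k := k) a b u c = (if a = b then u c else 0) - (if a = c then u b else 0) := rfl

/-- The differential on `M ⊗ W`: `(τ_W u) c = τ u_c - ∑ a, ξ_ac u_a`. -/
def tauW (xi : Fin 2 → Fin 2 → Module.End k M) (tau : Module.End k M) :
    Module.End k (Fin 2 → M) :=
  LinearMap.pi fun c => tau ∘ₗ LinearMap.proj c - ∑ a, xi a c ∘ₗ LinearMap.proj a

@[simp] theorem tauW_apply (xi : Fin 2 → Fin 2 → Module.End k M) (tau : Module.End k M)
    (u : Fin 2 → M) (c : Fin 2) :
    tauW xi tau u c = tau (u c) - ∑ a, xi a c (u a) := by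
  simp [tauW]

/-- The operators `ξ` on `E(M) = (M ⊗ W) × (M ⊗ W)`. -/
def xiE (xi : Fin 2 → Fin 2 → Module.End k M) (a b : Fin 2) :
    Module.End k ((Fin 2 → M) × (Fin 2 → M)) :=
  LinearMap.prod (wmap (xi a b) ∘ₗ LinearMap.fst k _ _)
    (-(wmap (xi a b) ∘ₗ LinearMap.snd k _ _) - thW a b ∘ₗ LinearMap.fst k _ _)

@[simp] theorem xiE_apply (xi : Fin 2 → Fin 2 → Module.End k M) (a b : Fin 2)
    (u : (Fin 2 → M) × (Fin 2 → M)) :
    xiE xi a b u = (wmap (xi a b) u.1, -(wmap (xi a b) u.2) - thW (k := k) a b u.1) := rfl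

/-- The operator `τ` on `E(M) = (M ⊗ W) × (M ⊗ W)`. -/
def tauE (xi : Fin 2 → Fin 2 → Module.End k M) (tau : Module.End k M) :
    Module.End k ((Fin 2 → M) × (Fin 2 → M)) :=
  LinearMap.prod (tauW xi tau ∘ₗ LinearMap.fst k _ _) (-(tauW xi tau ∘ₗ LinearMap.snd k _ _))

@[simp] theorem tauE_apply (xi : Fin 2 → Fin 2 → Module.End k M) (tau : Module.End k M)
    (u : (Fin 2 → M) × (Fin 2 → M)) :
    tauE xi tau u = (tauW xi tau u.1, -(tauW xi tau u.2)) := rfl

/-- The idempotents on `F(N) = (N ⊗ W) × (N ⊗ W)`; the first summand is shifted. -/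
def eF (e : ℕ → Module.End k M) (j : ℕ) : Module.End k ((Fin 2 → M) × (Fin 2 → M)) :=
  (wmap (e (j + 1))).prodMap (wmap (e j))

@[simp] theorem eF_apply (e : ℕ → Module.End k M) (j : ℕ) (u : (Fin 2 → M) × (Fin 2 → M)) :
    eF e j u = (wmap (e (j + 1)) u.1, wmap (e j) u.2) := rfl

/-- The operators `ξ` on the cone. -/
def xiC (xi : Fin 2 → Fin 2 → Module.End k M) (a b : Fin 2) : Module.End k (M × M) :=
  (xi a b).prodMap (-(xi a b))

@[simp] theorem xiC_apply (xi : Fin 2 → Fin 2 → Module.End k M) (a b : Fin 2) (u : M × M) :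
    xiC xi a b u = (xi a b u.1, -(xi a b u.2)) := rfl

/-- The operator `τ` on the cone of `φ`: `τ (u, u') = (τ u, φ u - τ u')`. -/
def tauC (tau φ : Module.End k M) : Module.End k (M × M) :=
  LinearMap.prod (tau ∘ₗ LinearMap.fst k _ _)
    (φ ∘ₗ LinearMap.fst k _ _ - tau ∘ₗ LinearMap.snd k _ _)

@[simp] theorem tauC_apply (tau φ : Module.End k M) (u : M × M) :
    tauC tau φ u = (tau u.1, φ u.1 - tau u.2) := rfl

/-- The shift on windows: `(shf f v) i = f (v (i - 1))` and `0` at `i = 0`. -/
def shf (f : Module.End k M) : Module.End k (Fin 6 → M) where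
  toFun v := fun i => if i = 0 then 0 else f (v (i - 1))
  map_add' v w := by
    ext i
    by_cases h : i = 0 <;> simp [h]
  map_smul' c v := by
    ext i
    by_cases h : i = 0 <;> simp [h]

@[simp] theorem shf_apply (f : Module.End k M) (v : Fin 6 → M) (i : Fin 6) :
    shf f v i = if i = 0 then 0 else f (v (i - 1)) := rfl

/-- The idempotents on windows. -/
def eW (j : ℕ) : Module.End k (Fin 6 → M) where
  toFun v := fun i => if (i : ℕ) = j then v i else 0
  map_add' v w := by
    ext i
    by_cases h : (i : ℕ) = j <;> simp [h]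
  map_smul' c v := by
    ext i
    by_cases h : (i : ℕ) = j <;> simp [h]

@[simp] theorem eW_apply (j : ℕ) (v : Fin 6 → M) (i : Fin 6) :
    eW (k := k) j v i = if (i : ℕ) = j then v i else 0 := rfl

/-- The window `{v | v i ∈ gr (i - s)}`. -/
def winS (gr : ℤ → Submodule k M) (s : ℕ) : Submodule k (Fin 6 → M) :=
  Submodule.pi Set.univ fun i : Fin 6 => gr (((i : ℕ) : ℤ) - (s : ℤ))

theorem mem_winS (gr : ℤ → Submodule k M) (s : ℕ) (v : Fin 6 → M) :
    v ∈ winS gr s ↔ ∀ i : Fin 6, v i ∈ gr (((i : ℕ) : ℤ) - (s : ℤ)) := by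
  simp [winS, Submodule.mem_pi]

/-- The operators of `Q(N) = N × (N ⊗ W) × (N ⊗ W)`. -/
def opQ (e : ℕ → Module.End k M) (xi : Fin 2 → Fin 2 → Module.End k M) (tau : Module.End k M) :
    Gen → Module.End k (M × (Fin 2 → M) × (Fin 2 → M))
  | .e j => (e j).prodMap (eF e j)
  | .xi a b => (xi a b).prodMap (xiE xi a b)
  | .tau => tau.prodMap (tauE xi tau)
  | .al c => LinearMap.prod 0
      (LinearMap.prod (LinearMap.single k (fun _ : Fin 2 => M) c ∘ₗ LinearMap.fst k _ _) 0)
  | .be c => LinearMap.prod 0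
      (LinearMap.prod 0 (LinearMap.single k (fun _ : Fin 2 => M) c ∘ₗ LinearMap.fst k _ _))

@[simp] theorem opQ_e (e : ℕ → Module.End k M) (xi : Fin 2 → Fin 2 → Module.End k M)
    (tau : Module.End k M) (j : ℕ) (m : M × (Fin 2 → M) × (Fin 2 → M)) :
    opQ e xi tau (.e j) m = (e j m.1, eF e j m.2) := rfl

@[simp] theorem opQ_xi (e : ℕ → Module.End k M) (xi : Fin 2 → Fin 2 → Module.End k M)
    (tau : Module.End k M) (a b : Fin 2) (m : M × (Fin 2 → M) × (Fin 2 → M)) :
    opQ e xi tau (.xi a b) m = (xi a b m.1, xiE xi a b m.2) := rfl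

@[simp] theorem opQ_tau (e : ℕ → Module.End k M) (xi : Fin 2 → Fin 2 → Module.End k M)
    (tau : Module.End k M) (m : M × (Fin 2 → M) × (Fin 2 → M)) :
    opQ e xi tau .tau m = (tau m.1, tauE xi tau m.2) := rfl

@[simp] theorem opQ_al (e : ℕ → Module.End k M) (xi : Fin 2 → Fin 2 → Module.End k M)
    (tau : Module.End k M) (c : Fin 2) (m : M × (Fin 2 → M) × (Fin 2 → M)) :
    opQ e xi tau (.al c) m = (0, Pi.single c m.1, 0) := rfl

@[simp] theorem opQ_be (e : ℕ → Module.End k M) (xi : Fin 2 → Fin 2 → Module.End k M)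
    (tau : Module.End k M) (c : Fin 2) (m : M × (Fin 2 → M) × (Fin 2 → M)) :
    opQ e xi tau (.be c) m = (0, 0, Pi.single c m.1) := rfl

/-- The operators of `Z(N) = N` with `al = be = 0`. -/
def opZ (e : ℕ → Module.End k M) (xi : Fin 2 → Fin 2 → Module.End k M) (tau : Module.End k M) :
    Gen → Module.End k M
  | .e j => e j
  | .xi a b => xi a b
  | .tau => tau
  | .al _ => 0
  | .be _ => 0

end raw

variable (k : Type) [Field k]

/-- Graded modules over `B` (ambient space with operators and homogeneous parts). -/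
structure DG where
  /-- ambient space -/
  M : Type
  [ag : AddCommGroup M]
  [md : Module k M]
  /-- the operators `ξ` -/
  xi : Fin 2 → Fin 2 → Module.End k M
  /-- the operator `τ` -/
  tau : Module.End k M
  isB : IsB xi tau
  /-- homogeneous parts -/
  gr : ℤ → Submodule k M
  xi_gr : ∀ a b j m, m ∈ gr j → xi a b m ∈ gr (j + 1)
  tau_gr : ∀ j m, m ∈ gr j → tau m ∈ gr (j + 1)
  gr_neg : ∀ j, j < 0 → gr j = ⊥

attribute [instance] DG.ag DG.md

/-- Representations of the window algebra `G`. -/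
structure GRep where
  /-- the space -/
  M : Type
  [ag : AddCommGroup M]
  [md : Module k M]
  /-- the idempotents -/
  e : ℕ → Module.End k M
  /-- the operators `ξ` -/
  xi : Fin 2 → Fin 2 → Module.End k M
  /-- the operator `τ` -/
  tau : Module.End k M
  isG : IsG e xi tau

attribute [instance] GRep.ag GRep.md

/-- Representations of the algebra `A`. -/
structure Rep where
  /-- the space -/
  M : Type
  [ag : AddCommGroup M]
  [md : Module k M]
  /-- the operators -/
  op : Gen → Module.End k M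
  isRep : IsRep op

attribute [instance] Rep.ag Rep.md

variable {k}

/-- Morphisms of graded `B`-modules. -/
structure DG.Hom (G H : DG k) where
  /-- the underlying map -/
  f : G.M →ₗ[k] H.M
  map_gr : ∀ j m, m ∈ G.gr j → f m ∈ H.gr j
  map_xi : ∀ j m, m ∈ G.gr j → ∀ a b, f (G.xi a b m) = H.xi a b (f m)
  map_tau : ∀ j m, m ∈ G.gr j → f (G.tau m) = H.tau (f m)

/-- Morphisms of representations of `G`. -/
structure GRep.Hom (N N' : GRep k) where
  /-- the underlying map -/
  f : N.M →ₗ[k] N'.M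
  map_e : ∀ j m, f (N.e j m) = N'.e j (f m)
  map_xi : ∀ a b m, f (N.xi a b m) = N'.xi a b (f m)
  map_tau : ∀ m, f (N.tau m) = N'.tau (f m)

/-- Morphisms of representations of `A`. -/
structure Rep.Hom (R R' : Rep k) where
  /-- the underlying map -/
  f : R.M →ₗ[k] R'.M
  map_op : ∀ g m, f (R.op g m) = R'.op g (f m)

end P176
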