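import Vale.Agent.P176.FockDefs

/-!
# P176, module FOCKA: anticommutation relations of the creation and annihilation operators
-/

namespace P176

variable {k : Type} [Field k]

section

variable {M : Type} [AddCommGroup M] [Module k M]

theorem cNew_cNew : (cNew * cNew + cNew * cNew : Module.End k (M × M)) = 0 := by
  ext x <;> simp [cNew, Module.End.mul_apply]

theorem aNew_aNew : (aNew * aNew + aNew * aNew : Module.End k (M × M)) = 0 := by
  ext x <;> simp [aNew, Module.End.mul_apply]

theorem aNew_cNew : (aNew * cNew + cNew * aNew : Module.End k (M × M)) = 1 := by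
  refine LinearMap.ext fun x => ?_
  refine Prod.ext ?_ ?_ <;> simp [aNew, cNew, Module.End.mul_apply]

theorem cNew_oldOp (f : Module.End k M) :
    (cNew * oldOp f + oldOp f * cNew : Module.End k (M × M)) = 0 := by
  refine LinearMap.ext fun x => ?_
  refine Prod.ext ?_ ?_ <;> simp [cNew, oldOp, Module.End.mul_apply]

theorem aNew_oldOp (f : Module.End k M) :
    (aNew * oldOp f + oldOp f * aNew : Module.End k (M × M)) = 0 := by
  refine LinearMap.ext fun x => ?_
  refine Prod.ext ?_ ?_ <;> simp [aNew, oldOp, Module.End.mul_apply]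

theorem oldOp_oldOp (f g : Module.End k M) :
    (oldOp f * oldOp g + oldOp g * oldOp f : Module.End k (M × M)) =
      (f * g + g * f).prodMap (f * g + g * f) := by
  refine LinearMap.ext fun x => ?_
  refine Prod.ext ?_ ?_ <;> simp [oldOp, Module.End.mul_apply]

theorem stepC_cc {m : ℕ} {c : Fin m → Module.End k M} (h : ∀ i j, c i * c j + c j * c i = 0)
    (i j : Fin (m + 1)) : stepC c i * stepC c j + stepC c j * stepC c i = 0 := by
  unfold stepC
  refine Fin.cases ?_ (fun i => ?_) i <;> refine Fin.cases ?_ (fun j => ?_) j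
  · simp only [Fin.cons_zero]
    exact cNew_cNew
  · simp only [Fin.cons_zero, Fin.cons_succ]
    exact cNew_oldOp _
  · simp only [Fin.cons_zero, Fin.cons_succ]
    rw [add_comm]
    exact cNew_oldOp _
  · simp only [Fin.cons_succ]
    rw [oldOp_oldOp, h]
    refine LinearMap.ext fun x => ?_
    rfl

theorem stepA_aa {m : ℕ} {c : Fin m → Module.End k M} (h : ∀ i j, c i * c j + c j * c i = 0)
    (i j : Fin (m + 1)) : stepA c i * stepA c j + stepA c j * stepA c i = 0 := by
  unfold stepA
  refine Fin.cases ?_ (fun i => ?_) i <;> refine Fin.cases ?_ (fun j => ?_) j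
  · simp only [Fin.cons_zero]
    exact aNew_aNew
  · simp only [Fin.cons_zero, Fin.cons_succ]
    exact aNew_oldOp _
  · simp only [Fin.cons_zero, Fin.cons_succ]
    rw [add_comm]
    exact aNew_oldOp _
  · simp only [Fin.cons_succ]
    rw [oldOp_oldOp, h]
    refine LinearMap.ext fun x => ?_
    rfl

theorem step_ac {m : ℕ} {a c : Fin m → Module.End k M}
    (h : ∀ i j, a i * c j + c j * a i = if i = j then 1 else 0)
    (i j : Fin (m + 1)) :
    stepA a i * stepC c j + stepC c j * stepA a i = if i = j then 1 else 0 := by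
  unfold stepA stepC
  refine Fin.cases ?_ (fun i => ?_) i <;> refine Fin.cases ?_ (fun j => ?_) j
  · simp only [Fin.cons_zero, if_true]
    exact aNew_cNew
  · simp only [Fin.cons_zero, Fin.cons_succ]
    rw [if_neg (Fin.succ_ne_zero j).symm]
    exact aNew_oldOp _
  · simp only [Fin.cons_zero, Fin.cons_succ]
    rw [if_neg (Fin.succ_ne_zero i), add_comm]
    exact cNew_oldOp _
  · simp only [Fin.cons_succ]
    rw [oldOp_oldOp, h]
    by_cases hij : i = j
    · rw [if_pos hij, if_pos (by rw [hij])]
      refine LinearMap.ext fun x => ?_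
      rfl
    · rw [if_neg hij, if_neg (fun e => hij (Fin.succ_injective _ e))]
      refine LinearMap.ext fun x => ?_
      rfl

theorem stepA_inl {m : ℕ} {a : Fin m → Module.End k M} {x : M} (h : ∀ i, a i x = 0)
    (i : Fin (m + 1)) : stepA a i (x, 0) = 0 := by
  unfold stepA
  refine Fin.cases ?_ (fun i => ?_) i
  · simp [aNew]
  · simp [oldOp, h]

end

variable {U U' U'' : Type} [AddCommGroup U] [Module k U] [AddCommGroup U'] [Module k U']
  [AddCommGroup U''] [Module k U'']

theorem crAll_crAll (i j : Fin 4) :
    (crAll i * crAll j + crAll j * crAll i : Module.End k (Fk U)) = 0 :=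
  stepC_cc (stepC_cc (stepC_cc (stepC_cc fun i => i.elim0))) i j

theorem anAll_anAll (i j : Fin 4) :
    (anAll i * anAll j + anAll j * anAll i : Module.End k (Fk U)) = 0 :=
  stepA_aa (stepA_aa (stepA_aa (stepA_aa fun i => i.elim0))) i j

theorem anAll_crAll (i j : Fin 4) :
    (anAll i * crAll j + crAll j * anAll i : Module.End k (Fk U)) = if i = j then 1 else 0 :=
  step_ac (step_ac (step_ac (step_ac fun i => i.elim0))) i j

theorem cr_cr (a b c d : Fin 2) :
    (cr k a b * cr k c d + cr k c d * cr k a b : Module.End k (Fk U)) = 0 :=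
  crAll_crAll _ _

theorem an_an (a b c d : Fin 2) :
    (an k a b * an k c d + an k c d * an k a b : Module.End k (Fk U)) = 0 :=
  anAll_anAll _ _

theorem an_cr (a b c d : Fin 2) :
    (an k a b * cr k c d + cr k c d * an k a b : Module.End k (Fk U)) =
      if a = c ∧ b = d then 1 else 0 := by
  refine (anAll_crAll (finProdFinEquiv (a, b)) (finProdFinEquiv (c, d))).trans ?_
  by_cases h : a = c ∧ b = d
  · rw [if_pos h, if_pos (by rw [h.1, h.2])]
  · rw [if_neg h, if_neg]
    intro e
    have := finProdFinEquiv.injective e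
    exact h ⟨congrArg Prod.fst this, congrArg Prod.snd this⟩

theorem an_vac (a b : Fin 2) (u : U) : an k a b (vac k u) = 0 :=
  stepA_inl (stepA_inl (stepA_inl (stepA_inl (a := fun i : Fin 0 => (i.elim0 : Module.End k U))
    (x := u) fun i => i.elim0))) _

end P176
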