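import Vale.Agent.P176.FockDefs

/-!
# P176, module FOCKB: functoriality and grading of the Fock space
-/

namespace P176

variable {k : Type} [Field k]

section

variable {M M' : Type} [AddCommGroup M] [Module k M] [AddCommGroup M'] [Module k M']

theorem stepC_map {m : ℕ} {c : Fin m → Module.End k M} {c' : Fin m → Module.End k M'}
    {F : M →ₗ[k] M'} (h : ∀ i x, F (c i x) = c' i (F x)) (i : Fin (m + 1)) (x : M × M) :
    (F.prodMap F) (stepC c i x) = stepC c' i ((F.prodMap F) x) := by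
  unfold stepC
  refine Fin.cases ?_ (fun i => ?_) i
  · simp [cNew]
  · simp [oldOp, h]

theorem stepA_map {m : ℕ} {c : Fin m → Module.End k M} {c' : Fin m → Module.End k M'}
    {F : M →ₗ[k] M'} (h : ∀ i x, F (c i x) = c' i (F x)) (i : Fin (m + 1)) (x : M × M) :
    (F.prodMap F) (stepA c i x) = stepA c' i ((F.prodMap F) x) := by
  unfold stepA
  refine Fin.cases ?_ (fun i => ?_) i
  · simp [aNew]
  · simp [oldOp, h]

theorem stepG_map {g : ℤ → Submodule k M} {g' : ℤ → Submodule k M'} {F : M →ₗ[k] M'}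
    (h : ∀ j, ∀ x ∈ g j, F x ∈ g' j) (j : ℤ) (x : M × M) (hx : x ∈ stepG g j) :
    (F.prodMap F) x ∈ stepG g' j :=
  ⟨h _ _ hx.1, h _ _ hx.2⟩

theorem stepG_congr {g : ℤ → Submodule k M} {F G : M →ₗ[k] M'}
    (h : ∀ j, ∀ x ∈ g j, F x = G x) (j : ℤ) (x : M × M) (hx : x ∈ stepG g j) :
    (F.prodMap F) x = (G.prodMap G) x :=
  Prod.ext (h _ _ hx.1) (h _ _ hx.2)

theorem stepC_deg {m : ℕ} {c : Fin m → Module.End k M} {g : ℤ → Submodule k M}
    (h : ∀ i j, ∀ x ∈ g j, c i x ∈ g (j + 1)) (i : Fin (m + 1)) (j : ℤ) (x : M × M)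
    (hx : x ∈ stepG g j) : stepC c i x ∈ stepG g (j + 1) := by
  have e : j + 1 - 1 = j - 1 + 1 := by ring
  have e' : j + 1 - 1 = j := by ring
  unfold stepC
  refine Fin.cases ?_ (fun i => ?_) i
  · refine ⟨?_, ?_⟩
    · exact (g (j + 1)).zero_mem
    · rw [e']
      exact hx.1
  · refine ⟨?_, ?_⟩
    · exact h i j _ hx.1
    · rw [e]
      exact (g (j - 1 + 1)).neg_mem (h i (j - 1) _ hx.2)

theorem stepA_deg {m : ℕ} {c : Fin m → Module.End k M} {g : ℤ → Submodule k M}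
    (h : ∀ i j, ∀ x ∈ g j, c i x ∈ g (j - 1)) (i : Fin (m + 1)) (j : ℤ) (x : M × M)
    (hx : x ∈ stepG g j) : stepA c i x ∈ stepG g (j - 1) := by
  unfold stepA
  refine Fin.cases ?_ (fun i => ?_) i
  · refine ⟨?_, ?_⟩
    · exact hx.2
    · exact (g (j - 1 - 1)).zero_mem
  · refine ⟨?_, ?_⟩
    · exact h i j _ hx.1
    · exact (g (j - 1 - 1)).neg_mem (h i (j - 1) _ hx.2)

theorem stepG_bot {g : ℤ → Submodule k M} {j : ℤ} (h : g j = ⊥) (h' : g (j - 1) = ⊥) :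
    stepG g j = ⊥ := by
  unfold stepG
  rw [h, h']
  exact Submodule.prod_bot

theorem mem_stepG_zero {g : ℤ → Submodule k M} (h : g (-1) = ⊥) (x : M × M) :
    x ∈ stepG g 0 ↔ ∃ u ∈ g 0, LinearMap.inl k M M u = x := by
  constructor
  · intro hx
    refine ⟨x.1, hx.1, Prod.ext rfl ?_⟩
    have h2 : x.2 ∈ g (0 - 1) := hx.2
    rw [zero_sub, h] at h2
    exact ((Submodule.mem_bot k).1 h2).symm
  · rintro ⟨u, hu, rfl⟩
    exact ⟨hu, (g (0 - 1)).zero_mem⟩

end

variable {U U' U'' : Type} [AddCommGroup U] [Module k U] [AddCommGroup U'] [Module k U']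
  [AddCommGroup U''] [Module k U'']

theorem Fk.map_id : Fk.map (LinearMap.id : U →ₗ[k] U) = LinearMap.id :=
  LinearMap.ext fun _ => rfl

theorem Fk.map_comp (g : U' →ₗ[k] U'') (f : U →ₗ[k] U') :
    Fk.map (g ∘ₗ f) = Fk.map g ∘ₗ Fk.map f :=
  LinearMap.ext fun _ => rfl

theorem Fk.map_add (f g : U →ₗ[k] U') : Fk.map (f + g) = Fk.map f + Fk.map g :=
  LinearMap.ext fun _ => rfl

theorem Fk.map_smul (c : k) (f : U →ₗ[k] U') : Fk.map (c • f) = c • Fk.map f :=
  LinearMap.ext fun _ => rfl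

theorem Fk.map_vac (f : U →ₗ[k] U') (u : U) : Fk.map f (vac k u) = vac k (f u) := by
  have h : ∀ {M M' : Type} [AddCommGroup M] [Module k M] [AddCommGroup M'] [Module k M']
      (F : M →ₗ[k] M') (x : M), (F.prodMap F) (x, 0) = (F x, 0) := by
    intro M M' _ _ _ _ F x
    exact Prod.ext rfl (_root_.map_zero F)
  exact (h _ _).trans (congrArg (fun y => (y, 0)) ((h _ _).trans
    (congrArg (fun y => (y, 0)) ((h _ _).trans (congrArg (fun y => (y, 0)) (h f u))))))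

theorem Fk.map_cr (f : U →ₗ[k] U') (a b : Fin 2) (m : Fk U) :
    Fk.map f (cr k a b m) = cr k a b (Fk.map f m) :=
  stepC_map (stepC_map (stepC_map (stepC_map (F := f) fun i => i.elim0))) _ m

theorem Fk.map_an (f : U →ₗ[k] U') (a b : Fin 2) (m : Fk U) :
    Fk.map f (an k a b m) = an k a b (Fk.map f m) :=
  stepA_map (stepA_map (stepA_map (stepA_map (F := f) fun i => i.elim0))) _ m

theorem Fk.map_deg (f : U →ₗ[k] U') (p : Submodule k U) (p' : Submodule k U')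
    (h : ∀ u ∈ p, f u ∈ p') (j : ℤ) (m : Fk U) (hm : m ∈ Fk.deg p j) :
    Fk.map f m ∈ Fk.deg p' j := by
  refine stepG_map (stepG_map (stepG_map (stepG_map (F := f) ?_))) j m hm
  intro j x hx
  by_cases h0 : j = 0
  · rw [if_pos h0] at hx ⊢
    exact h x hx
  · rw [if_neg h0, Submodule.mem_bot] at hx
    rw [hx, _root_.map_zero]
    exact Submodule.zero_mem _

/-- Equalities of operators of the form `Fk.map` may be checked on coefficients. -/
theorem Fk.map_congr_deg (f g : U →ₗ[k] U') (p : Submodule k U)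
    (h : ∀ u ∈ p, f u = g u) (j : ℤ) (m : Fk U) (hm : m ∈ Fk.deg p j) :
    Fk.map f m = Fk.map g m := by
  refine stepG_congr (stepG_congr (stepG_congr (stepG_congr (F := f) (G := g) ?_))) j m hm
  intro j x hx
  by_cases h0 : j = 0
  · rw [if_pos h0] at hx
    exact h x hx
  · rw [if_neg h0, Submodule.mem_bot] at hx
    rw [hx, _root_.map_zero, _root_.map_zero]

theorem Fk.cr_deg (p : Submodule k U) (a b : Fin 2) (j : ℤ) (m : Fk U)
    (hm : m ∈ Fk.deg p j) : cr k a b m ∈ Fk.deg p (j + 1) :=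
  stepC_deg (stepC_deg (stepC_deg (stepC_deg fun i => i.elim0))) _ j m hm

theorem Fk.an_deg (p : Submodule k U) (a b : Fin 2) (j : ℤ) (m : Fk U)
    (hm : m ∈ Fk.deg p j) : an k a b m ∈ Fk.deg p (j - 1) :=
  stepA_deg (stepA_deg (stepA_deg (stepA_deg fun i => i.elim0))) _ j m hm

theorem Fk.deg_neg (p : Submodule k U) (j : ℤ) (hj : j < 0) : Fk.deg p j = ⊥ := by
  have h0 : ∀ j : ℤ, j < 0 → (if j = 0 then p else ⊥) = (⊥ : Submodule k U) :=
    fun j hj => if_neg (ne_of_lt hj)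
  have h1 : ∀ j : ℤ, j < 0 → stepG (fun j => if j = 0 then p else ⊥) j = ⊥ :=
    fun j hj => stepG_bot (h0 j hj) (h0 (j - 1) (by omega))
  have h2 : ∀ j : ℤ, j < 0 → stepG (stepG (fun j => if j = 0 then p else ⊥)) j = ⊥ :=
    fun j hj => stepG_bot (h1 j hj) (h1 (j - 1) (by omega))
  have h3 : ∀ j : ℤ, j < 0 → stepG (stepG (stepG (fun j => if j = 0 then p else ⊥))) j = ⊥ :=
    fun j hj => stepG_bot (h2 j hj) (h2 (j - 1) (by omega))
  exact stepG_bot (h3 j hj) (h3 (j - 1) (by omega))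

theorem Fk.deg_big (p : Submodule k U) (j : ℤ) (hj : 4 < j) : Fk.deg p j = ⊥ := by
  have h0 : ∀ j : ℤ, 0 < j → (if j = 0 then p else ⊥) = (⊥ : Submodule k U) :=
    fun j hj => if_neg (ne_of_gt hj)
  have h1 : ∀ j : ℤ, 1 < j → stepG (fun j => if j = 0 then p else ⊥) j = ⊥ :=
    fun j hj => stepG_bot (h0 j (by omega)) (h0 (j - 1) (by omega))
  have h2 : ∀ j : ℤ, 2 < j → stepG (stepG (fun j => if j = 0 then p else ⊥)) j = ⊥ :=
    fun j hj => stepG_bot (h1 j (by omega)) (h1 (j - 1) (by omega))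
  have h3 : ∀ j : ℤ, 3 < j → stepG (stepG (stepG (fun j => if j = 0 then p else ⊥))) j = ⊥ :=
    fun j hj => stepG_bot (h2 j (by omega)) (h2 (j - 1) (by omega))
  exact stepG_bot (h3 j (by omega)) (h3 (j - 1) (by omega))

theorem Fk.mem_deg_zero (p : Submodule k U) (m : Fk U) :
    m ∈ Fk.deg p 0 ↔ ∃ u ∈ p, vac k u = m := by
  have h0 : (fun j : ℤ => if j = 0 then p else ⊥) (-1) = (⊥ : Submodule k U) := by
    simp
  have h0' : (fun j : ℤ => if j = 0 then p else ⊥) (-1 - 1) = (⊥ : Submodule k U) := by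
    simp
  have h0'' : (fun j : ℤ => if j = 0 then p else ⊥) (-1 - 1 - 1) = (⊥ : Submodule k U) := by
    simp
  have h1 : stepG (fun j : ℤ => if j = 0 then p else ⊥) (-1) = ⊥ := stepG_bot h0 h0'
  have h1' : stepG (fun j : ℤ => if j = 0 then p else ⊥) (-1 - 1) = ⊥ := stepG_bot h0' h0''
  have h2 : stepG (stepG (fun j : ℤ => if j = 0 then p else ⊥)) (-1) = ⊥ := stepG_bot h1 h1'
  have e3 : m ∈ Fk.deg p 0 ↔ ∃ u ∈ stepG (stepG (stepG fun j : ℤ => if j = 0 then p else ⊥)) 0,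
      LinearMap.inl k _ _ u = m := by
    refine mem_stepG_zero ?_ m
    have h2' : stepG (stepG (fun j : ℤ => if j = 0 then p else ⊥)) (-1 - 1) = ⊥ := by
      refine stepG_bot h1' (stepG_bot ?_ ?_) <;> simp
    exact stepG_bot h2 h2'
  rw [e3]
  constructor
  · rintro ⟨u3, hu3, rfl⟩
    obtain ⟨u2, hu2, rfl⟩ := (mem_stepG_zero h2 u3).1 hu3
    obtain ⟨u1, hu1, rfl⟩ := (mem_stepG_zero h1 u2).1 hu2
    obtain ⟨u, hu, rfl⟩ := (mem_stepG_zero h0 u1).1 hu1
    refine ⟨u, ?_, rfl⟩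
    simpa using hu
  · rintro ⟨u, hu, rfl⟩
    refine ⟨_, (mem_stepG_zero h2 _).2 ⟨_, (mem_stepG_zero h1 _).2 ⟨_, (mem_stepG_zero h0 _).2
      ⟨u, ?_, rfl⟩, rfl⟩, rfl⟩, rfl⟩
    simpa using hu

end P176
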