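import Vale.Agent.P176.FockDefs

/-!
# P176, module FOCKC: finiteness, universal property and generation of the Fock space
-/

namespace P176

variable {k : Type} [Field k]

section step

variable {M : Type} [AddCommGroup M] [Module k M]

private theorem stepG_fg (g : ℤ → Submodule k M) (h : ∀ j, (g j).FG) (j : ℤ) :
    (stepG g j).FG := (h j).prod (h (j - 1))

private theorem stepLift {T : Type} [AddCommGroup T] [Module k T] {m : ℕ}
    (c : Fin m → Module.End k M) (y : Fin (m + 1) → Module.End k T)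
    (hy : ∀ i j, y i * y j + y j * y i = 0) (h2 : (2 : k) ≠ 0) (F : M →ₗ[k] T)
    (hF : ∀ i x, F (c i x) = y i.succ (F x)) (i : Fin (m + 1)) (x : M × M) :
    (F.coprod (y 0 ∘ₗ F)) (stepC c i x) = y i ((F.coprod (y 0 ∘ₗ F)) x) := by
  have h0 : ∀ t, y 0 (y 0 t) = 0 := by
    intro t
    have h := LinearMap.congr_fun (hy 0 0) t
    rw [LinearMap.add_apply, Module.End.mul_apply, LinearMap.zero_apply, ← two_smul k] at h
    exact (smul_eq_zero.1 h).resolve_left h2
  refine Fin.cases ?_ (fun i => ?_) i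
  · show (F.coprod (y 0 ∘ₗ F)) (0, x.1) = y 0 ((F.coprod (y 0 ∘ₗ F)) x)
    rw [LinearMap.coprod_apply, LinearMap.coprod_apply, map_add]
    simp only [LinearMap.comp_apply, map_zero, zero_add, h0, add_zero]
  · show (F.coprod (y 0 ∘ₗ F)) (c i x.1, -(c i x.2)) = y i.succ ((F.coprod (y 0 ∘ₗ F)) x)
    have h := LinearMap.congr_fun (hy 0 i.succ) (F x.2)
    rw [LinearMap.add_apply, Module.End.mul_apply, Module.End.mul_apply, LinearMap.zero_apply] at h
    rw [LinearMap.coprod_apply, LinearMap.coprod_apply, map_add]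
    simp only [LinearMap.comp_apply, map_neg, hF]
    rw [← eq_neg_of_add_eq_zero_right h]

private structure GenP {U : Type} [AddCommGroup U] [Module k U] {m : ℕ}
    (c : Fin m → Module.End k M) (g : ℤ → Submodule k M) (v : U →ₗ[k] M) (p : Submodule k U) :
    Prop where
  neg : ∀ j, j < 0 → g j = ⊥
  gen : ∀ S : ℕ → Submodule k M, (∀ u ∈ p, v u ∈ S 0) →
    (∀ n i x, x ∈ S n → c i x ∈ S (n + 1)) → ∀ n : ℕ, g n ≤ S n
  gen' : ∀ S : Submodule k M, (∀ u, v u ∈ S) → (∀ i x, x ∈ S → c i x ∈ S) → S = ⊤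

private theorem stepGen {U : Type} [AddCommGroup U] [Module k U] {m : ℕ}
    {c : Fin m → Module.End k M} {g : ℤ → Submodule k M} {v : U →ₗ[k] M} {p : Submodule k U}
    (h : GenP c g v p) : GenP (stepC c) (stepG g) (LinearMap.inl k M M ∘ₗ v) p where
  neg j hj := by
    show (g j).prod (g (j - 1)) = ⊥
    rw [h.neg j hj, h.neg (j - 1) (by omega), Submodule.prod_bot]
  gen S h0 h1 n := by
    have hA : ∀ n : ℕ, g n ≤ (S n).comap (LinearMap.inl k M M) := by
      refine h.gen _ (fun u hu => h0 u hu) (fun n i x hx => ?_)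
      have h2 := h1 n i.succ (x, 0) hx
      have e : stepC c i.succ (x, 0) = (c i x, 0) := by
        show ((c i x, -(c i 0)) : M × M) = (c i x, 0)
        rw [map_zero, neg_zero]
      rw [e] at h2
      exact h2
    have hB : ∀ n : ℕ, ∀ y ∈ g ((n : ℤ) - 1), ((0 : M), y) ∈ S n := by
      intro n y hy
      cases n with
      | zero =>
        rw [h.neg _ (by simp), Submodule.mem_bot] at hy
        rw [hy]
        exact Submodule.zero_mem _
      | succ n =>
        have e : (((n + 1 : ℕ) : ℤ) - 1) = (n : ℤ) := by push_cast; ring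
        rw [e] at hy
        exact h1 n 0 (y, 0) (hA n hy)
    rintro ⟨x, y⟩ hxy
    have hx : x ∈ g n := hxy.1
    have hy : y ∈ g ((n : ℤ) - 1) := hxy.2
    have e : ((x, y) : M × M) = (x, 0) + (0, y) := by simp
    rw [e]
    exact Submodule.add_mem _ (hA n hx) (hB n y hy)
  gen' S h0 h1 := by
    have hA : S.comap (LinearMap.inl k M M) = ⊤ := by
      refine h.gen' _ (fun u => h0 u) (fun i x hx => ?_)
      have h2 := h1 i.succ (x, 0) hx
      have e : stepC c i.succ (x, 0) = (c i x, 0) := by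
        show ((c i x, -(c i 0)) : M × M) = (c i x, 0)
        rw [map_zero, neg_zero]
      rw [e] at h2
      exact h2
    have hA' : ∀ x : M, ((x, 0) : M × M) ∈ S := fun x => by
      have hx : x ∈ S.comap (LinearMap.inl k M M) := by rw [hA]; trivial
      exact hx
    rw [eq_top_iff]
    rintro ⟨x, y⟩ -
    have e : ((x, y) : M × M) = (x, 0) + (0, y) := by simp
    rw [e]
    exact Submodule.add_mem _ (hA' x) (h1 0 (y, 0) (hA' y))

private theorem baseGen {U : Type} [AddCommGroup U] [Module k U] (p : Submodule k U) :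
    GenP (fun i : Fin 0 => (i.elim0 : Module.End k U)) (fun j : ℤ => if j = 0 then p else ⊥)
      (LinearMap.id : U →ₗ[k] U) p where
  neg j hj := by
    rw [if_neg (by omega)]
  gen S h0 _ n := by
    split_ifs with h
    · have hn : n = 0 := by exact_mod_cast h
      rw [hn]
      exact fun u hu => h0 u hu
    · exact bot_le
  gen' S h0 _ := by
    rw [eq_top_iff]
    exact fun u _ => h0 u

private theorem fockGen {U : Type} [AddCommGroup U] [Module k U] (p : Submodule k U) :
    GenP (M := Fk U) (crAll (k := k) (U := U)) (Fk.deg p) (vac k : U →ₗ[k] Fk U) p :=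
  stepGen (stepGen (stepGen (stepGen (baseGen p))))

end step

variable {U U' U'' : Type} [AddCommGroup U] [Module k U] [AddCommGroup U'] [Module k U']
  [AddCommGroup U''] [Module k U'']

theorem Fk.deg_finite (p : Submodule k U) [Module.Finite k p] (j : ℤ) :
    Module.Finite k (Fk.deg p j) := by
  have hp : p.FG := Module.Finite.iff_fg.1 inferInstance
  have h0 : ∀ j : ℤ, (if j = 0 then p else ⊥ : Submodule k U).FG := by
    intro j
    split_ifs
    · exact hp
    · exact Submodule.fg_bot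
  exact Module.Finite.iff_fg.2 (stepG_fg _ (stepG_fg _ (stepG_fg _ (stepG_fg _ h0))) j)

theorem Fk.finite [Module.Finite k U] : Module.Finite k (Fk U) :=
  inferInstanceAs (Module.Finite k ((((U × U) × (U × U)) × ((U × U) × (U × U))) ×
    (((U × U) × (U × U)) × ((U × U) × (U × U)))))

theorem vac_injective : Function.Injective (vac k : U →ₗ[k] Fk U) := by
  intro u v h
  have h1 : ((((((u, (0 : U)), (0 : U × U)), (0 : (U × U) × (U × U))),
      (0 : ((U × U) × (U × U)) × ((U × U) × (U × U)))) : (((U × U) × (U × U)) ×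
      ((U × U) × (U × U))) × (((U × U) × (U × U)) × ((U × U) × (U × U))))) =
      (((((v, (0 : U)), (0 : U × U)), (0 : (U × U) × (U × U))),
      (0 : ((U × U) × (U × U)) × ((U × U) × (U × U))))) := h
  exact congrArg (fun z => z.1.1.1.1) h1

/-- The universal property. -/
theorem Fk.lift {T : Type} [AddCommGroup T] [Module k T] (x : Fin 2 → Fin 2 → Module.End k T)
    (hx : ∀ a b c d, x a b * x c d + x c d * x a b = 0) (h2 : (2 : k) ≠ 0)
    (f : U →ₗ[k] T) :
    ∃ F : Fk U →ₗ[k] T, (∀ a b m, F (cr k a b m) = x a b (F m)) ∧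
      ∀ u, F (vac k u) = f u := by
  let q : Fin 4 ≃ Fin 2 × Fin 2 := (finProdFinEquiv (m := 2) (n := 2)).symm
  let y4 : Fin 4 → Module.End k T := fun i => x (q i).1 (q i).2
  let y3 : Fin 3 → Module.End k T := fun i => y4 i.succ
  let y2 : Fin 2 → Module.End k T := fun i => y3 i.succ
  let y1 : Fin 1 → Module.End k T := fun i => y2 i.succ
  have h4 : ∀ i j, y4 i * y4 j + y4 j * y4 i = 0 := fun i j => hx _ _ _ _
  have h3 : ∀ i j, y3 i * y3 j + y3 j * y3 i = 0 := fun i j => h4 _ _
  have h2' : ∀ i j, y2 i * y2 j + y2 j * y2 i = 0 := fun i j => h3 _ _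
  have h1 : ∀ i j, y1 i * y1 j + y1 j * y1 i = 0 := fun i j => h2' _ _
  let F1 : U × U →ₗ[k] T := f.coprod (y1 0 ∘ₗ f)
  let F2 := F1.coprod (y2 0 ∘ₗ F1)
  let F3 := F2.coprod (y3 0 ∘ₗ F2)
  let F4 := F3.coprod (y4 0 ∘ₗ F3)
  have e1 : ∀ i m, F1 (stepC (fun i : Fin 0 => (i.elim0 : Module.End k U)) i m) = y1 i (F1 m) :=
    stepLift (fun i : Fin 0 => (i.elim0 : Module.End k U)) y1 h1 h2 f (fun i => i.elim0)
  have e2 := stepLift _ y2 h2' h2 F1 e1
  have e3 := stepLift _ y3 h3 h2 F2 e2
  have e4 := stepLift _ y4 h4 h2 F3 e3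
  refine ⟨(F4 : Fk U →ₗ[k] T), fun a b m => ?_, fun u => ?_⟩
  · have e := e4 (finProdFinEquiv (a, b)) m
    have e5 : y4 (finProdFinEquiv (a, b)) = x a b := by
      show x (q (q.symm (a, b))).1 (q (q.symm (a, b))).2 = x a b
      rw [Equiv.apply_symm_apply]
    rw [e5] at e
    exact e
  · show F4 (LinearMap.inl k _ _ (LinearMap.inl k _ _ (LinearMap.inl k _ _
      (LinearMap.inl k _ _ u)))) = f u
    simp [F4, F3, F2, F1]

/-- Generation by the vacuum. -/
theorem Fk.gen (p : Submodule k U) (S : ℕ → Submodule k (Fk U))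
    (h0 : ∀ u ∈ p, vac k u ∈ S 0)
    (h1 : ∀ n a b m, m ∈ S n → cr k a b m ∈ S (n + 1)) (n : ℕ) :
    Fk.deg p (n : ℤ) ≤ S n := by
  refine (fockGen p).gen S h0 (fun n i m hm => ?_) n
  have h := h1 n ((finProdFinEquiv (m := 2) (n := 2)).symm i).1
    ((finProdFinEquiv (m := 2) (n := 2)).symm i).2 m hm
  unfold cr at h
  rw [Prod.mk.eta, Equiv.apply_symm_apply] at h
  exact h

/-- Generation by the vacuum, ungraded version. -/
theorem Fk.gen' (S : Submodule k (Fk U)) (h0 : ∀ u : U, vac k u ∈ S)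
    (h1 : ∀ a b m, m ∈ S → cr k a b m ∈ S) : S = ⊤ := by
  refine (fockGen (⊥ : Submodule k U)).gen' S h0 (fun i m hm => ?_)
  have h := h1 ((finProdFinEquiv (m := 2) (n := 2)).symm i).1
    ((finProdFinEquiv (m := 2) (n := 2)).symm i).2 m hm
  unfold cr at h
  rw [Prod.mk.eta, Equiv.apply_symm_apply] at h
  exact h

end P176
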