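import Mathlib

/-!
# P176: the Fock space (definitions) `Λ ⊗ U`

`Fk U` is `U ⊗ Λ(ξ_00, ξ_01, ξ_10, ξ_11)`, realized as an iterated product: in each step
`M ↦ M × M` with new operators `c_0 (x, y) = (0, x)`, `a_0 (x, y) = (y, 0)` and
`c_(i+1) (x, y) = (c_i x, - c_i y)`, `a_(i+1) (x, y) = (a_i x, - a_i y)`.
-/

namespace P176

variable {k : Type} [Field k]

section step

variable {M M' : Type} [AddCommGroup M] [Module k M] [AddCommGroup M'] [Module k M']

/-- new creation operator -/
def cNew : Module.End k (M × M) where
  toFun x := (0, x.1)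
  map_add' x y := by simp
  map_smul' r x := by simp

/-- new annihilation operator -/
def aNew : Module.End k (M × M) where
  toFun x := (x.2, 0)
  map_add' x y := by simp
  map_smul' r x := by simp

/-- old operator -/
def oldOp (f : Module.End k M) : Module.End k (M × M) := f.prodMap (-f)

/-- One step for families of operators. -/
def stepC {m : ℕ} (c : Fin m → Module.End k M) : Fin (m + 1) → Module.End k (M × M) :=
  Fin.cons cNew fun i => oldOp (c i)

/-- One step for families of operators. -/
def stepA {m : ℕ} (a : Fin m → Module.End k M) : Fin (m + 1) → Module.End k (M × M) :=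
  Fin.cons aNew fun i => oldOp (a i)

/-- One step for the grading. -/
def stepG (g : ℤ → Submodule k M) (j : ℤ) : Submodule k (M × M) := (g j).prod (g (j - 1))

end step

/-- The Fock space. -/
def Fk (U : Type) : Type := (((U × U) × (U × U)) × ((U × U) × (U × U))) ×
  (((U × U) × (U × U)) × ((U × U) × (U × U)))

section

variable {U U' U'' : Type} [AddCommGroup U] [Module k U] [AddCommGroup U'] [Module k U']
  [AddCommGroup U''] [Module k U'']

instance : AddCommGroup (Fk U) := inferInstanceAs (AddCommGroup
  ((((U × U) × (U × U)) × ((U × U) × (U × U))) ×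
    (((U × U) × (U × U)) × ((U × U) × (U × U)))))

instance : Module k (Fk U) := inferInstanceAs (Module k
  ((((U × U) × (U × U)) × ((U × U) × (U × U))) ×
    (((U × U) × (U × U)) × ((U × U) × (U × U)))))

/-- All creation operators, indexed by `Fin 4`. -/
def crAll : Fin 4 → Module.End k (Fk U) :=
  stepC (stepC (stepC (stepC (fun i : Fin 0 => (i.elim0 : Module.End k U)))))

/-- All annihilation operators, indexed by `Fin 4`. -/
def anAll : Fin 4 → Module.End k (Fk U) :=
  stepA (stepA (stepA (stepA (fun i : Fin 0 => (i.elim0 : Module.End k U)))))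

variable (k)

/-- Creation operators: left multiplication by `ξ a b`. -/
def cr (a b : Fin 2) : Module.End k (Fk U) := crAll (finProdFinEquiv (a, b))

/-- Annihilation operators. -/
def an (a b : Fin 2) : Module.End k (Fk U) := anAll (finProdFinEquiv (a, b))

/-- The vacuum. -/
def vac : U →ₗ[k] Fk U :=
  LinearMap.inl k _ _ ∘ₗ LinearMap.inl k _ _ ∘ₗ LinearMap.inl k _ _ ∘ₗ LinearMap.inl k _ _

variable {k}

/-- Functoriality. -/
def Fk.map (f : U →ₗ[k] U') : Fk U →ₗ[k] Fk U' :=
  ((((f.prodMap f).prodMap (f.prodMap f)).prodMap ((f.prodMap f).prodMap (f.prodMap f))).prodMap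
    (((f.prodMap f).prodMap (f.prodMap f)).prodMap ((f.prodMap f).prodMap (f.prodMap f))))


/-- The grading on the Fock space with coefficients in a subspace `p`. -/
def Fk.deg (p : Submodule k U) : ℤ → Submodule k (Fk U) :=
  stepG (stepG (stepG (stepG fun j => if j = 0 then p else ⊥)))

end

end P176
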