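import Vale.Agent.P176.LFreeTw

/-!
# P176: `M ⊗ W` is `Λ`-free, generators of the windows of cones
-/

namespace P176

variable {k : Type} [Field k]

/-- `M ⊗ W` is `Λ`-free if `M` is. -/
def LFree.tw {G : DG k} (L : LFree G) : LFree G.tw where
  U := Fin 2 → L.U
  p := Submodule.pi Set.univ fun _ => L.p
  vac := LinearMap.pi fun c => L.vac ∘ₗ LinearMap.proj c
  gr0 m := by
    refine (L.tw_gr0 m).trans ?_
    simp only [Submodule.mem_pi, Set.mem_univ, forall_const]
    rfl
  lift T _ _ x hx f := L.tw_lift T x hx f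
  gen S h0 h1 n := L.tw_gen S
    (fun u hu => h0 u (by simpa only [Submodule.mem_pi, Set.mem_univ, forall_const] using hu))
    h1 n

/-! ### Windows of cones: the universal property -/

/-- The generators of the window of the cone, sitting at the vertex `s` (zero if `6 ≤ s`). -/
def LFree.top {G : DG k} (L : LFree G) (s : ℕ) (u : L.U) (hu : u ∈ L.p) :
    ((G.coneC 1).win s).M :=
  (G.coneC 1).wmk s (fun i => if (i : ℕ) = s then G.cinl 1 (L.vac u) else 0) (by
    intro i
    split_ifs with h
    · rw [h, sub_self]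
      exact G.cinl_mem 1 0 _ ((L.gr0 _).2 ⟨u, hu, rfl⟩)
    · exact Submodule.zero_mem _)

end P176
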