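import Vale.Agent.P176.Cons
import Vale.Agent.P176.CE

/-!
# P176: graded `B`-modules that are free over the exterior algebra
-/

namespace P176

variable {k : Type} [Field k]

/-- A graded `B`-module is `Λ`-free on its degree zero part `vac p`. -/
structure LFree (G : DG k) where
  /-- ambient space of generators -/
  U : Type
  [ag : AddCommGroup U]
  [md : Module k U]
  /-- the space of generators -/
  p : Submodule k U
  /-- the embedding of the generators -/
  vac : U →ₗ[k] G.M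
  gr0 : ∀ m, m ∈ G.gr 0 ↔ ∃ u ∈ p, vac u = m
  lift : ∀ (T : Type) [AddCommGroup T] [Module k T] (x : Fin 2 → Fin 2 → Module.End k T)
    (_ : ∀ a b c d, x a b * x c d + x c d * x a b = 0) (f : U →ₗ[k] T),
    ∃ F : G.M →ₗ[k] T, (∀ a b m, F (G.xi a b m) = x a b (F m)) ∧ ∀ u, F (vac u) = f u
  gen : ∀ (S : ℕ → Submodule k G.M), (∀ u ∈ p, vac u ∈ S 0) →
    (∀ n a b m, m ∈ S n → G.xi a b m ∈ S (n + 1)) → ∀ n : ℕ, G.gr (n : ℤ) ≤ S n

attribute [instance] LFree.ag LFree.md

/-- The Fock space is `Λ`-free. -/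
def lfreeFock {U : Type} [AddCommGroup U] [Module k U] (h2 : (2 : k) ≠ 0)
    (x : Fin 2 → Fin 2 → Module.End k U) (hx : IsGl x)
    (p : Submodule k U) (hp : ∀ a b, ∀ u ∈ p, x a b u ∈ p) : LFree (fock h2 x hx p hp) where
  U := U
  p := p
  vac := P176.vac k
  gr0 m := Fk.mem_deg_zero p m
  lift T _ _ x hx f := Fk.lift x hx h2 f
  gen S h0 h1 n := Fk.gen p S h0 h1 n

end P176
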