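import Vale.Agent.P176.LFreeDefs

/-!
# P176, module LFTW: `M ⊗ W` is `Λ`-free if `M` is
-/

namespace P176

variable {k : Type} [Field k]

theorem LFree.tw_lift {G : DG k} (L : LFree G) (T : Type) [AddCommGroup T] [Module k T]
    (x : Fin 2 → Fin 2 → Module.End k T)
    (hx : ∀ a b c d, x a b * x c d + x c d * x a b = 0) (f : (Fin 2 → L.U) →ₗ[k] T) :
    ∃ F : (Fin 2 → G.M) →ₗ[k] T,
      (∀ a b (m : Fin 2 → G.M), F (wmap (G.xi a b) m) = x a b (F m)) ∧
      ∀ u : Fin 2 → L.U, F (fun c => L.vac (u c)) = f u := by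
  have H : ∀ c : Fin 2, ∃ F : G.M →ₗ[k] T, (∀ a b m, F (G.xi a b m) = x a b (F m)) ∧
      ∀ u, F (L.vac u) = (f ∘ₗ LinearMap.single k (fun _ : Fin 2 => L.U) c) u :=
    fun c => L.lift T x hx (f ∘ₗ LinearMap.single k (fun _ : Fin 2 => L.U) c)
  choose F h1 h2 using H
  have hs : ∀ u : Fin 2 → L.U, f u = ∑ c, f (Pi.single c (u c)) := by
    intro u
    rw [← map_sum]
    refine congrArg f ?_
    exact (Finset.univ_sum_single u).symm
  refine ⟨∑ c, F c ∘ₗ LinearMap.proj c, fun a b m => ?_, fun u => ?_⟩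
  · simp only [LinearMap.sum_apply, LinearMap.comp_apply, LinearMap.proj_apply, wmap_apply, h1,
      map_sum]
  · rw [hs u]
    simp only [LinearMap.sum_apply, LinearMap.comp_apply, LinearMap.proj_apply, h2]
    rfl

theorem LFree.tw_gen {G : DG k} (L : LFree G) (S : ℕ → Submodule k (Fin 2 → G.M))
    (h0 : ∀ u : Fin 2 → L.U, (∀ c, u c ∈ L.p) → (fun c => L.vac (u c)) ∈ S 0)
    (h1 : ∀ n a b (m : Fin 2 → G.M), m ∈ S n → wmap (G.xi a b) m ∈ S (n + 1)) (n : ℕ) :
    twGr G.gr (n : ℤ) ≤ S n := by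
  have key : ∀ (c : Fin 2) (n : ℕ) (m : G.M), m ∈ G.gr (n : ℤ) → Pi.single c m ∈ S n := by
    intro c n m hm
    have := L.gen (fun n => (S n).comap (LinearMap.single k (fun _ : Fin 2 => G.M) c)) ?_ ?_ n hm
    · exact this
    · intro u hu
      change Pi.single c (L.vac u) ∈ S 0
      have h := h0 (Pi.single c u) ?_
      · have e : (fun c' => L.vac ((Pi.single c u : Fin 2 → L.U) c')) =
            (Pi.single c (L.vac u) : Fin 2 → G.M) := by
          funext c'
          by_cases hc : c' = c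
          · subst hc
            simp
          · simp [Pi.single_eq_of_ne hc]
        rw [e] at h
        exact h
      · intro c'
        by_cases hc : c' = c
        · subst hc
          simpa using hu
        · rw [Pi.single_eq_of_ne hc]
          exact Submodule.zero_mem _
    · intro n a b m hm
      change Pi.single c (G.xi a b m) ∈ S (n + 1)
      have h := h1 n a b _ (show Pi.single c m ∈ S n from hm)
      have e : wmap (G.xi a b) (Pi.single c m) = (Pi.single c (G.xi a b m) : Fin 2 → G.M) := by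
        funext c'
        by_cases hc : c' = c
        · subst hc
          simp
        · simp [Pi.single_eq_of_ne hc]
      rw [e] at h
      exact h
  intro m hm
  rw [mem_twGr] at hm
  have e : m = ∑ c, Pi.single c (m c) := (Finset.univ_sum_single m).symm
  rw [e]
  exact Submodule.sum_mem _ fun c _ => key c n (m c) (hm c)

theorem LFree.tw_gr0 {G : DG k} (L : LFree G) (m : Fin 2 → G.M) :
    m ∈ twGr G.gr 0 ↔ ∃ u : Fin 2 → L.U, (∀ c, u c ∈ L.p) ∧ (fun c => L.vac (u c)) = m := by
  rw [mem_twGr]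
  constructor
  · intro h
    have h' : ∀ c, ∃ u ∈ L.p, L.vac u = m c := fun c => (L.gr0 (m c)).1 (h c)
    choose u hu hv using h'
    exact ⟨u, hu, funext hv⟩
  · rintro ⟨u, hu, rfl⟩ c
    exact (L.gr0 _).2 ⟨u c, hu c, rfl⟩

end P176
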