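import Vale.Agent.P176.ModCat
import Vale.Agent.P176.Seqs
import Vale.Agent.P176.Retr

/-!
# P176: the main theorem
-/

namespace P176

open CategoryTheory

variable {k : Type} [Field k] [CharZero k]

theorem GExa.Z_exa {R S T : GRep k} {f : GRep.Hom R S} {g : GRep.Hom S T} (h : GExa f g) :
    Exa f.Z g.Z := ⟨h.inj, h.surj, h.exact⟩

theorem GExa.Q_exa' {R S T : GRep k} {f : GRep.Hom R S} {g : GRep.Hom S T} (h : GExa f g)
    (hR : R.e 0 = 0) (hS : S.e 0 = 0) (hT : T.e 0 = 0) :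
    Exa (f.Q hR hS) (g.Q hS hT) :=
  ⟨(h.Q_exa hR hS hT).1, (h.Q_exa hR hS hT).2.1, (h.Q_exa hR hS hT).2.2⟩

/-- Windows starting at `6` or later vanish. -/
theorem win_big (G : DG k) (s : ℕ) (hs : 6 ≤ s) (v : (G.win s).M) : v = 0 := by
  refine G.wval_inj s (funext fun i => ?_)
  have h := G.wval_mem s v i
  rw [G.gr_neg _ (by have := i.2; omega), Submodule.mem_bot] at h
  rw [h, map_zero]
  rfl

/-- `Q` of a vanishing representation vanishes. -/
theorem Q_zero (N : GRep k) (h0 : N.e 0 = 0) (h : ∀ v : N.M, v = 0) (m : (N.Q h0).M) : m = 0 := by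
  obtain ⟨x, y, z⟩ := m
  exact Prod.ext (h x) (Prod.ext (funext fun c => h (y c)) (funext fun c => h (z c)))

/-- The inclusion of `N` in `Q(N)`. -/
def qmk (N : GRep k) (h0 : N.e 0 = 0) (x : N.M) : (N.Q h0).M :=
  ((x, 0, 0) : N.M × (Fin 2 → N.M) × (Fin 2 → N.M))

/-- The second component of an element of `Q(N)`. -/
def qsnd (N : GRep k) (h0 : N.e 0 = 0) (m : (N.Q h0).M) : Fin 2 → N.M :=
  (show N.M × (Fin 2 → N.M) × (Fin 2 → N.M) from m).2.1

/-- There are no morphisms from `Q(N)` to `S0`. -/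
theorem Q_hom_S0 (N : GRep k) (h0 : N.e 0 = 0) (F : Rep.Hom (N.Q h0) (S0 k))
    (m : (N.Q h0).M) : F.f m = 0 := by
  have e0 : ∀ w, (S0 k).op (.e 0) w = w := fun w => rfl
  have h1 : F.f ((N.Q h0).op (.e 0) m) = F.f m := (F.map_op (.e 0) m).trans (e0 _)
  have h2 : (N.Q h0).op (.e 0) m =
      (N.Q h0).op (.al 0) (qmk N h0 (N.e 1 (qsnd N h0 m 0))) +
      (N.Q h0).op (.al 1) (qmk N h0 (N.e 1 (qsnd N h0 m 1))) := by
    obtain ⟨x, y, z⟩ := m
    change ((N.e 0 x, wmap (N.e (0 + 1)) y, wmap (N.e 0) z) :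
        N.M × (Fin 2 → N.M) × (Fin 2 → N.M)) =
      ((0, Pi.single 0 (N.e 1 (y 0)), 0) : N.M × (Fin 2 → N.M) × (Fin 2 → N.M)) +
      ((0, Pi.single 1 (N.e 1 (y 1)), 0) : N.M × (Fin 2 → N.M) × (Fin 2 → N.M))
    rw [h0]
    refine Prod.ext (by simp) (Prod.ext (funext fun c => ?_) (funext fun c => by simp))
    fin_cases c <;> simp
  have h3 : ∀ c w, F.f ((N.Q h0).op (.al c) w) = 0 := fun c w => F.map_op (.al c) w
  rw [← h1, h2, map_add, h3, h3, add_zero]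

/-- Retracts of graded `B`-modules give retracts of windows. -/
theorem win_retr {G H : DG k} (f : DG.Hom G H) (g : DG.Hom H G)
    (h : ∀ j m, m ∈ G.gr j → g.f (f.f m) = m) (s : ℕ) (v : (G.win s).M) :
    (g.win s).f ((f.win s).f v) = v := by
  refine G.wval_inj s (funext fun i => ?_)
  rw [DG.Hom.win_wval, DG.Hom.win_wval, h _ _ (G.wval_mem s v i)]

/-- Retracts of graded `B`-modules give retracts of windows, for two summands. -/
theorem win_retr₂ {G H H' : DG k} (f : DG.Hom G H) (g : DG.Hom H G) (f' : DG.Hom G H')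
    (g' : DG.Hom H' G)
    (h : ∀ j m, m ∈ G.gr j → g.f (f.f m) + g'.f (f'.f m) = m) (s : ℕ) (v : (G.win s).M) :
    (g.win s).f ((f.win s).f v) + (g'.win s).f ((f'.win s).f v) = v := by
  refine G.wval_inj s (funext fun i => ?_)
  rw [map_add, Pi.add_apply, DG.Hom.win_wval, DG.Hom.win_wval, DG.Hom.win_wval,
    DG.Hom.win_wval, h _ _ (G.wval_mem s v i)]

section Gn

variable (k)

/-- `Q` of the windows `s + 1` of `Λ ⊗ V_n`. -/
noncomputable def Qn (n s : ℕ) : Rep k := ((Gn k n).win (s + 1)).Q ((Gn k n).win_e0 s)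

/-- The modules `N_n`. -/
noncomputable def Nn (n : ℕ) : Rep k := ((Gn k n).win 1).Z

/-- The modules `F(N_n)`. -/
noncomputable def Fn (n : ℕ) : Rep k := (((Gn k n).win 1).F ((Gn k n).win_e0 0)).Z

theorem Qn_finPd (n : ℕ) : ∀ t s : ℕ, s + t = 5 → (Qn k n s).FinPd
  | 0, s, hs => Rep.FinPd.of_zero (Q_zero _ _ (win_big _ _ (by omega)))
  | t + 1, s, hs => by
    obtain ⟨f, g, h⟩ := win_seq (Gn k n) 1 (s + 1)
    exact (h.Q_exa' ((Gn k n).win_e0 (s + 1)) (((Gn k n).coneC 1).win_e0 s)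
      ((Gn k n).win_e0 s)).finPd₃ (Qn_finPd n t (s + 1) (by omega))
      (Rep.FinPd.of_proj ((Ln k n).isProj_Q (s + 1) _))

theorem Qn_orth (n : ℕ) : ∀ t s : ℕ, s + t = 5 → (Qn k n s).Orth
  | 0, s, hs => Rep.Orth.of_zero (Q_zero _ _ (win_big _ _ (by omega)))
  | t + 1, s, hs => by
    obtain ⟨f, g, h⟩ := win_seq (Gn k n) 1 (s + 1)
    exact (h.Q_exa' ((Gn k n).win_e0 (s + 1)) (((Gn k n).coneC 1).win_e0 s)
      ((Gn k n).win_e0 s)).orth₃ (Qn_orth n t (s + 1) (by omega))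
      (Rep.Orth.of_proj ((Ln k n).isProj_Q (s + 1) _) (Q_hom_S0 _ _))

/-- The exact sequence `0 → F(N_n) → Q(N_n) → N_n → 0`. -/
theorem FQN (n : ℕ) : ∃ (f : Rep.Hom (Fn k n) (Qn k n 0)) (g : Rep.Hom (Qn k n 0) (Nn k n)),
    Exa f g := by
  obtain ⟨f, g, h1, h2, h3⟩ := fqz ((Gn k n).win 1) ((Gn k n).win_e0 0)
  exact ⟨f, g, ⟨h1, h2, h3⟩⟩

/-- Cones of nonzero scalars of `Λ`-free modules have finite projective dimension. -/
theorem cone_finPd {G : DG k} (L : LFree G) (c : k) (hc : c ≠ 0) :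
    (((G.coneC c).win 0).Z).FinPd := by
  obtain ⟨f, g, h⟩ := cone_scale G c hc
  exact Rep.FinPd.of_retract (f.win 0).Z (g.win 0).Z (win_retr f g (fun _ m _ => h m) 0)
    (Rep.FinPd.of_proj L.isProj_Z)

theorem win0_finPd (n : ℕ) (h : (Nn k n).FinPd) : (((Gn k n).win 0).Z).FinPd := by
  obtain ⟨f, g, hfg⟩ := win_seq (Gn k n) 1 0
  exact hfg.Z_exa.finPd₃ h (cone_finPd k (Ln k n) 1 one_ne_zero)

theorem cone0_finPd (n : ℕ) (h : (Nn k n).FinPd) : ((((Gn k n).coneC 0).win 0).Z).FinPd := by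
  obtain ⟨f, g, hfg⟩ := win_seq (Gn k n) 0 0
  exact hfg.Z_exa.finPd₂ h (win0_finPd k n h)

theorem Fn_finPd_of (n : ℕ) (h : (((Gn k n).ee.win 0).Z).FinPd) : (Fn k n).FinPd := by
  obtain ⟨f, g, h1, _⟩ := fwin_iso (Gn k n) (Gn_gr5 k n)
  exact Rep.FinPd.of_retract f.Z g.Z h1 h

theorem Fn_finPd_zero : (Fn k 0).FinPd := by
  refine Fn_finPd_of k 0 ?_
  obtain ⟨i, r, h⟩ := retr0 k
  exact Rep.FinPd.of_retract (i.win 0).Z (r.win 0).Z (win_retr i r h 0)
    (cone_finPd k (Ln k 0).tw 1 one_ne_zero)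

theorem Fn_finPd_succ (n : ℕ) (hn : (Nn k n).FinPd) : (Fn k (n + 1)).FinPd := by
  refine Fn_finPd_of k (n + 1) ?_
  obtain ⟨i1, r1, i2, r2, h, _⟩ := retr k n
  have hc : (n : k) + 2 ≠ 0 := by
    have : ((n + 2 : ℕ) : k) ≠ 0 := Nat.cast_ne_zero.2 (by omega)
    push_cast at this
    exact this
  exact Rep.FinPd.of_retract₂ (i1.win 0).Z (r1.win 0).Z (i2.win 0).Z (r2.win 0).Z
    (win_retr₂ i1 r1 i2 r2 h 0)
    (cone_finPd k (Ln k (n + 1)).tw _ hc) (cone0_finPd k n hn)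

theorem Nn_finPd_of (n : ℕ) (h : (Fn k n).FinPd) : (Nn k n).FinPd := by
  obtain ⟨f, g, hfg⟩ := FQN k n
  exact hfg.finPd₃ h (Qn_finPd k n 5 0 (by omega))

/-- The modules `N_n` have finite projective dimension. -/
theorem Nn_finPd (n : ℕ) : (Nn k n).FinPd := by
  induction n with
  | zero => exact Nn_finPd_of k 0 (Fn_finPd_zero k)
  | succ n ih => exact Nn_finPd_of k (n + 1) (Fn_finPd_succ k n ih)

theorem Nn_nOrth_of (n i : ℕ) (h : (Fn k n).NOrth i) : (Nn k n).NOrth (i + 1) := by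
  obtain ⟨f, g, hfg⟩ := FQN k n
  exact hfg.nOrth₃ (Qn_orth k n 5 0 (by omega)) h

theorem Fn_nOrth_zero : (Fn k 0).NOrth 0 := by
  obtain ⟨F, h1, h2, h3, m, hm⟩ := base_hom k
  let G : Rep.Hom (Fn k 0) (S0 k) :=
    { f := F
      map_op := by
        intro g x
        cases g with
        | e j =>
          refine (h1 j x).trans ?_
          change _ = (if j = 0 then (1 : Module.End k k) else 0) (F x)
          split_ifs <;> rfl
        | xi a b => exact h2 a b x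
        | tau => exact h3 x
        | al c => exact map_zero F
        | be c => exact map_zero F }
  exact Rep.NOrth.of_hom G m hm

theorem Fn_nOrth_succ (n i : ℕ) (h : (Nn k n).NOrth i) : (Fn k (n + 1)).NOrth i := by
  obtain ⟨f, g, h1, h2⟩ := fwin_iso (Gn k (n + 1)) (Gn_gr5 k (n + 1))
  obtain ⟨i1, r1, i2, r2, _, h3⟩ := retr k n
  obtain ⟨a, b, h4⟩ := cone0_retr (Gn k n)
  have e1 : (((Gn k n).coneC 0).win 0).Z.NOrth i := Rep.NOrth.of_retract a.Z b.Z h4 h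
  have e2 : ((Gn k (n + 1)).ee.win 0).Z.NOrth i :=
    Rep.NOrth.of_retract (r2.win 0).Z (i2.win 0).Z (win_retr r2 i2 h3 0) e1
  exact Rep.NOrth.of_retract g.Z f.Z h2 e2

/-- The group `Ext^(n + 1) (N_n, S0)` does not vanish. -/
theorem Nn_nOrth (n : ℕ) : (Nn k n).NOrth (n + 1) := by
  induction n with
  | zero => exact Nn_nOrth_of k 0 0 (Fn_nOrth_zero k)
  | succ n ih => exact Nn_nOrth_of k (n + 1) (n + 1) (Fn_nOrth_succ k n _ ih)

theorem Nn_finite (n : ℕ) : Module.Finite (Alg k) (Nn k n).toMod := by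
  have h : Module.Finite k (Nn k n).Car := Gn_win_finite k n 1
  exact Module.Finite.of_restrictScalars_finite k (Alg k) (Nn k n).Car

/-- The main theorem. -/
theorem main_findim (n : ℕ) : ∃ M : ModuleCat.{0} (Alg k),
    Module.Finite (Alg k) M ∧ (n : WithBot ℕ∞) ≤ projectiveDimension M ∧
      projectiveDimension M ≠ ⊤ := by
  refine ⟨(Nn k n).toMod, Nn_finite k n, ?_, ?_⟩
  · rw [projectiveDimension_ge_iff]
    intro h
    have := hasProjectiveDimensionLT_of_ge (Nn k n).toMod n (n + 1) (by omega)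
    exact (Nn_nOrth k n).not_pd this
  · rw [projectiveDimension_ne_top_iff]
    obtain ⟨d, hd⟩ := Nn_finPd k n
    exact ⟨d, hasProjectiveDimensionLT_of_ge (Nn k n).toMod d (d + 1) (by omega)⟩

end Gn

end P176
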