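import Vale.Agent.P176.Defs

/-!
# P176, module S0: the simple module at the vertex `0`
-/

namespace P176

open CategoryTheory

variable {k : Type} [Field k]

/-- The operators of the simple module at the vertex `0`. -/
def s0op : Gen → Module.End k k
  | .e j => if j = 0 then 1 else 0
  | _ => 0

private theorem s0op_e (j : ℕ) : s0op (k := k) (.e j) = if j = 0 then 1 else 0 := rfl

private theorem s0op_xi (a b : Fin 2) : s0op (k := k) (.xi a b) = 0 := rfl

private theorem s0op_tau : s0op (k := k) .tau = 0 := rfl

private theorem s0op_al (c : Fin 2) : s0op (k := k) (.al c) = 0 := rfl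

private theorem s0op_be (c : Fin 2) : s0op (k := k) (.be c) = 0 := rfl

theorem isRep_s0op : IsRep (s0op (k := k)) where
  xi_xi a b c d := by simp [s0op_xi]
  tau_xi a b := by simp [s0op_xi, s0op_tau]
  tau_tau := by simp [s0op_tau]
  e_mul i j := by
    simp only [s0op_e]
    by_cases hi : i = 0
    · subst hi
      by_cases hj : j = 0
      · subst hj
        simp
      · have h : (0 : ℕ) ≠ j := fun h => hj h.symm
        simp [hj, h]
    · by_cases hij : i = j
      · subst hij
        simp [hi]
      · simp [hi, hij]
  e_big j hj := by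
    have h : j ≠ 0 := by omega
    simp [s0op_e, h]
  e_sum := by simp [s0op_e]
  xi_e a b j := by simp [s0op_xi]
  e0_xi a b := by simp [s0op_xi]
  tau_e j := by simp [s0op_tau]
  e0_tau := by simp [s0op_tau]
  al_e c j := by simp [s0op_al]
  al_e0 c := by simp [s0op_al]
  be_e c j := by simp [s0op_be]
  be_e0 c := by simp [s0op_be]
  al_al c d := by simp [s0op_al]
  al_be c d := by simp [s0op_al]
  be_al c d := by simp [s0op_al]
  be_be c d := by simp [s0op_be]
  xi_al a b c := by simp [s0op_xi, s0op_al, s0op_be]
  xi_be a b c := by simp [s0op_xi, s0op_be]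
  tau_al c := by simp [s0op_tau, s0op_al, s0op_xi]
  tau_be c := by simp [s0op_tau, s0op_be, s0op_xi]

end P176
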