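import Vale.Agent.P176.Alg
import Vale.Agent.P176.S0op

/-!
# P176: homological algebra, definitions
-/

namespace P176

open CategoryTheory

variable {k : Type} [Field k] [CharZero k]

/-- Exactness of a sequence of representations. -/
structure Exa {R S T : Rep k} (f : Rep.Hom R S) (g : Rep.Hom S T) : Prop where
  inj : Function.Injective f.f
  surj : Function.Surjective g.f
  exact : ∀ m, g.f m = 0 ↔ ∃ x, f.f x = m

/-- Finite projective dimension. -/
def Rep.FinPd (R : Rep k) : Prop := ∃ n, HasProjectiveDimensionLT R.toMod n

variable (k) in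
/-- The simple module at the vertex `0`. -/
def S0 : Rep k where
  M := k
  op := s0op
  isRep := isRep_s0op

/-- All extension groups with values in `S0` vanish. -/
def Rep.Orth (R : Rep k) : Prop :=
  ∀ (i : ℕ) (x : Abelian.Ext.{0} R.toMod (S0 k).toMod i), x = 0

/-- The `i`-th extension group with values in `S0` does not vanish. -/
def Rep.NOrth (R : Rep k) (i : ℕ) : Prop :=
  ∃ x : Abelian.Ext.{0} R.toMod (S0 k).toMod i, x ≠ 0

end P176
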