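import Vale.Agent.P176.ModDefs

/-!
# P176, module PROJ: projective representations give projective modules

Given an epimorphism of modules, use `ofMod` of both modules: `A`-linear maps `R.Car → M` are the
same as morphisms `R → ofMod M` (`Rep.actA_gen`, `FreeAlgebra` induction).
-/

namespace P176

open CategoryTheory

variable {k : Type} [Field k] [CharZero k]

section projAux

variable (M : Type) [AddCommGroup M] [Module (Alg k) M]

/-- The additive identification of the carrier of `ofMod M` with `M`. -/
private def pjE : (ofMod (k := k) M).M ≃+ M := AddEquiv.refl M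

private theorem pjE_smul (c : k) (m : (ofMod (k := k) M).M) :
    pjE M (c • m) = algebraMap k (Alg k) c • pjE M m := rfl

private theorem pjE_op (g : Gen) (m : (ofMod (k := k) M).M) :
    pjE M ((ofMod (k := k) M).op g m) = (gen g : Alg k) • pjE M m := rfl

private theorem pjE_act (x : FreeAlgebra k Gen) (m : (ofMod (k := k) M).M) :
    pjE M ((ofMod (k := k) M).act x m) =
      Ideal.Quotient.mkₐ k (RingHom.ker (actU k)) x • pjE M m := by
  induction x using FreeAlgebra.induction generalizing m with
  | grade0 r =>
    rw [AlgHom.commutes, AlgHom.commutes, Module.algebraMap_end_apply, pjE_smul]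
  | grade1 g =>
    rw [Rep.act, FreeAlgebra.lift_ι_apply, pjE_op]
    rfl
  | mul a b ha hb =>
    rw [map_mul, map_mul, Module.End.mul_apply, ha, hb, mul_smul]
  | add a b ha hb =>
    rw [map_add, map_add, LinearMap.add_apply, map_add, ha, hb, add_smul]

end projAux

/-- Linear maps out of a representation, as morphisms of representations. -/
private noncomputable def pjHom {P : Rep k} {M : Type} [AddCommGroup M] [Module (Alg k) M]
    (f : P.Car →ₗ[Alg k] M) : Rep.Hom P (ofMod (k := k) M) where
  f :=
    { toFun := fun m => (pjE M).symm (f (m : P.Car))
      map_add' := fun a b => by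
        rw [← map_add]
        exact congrArg _ (f.map_add (a : P.Car) b)
      map_smul' := fun c m => by
        apply (pjE M).injective
        rw [RingHom.id_apply, pjE_smul]
        have h1 : (algebraMap k (Alg k) c) • (show P.Car from m) = c • (show P.Car from m) :=
          algebraMap_smul (Alg k) c (show P.Car from m)
        have h2 := f.map_smul (algebraMap k (Alg k) c) (show P.Car from m)
        rw [h1] at h2
        exact h2 }
  map_op := fun g m => by
    apply (pjE M).injective
    have h2 := f.map_smul (gen g : Alg k) (show P.Car from m)
    rw [Rep.smul_def, Rep.actA_gen] at h2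
    exact h2

/-- Morphisms of representations to `ofMod M`, as linear maps. -/
private noncomputable def pjLin {P : Rep k} {M : Type} [AddCommGroup M] [Module (Alg k) M]
    (F : Rep.Hom P (ofMod (k := k) M)) : P.Car →ₗ[Alg k] M where
  toFun m := pjE M (F.f (m : P.M))
  map_add' a b := by
    rw [← map_add]
    exact congrArg _ (F.f.map_add (a : P.M) b)
  map_smul' a m := by
    obtain ⟨x, rfl⟩ := Ideal.Quotient.mkₐ_surjective k (RingHom.ker (actU k)) a
    rw [RingHom.id_apply, ← pjE_act]
    exact congrArg _ (F.act x m)

/-- A representation that is projective among representations gives a projective module.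
(Given an epimorphism of modules, use `ofMod` of both modules.) -/
theorem Rep.IsProj.projective {P : Rep k} (h : P.IsProj) : Projective P.toMod := by
  constructor
  intro E X f e he
  let g : Rep.Hom (ofMod (k := k) E) (ofMod (k := k) X) :=
    { f :=
        { toFun := fun m => (pjE X).symm (e.hom (pjE E m))
          map_add' := fun a b => by rw [map_add, map_add, map_add]
          map_smul' := fun c m => by
            apply (pjE X).injective
            rw [AddEquiv.apply_symm_apply, RingHom.id_apply, pjE_smul, pjE_smul,
              AddEquiv.apply_symm_apply, map_smul] }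
      map_op := fun t m => by
        apply (pjE X).injective
        change e.hom (pjE E ((ofMod (k := k) E).op t m)) =
          pjE X ((ofMod (k := k) X).op t ((pjE X).symm (e.hom (pjE E m))))
        rw [pjE_op, pjE_op, AddEquiv.apply_symm_apply, map_smul] }
  have hg : Function.Surjective g.f := by
    have hs : Function.Surjective e.hom := (ModuleCat.epi_iff_surjective e).1 he
    intro y
    obtain ⟨x, hx⟩ := hs (pjE X y)
    refine ⟨(pjE E).symm x, ?_⟩
    change (pjE X).symm (e.hom (pjE E ((pjE E).symm x))) = y
    rw [AddEquiv.apply_symm_apply, hx, AddEquiv.symm_apply_apply]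
  obtain ⟨h', hh⟩ := h _ _ g hg (pjHom f.hom)
  refine ⟨ModuleCat.ofHom (pjLin h'), ?_⟩
  ext m
  have h1 := congrArg (pjE X) (hh (m : P.M))
  change pjE X ((pjE X).symm (e.hom (pjE E (h'.f (m : P.M))))) =
    pjE X ((pjE X).symm (f.hom (m : P.Car))) at h1
  rw [AddEquiv.apply_symm_apply, AddEquiv.apply_symm_apply] at h1
  exact h1

end P176
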