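import Vale.Agent.P176.ModSes
import Vale.Agent.P176.ModProj

/-!
# P176, module FINPD: finite projective dimension
-/

namespace P176

open CategoryTheory

variable {k : Type} [Field k] [CharZero k]

private theorem finPd_mono {X : ModuleCat.{0} (Alg k)} {n : ℕ} (h : HasProjectiveDimensionLT X n)
    (m : ℕ) (hm : n ≤ m) : HasProjectiveDimensionLT X m :=
  hasProjectiveDimensionLT_of_ge X n m hm

theorem Rep.FinPd.of_zero {R : Rep k} (h : ∀ m : R.M, m = 0) : R.FinPd := by
  have hs : Subsingleton R.Car := ⟨fun a b => (h a).trans (h b).symm⟩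
  have hz : Limits.IsZero R.toMod := ModuleCat.isZero_of_subsingleton _
  exact ⟨0, hz.hasProjectiveDimensionLT_zero⟩

theorem Rep.FinPd.of_proj {R : Rep k} (h : R.IsProj) : R.FinPd := by
  have hp : Projective R.toMod := h.projective
  exact ⟨1, inferInstance⟩

theorem Exa.finPd₃ {R S T : Rep k} {f : Rep.Hom R S} {g : Rep.Hom S T} (h : Exa f g)
    (h1 : R.FinPd) (h2 : S.FinPd) : T.FinPd := by
  obtain ⟨w, hse⟩ := h.ses
  obtain ⟨n, hn⟩ := h1
  obtain ⟨m, hm⟩ := h2
  refine ⟨max n m + 1, ?_⟩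
  exact hse.hasProjectiveDimensionLT_X₃ (max n m) (finPd_mono hn _ (le_max_left _ _))
    (finPd_mono hm _ ((le_max_right _ _).trans (Nat.le_succ _)))

theorem Exa.finPd₂ {R S T : Rep k} {f : Rep.Hom R S} {g : Rep.Hom S T} (h : Exa f g)
    (h1 : R.FinPd) (h3 : T.FinPd) : S.FinPd := by
  obtain ⟨w, hse⟩ := h.ses
  obtain ⟨n, hn⟩ := h1
  obtain ⟨m, hm⟩ := h3
  refine ⟨max n m, ?_⟩
  exact hse.hasProjectiveDimensionLT_X₂ (max n m) (finPd_mono hn _ (le_max_left _ _))
    (finPd_mono hm _ (le_max_right _ _))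

theorem Rep.FinPd.of_retract {R S : Rep k} (i : Rep.Hom R S) (r : Rep.Hom S R)
    (h : ∀ m, r.f (i.f m) = m) (hS : S.FinPd) : R.FinPd := by
  obtain ⟨n, hn⟩ := hS
  have hr : Retract R.toMod S.toMod :=
    { i := i.toMod
      r := r.toMod
      retract := by
        ext m
        exact h m }
  exact ⟨n, hr.hasProjectiveDimensionLT n⟩

/-- A representation that is a retract of a direct sum of two representations. -/
theorem Rep.FinPd.of_retract₂ {R S S' : Rep k} (i : Rep.Hom R S) (r : Rep.Hom S R)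
    (i' : Rep.Hom R S') (r' : Rep.Hom S' R)
    (h : ∀ m, r.f (i.f m) + r'.f (i'.f m) = m) (hS : S.FinPd) (hS' : S'.FinPd) : R.FinPd := by
  obtain ⟨n, hn⟩ := hS
  obtain ⟨n', hn'⟩ := hS'
  have a1 : HasProjectiveDimensionLT S.toMod (max n n') := finPd_mono hn _ (le_max_left _ _)
  have a2 : HasProjectiveDimensionLT S'.toMod (max n n') := finPd_mono hn' _ (le_max_right _ _)
  have a3 : HasProjectiveDimensionLT (S.toMod ⊞ S'.toMod) (max n n') := inferInstance
  have hr : Retract R.toMod (S.toMod ⊞ S'.toMod) :=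
    { i := Limits.biprod.lift i.toMod i'.toMod
      r := Limits.biprod.desc r.toMod r'.toMod
      retract := by
        rw [Limits.biprod.lift_desc]
        ext m
        exact h m }
  exact ⟨max n n', hr.hasProjectiveDimensionLT _⟩

end P176
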