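import Vale.Agent.P176.ModSes
import Vale.Agent.P176.ModProj

/-!
# P176, module ORTH: extensions with values in `S0`

Use `Abelian.Ext.contravariant_sequence_exact₁` and its companions.
-/

namespace P176

open CategoryTheory

variable {k : Type} [Field k] [CharZero k]

/-- Every morphism of modules between representations is a morphism of representations. -/
theorem orth_hom_of_toMod {R S : Rep k} (φ : R.toMod ⟶ S.toMod) :
    ∃ F : Rep.Hom R S, ∀ m, F.f m = φ.hom m := by
  have hk : ∀ (T : Rep k) (c : k) (m : T.Car), (c • (1 : Alg k)) • m = c • m := by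
    intro T c m
    rw [smul_assoc, one_smul]
  have hg : ∀ (T : Rep k) (g : Gen) (m : T.Car), gen (k := k) g • m = (T.op g (m : T.M) : T.M) := by
    intro T g m
    rw [Rep.smul_def, Rep.actA_gen]
  refine ⟨{ f := { toFun := fun m => φ.hom m
                   map_add' := fun x y => φ.hom.map_add x y
                   map_smul' := fun c m => ?_ }
            map_op := fun g m => ?_ }, fun m => rfl⟩
  · have h1 := φ.hom.map_smul (c • (1 : Alg k)) (m : R.Car)
    exact (congrArg φ.hom (hk R c m)).symm.trans (h1.trans (hk S c (φ.hom m)))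
  · have h1 := φ.hom.map_smul (gen (k := k) g) (m : R.Car)
    exact (congrArg φ.hom (hg R g m)).symm.trans (h1.trans (hg S g (φ.hom m)))

theorem orth_toMod_eq_zero {R S : Rep k} (φ : R.toMod ⟶ S.toMod) (h : ∀ m : R.M, φ.hom m = 0) :
    φ = 0 := by
  ext m
  exact h m

theorem Rep.Orth.of_zero {R : Rep k} (h : ∀ m : R.M, m = 0) : R.Orth := by
  intro i x
  have h0 : (𝟙 R.toMod) = 0 := orth_toMod_eq_zero _ fun m => by
    rw [h m]
    exact map_zero _
  rw [← x.mk₀_id_comp, h0, Abelian.Ext.mk₀_zero, Abelian.Ext.zero_comp]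

/-- A projective without morphisms to `S0` is orthogonal to `S0`. -/
theorem Rep.Orth.of_proj {R : Rep k} (h : R.IsProj)
    (h0 : ∀ F : Rep.Hom R (S0 k), ∀ m, F.f m = 0) : R.Orth := by
  intro i x
  have := h.projective
  cases i with
  | zero =>
    obtain ⟨φ, rfl⟩ := Abelian.Ext.homEquiv₀.symm.surjective x
    obtain ⟨F, hF⟩ := orth_hom_of_toMod φ
    have : φ = 0 := orth_toMod_eq_zero _ fun m => (hF m).symm.trans (h0 F m)
    rw [this, Abelian.Ext.homEquiv₀_symm_apply, Abelian.Ext.mk₀_zero]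
  | succ i => exact x.eq_zero_of_projective

theorem Exa.orth₃ {R S T : Rep k} {f : Rep.Hom R S} {g : Rep.Hom S T} (h : Exa f g)
    (h1 : R.Orth) (h2 : S.Orth) : T.Orth := by
  obtain ⟨w, hs⟩ := h.ses
  intro i x
  cases i with
  | zero =>
    have hx : (Abelian.Ext.mk₀ g.toMod).comp x (zero_add 0) = 0 := h2 0 _
    have : Epi g.toMod := hs.epi_g
    have := Abelian.Ext.precomp_mk₀_injective_of_epi (S0 k).toMod g.toMod
    apply this
    simpa using hx
  | succ i =>
    obtain ⟨y, hy⟩ := Abelian.Ext.contravariant_sequence_exact₃ hs (S0 k).toMod x (h2 (i + 1) _)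
      (n₀ := i) (by omega)
    rw [← hy, h1 i y, Abelian.Ext.comp_zero]

theorem Exa.nOrth₃ {R S T : Rep k} {f : Rep.Hom R S} {g : Rep.Hom S T} (h : Exa f g)
    (h2 : S.Orth) {i : ℕ} (h1 : R.NOrth i) : T.NOrth (i + 1) := by
  obtain ⟨w, hs⟩ := h.ses
  obtain ⟨x, hx⟩ := h1
  refine ⟨hs.extClass.comp x (by omega), fun h0 => hx ?_⟩
  obtain ⟨y, hy⟩ := Abelian.Ext.contravariant_sequence_exact₁ hs (S0 k).toMod x (n₁ := i + 1)
    (by omega) h0
  rw [← hy, h2 i y, Abelian.Ext.comp_zero]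

theorem Rep.NOrth.of_retract {R S : Rep k} (i : Rep.Hom R S) (r : Rep.Hom S R)
    (h : ∀ m, r.f (i.f m) = m) {j : ℕ} (hR : R.NOrth j) : S.NOrth j := by
  obtain ⟨x, hx⟩ := hR
  have hir : i.toMod ≫ r.toMod = 𝟙 R.toMod := by
    ext m
    exact h m
  refine ⟨(Abelian.Ext.mk₀ r.toMod).comp x (zero_add j), fun h0 => hx ?_⟩
  have := congrArg (fun y => (Abelian.Ext.mk₀ i.toMod).comp y (zero_add j)) h0
  simp only [Abelian.Ext.comp_zero] at this
  rw [Abelian.Ext.mk₀_comp_mk₀_assoc, hir, Abelian.Ext.mk₀_id_comp] at this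
  exact this

theorem Rep.NOrth.of_hom {R : Rep k} (F : Rep.Hom R (S0 k)) (m : R.M) (hm : F.f m ≠ 0) :
    R.NOrth 0 := by
  refine ⟨Abelian.Ext.mk₀ F.toMod, fun h0 => hm ?_⟩
  rw [Abelian.Ext.mk₀_eq_zero_iff] at h0
  have := congrArg (fun φ : R.toMod ⟶ (S0 k).toMod => φ.hom (m : R.Car)) h0
  exact this

theorem Rep.NOrth.not_pd {R : Rep k} {i : ℕ} (h : R.NOrth i) :
    ¬ HasProjectiveDimensionLT R.toMod i := by
  intro hp
  obtain ⟨x, hx⟩ := h
  exact hx (x.eq_zero_of_hasProjectiveDimensionLT i le_rfl)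

end P176
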