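import Vale.Agent.P176.ModDefs

/-!
# P176, module SES: exact sequences of representations are exact sequences of modules
-/

namespace P176

open CategoryTheory

variable {k : Type} [Field k] [CharZero k]

/-- Exact sequences of representations are exact sequences of modules. -/
theorem Exa.ses {R S T : Rep k} {f : Rep.Hom R S} {g : Rep.Hom S T} (h : Exa f g) :
    ∃ w : f.toMod ≫ g.toMod = 0, (ShortComplex.mk f.toMod g.toMod w).ShortExact := by
  have w : f.toMod ≫ g.toMod = 0 := by
    ext m
    exact (h.exact (f.f m)).2 ⟨m, rfl⟩
  refine ⟨w, ?_⟩
  have hex : (ShortComplex.mk f.toMod g.toMod w).Exact := by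
    rw [ShortComplex.moduleCat_exact_iff]
    intro x hx
    exact (h.exact x).1 hx
  have : Mono (ShortComplex.mk f.toMod g.toMod w).f := by
    change Mono f.toMod
    rw [ModuleCat.mono_iff_injective]
    exact h.inj
  have : Epi (ShortComplex.mk f.toMod g.toMod w).g := by
    change Epi g.toMod
    rw [ModuleCat.epi_iff_surjective]
    exact h.surj
  exact { exact := hex }

end P176
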