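import Vale.Agent.P176.CE

/-!
# P176, module POLY: polynomials in two variables as a `gl_2`-module
-/

namespace P176

variable (k : Type) [Field k]

/-- The polynomial ring in two variables. -/
abbrev PO : Type := MvPolynomial (Fin 2) k

/-- Multiplication by the variable `X c`. -/
noncomputable def mX (c : Fin 2) : Module.End k (PO k) :=
  LinearMap.mulLeft k (MvPolynomial.X c)

/-- The partial derivative. -/
noncomputable def pD (c : Fin 2) : Module.End k (PO k) :=
  (MvPolynomial.pderiv c : Derivation k (PO k) (PO k)).toLinearMap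

/-- `E_ab = X_a D_b`. -/
noncomputable def gE (a b : Fin 2) : Module.End k (PO k) := mX k a * pD k b

/-- The homogeneous polynomials of degree `n`. -/
noncomputable def Vn (n : ℕ) : Submodule k (PO k) := MvPolynomial.homogeneousSubmodule (Fin 2) k n

private theorem poly_pD_apply (c : Fin 2) (f : PO k) : pD k c f = MvPolynomial.pderiv c f := rfl

private theorem poly_mX_apply (c : Fin 2) (f : PO k) : mX k c f = MvPolynomial.X c * f := rfl

theorem pD_mX (c d : Fin 2) :
    pD k c * mX k d = mX k d * pD k c + if c = d then 1 else 0 := by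
  refine LinearMap.ext (fun f => ?_)
  rw [Module.End.mul_apply, LinearMap.add_apply, Module.End.mul_apply, poly_pD_apply,
    poly_mX_apply, poly_mX_apply, poly_pD_apply, Derivation.leibniz, smul_eq_mul, smul_eq_mul,
    MvPolynomial.pderiv_X]
  congr 1
  by_cases h : c = d
  · subst h
    rw [if_pos rfl, Pi.single_eq_same, mul_one, Module.End.one_apply]
  · rw [if_neg h, LinearMap.zero_apply, Pi.single_eq_of_ne (fun h2 => h h2.symm), mul_zero]

theorem mX_mX (c d : Fin 2) : mX k c * mX k d = mX k d * mX k c := by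
  refine LinearMap.ext (fun f => ?_)
  rw [Module.End.mul_apply, Module.End.mul_apply, poly_mX_apply, poly_mX_apply, poly_mX_apply,
    poly_mX_apply]
  ring

theorem pD_pD (c d : Fin 2) : pD k c * pD k d = pD k d * pD k c := by
  refine LinearMap.ext (fun f => ?_)
  rw [Module.End.mul_apply, Module.End.mul_apply, poly_pD_apply, poly_pD_apply, poly_pD_apply,
    poly_pD_apply]
  induction f using MvPolynomial.induction_on with
  | C a => simp
  | add p q hp hq => simp only [map_add, hp, hq]
  | mul_X p i hp =>
    simp only [Derivation.leibniz, smul_eq_mul, map_add, MvPolynomial.pderiv_X, hp]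
    have h1 : ∀ (c d : Fin 2), MvPolynomial.pderiv c
        ((Pi.single d 1 : Fin 2 → MvPolynomial (Fin 2) k) i) = 0 := by
      intro c d
      by_cases h : i = d
      · subst h; rw [Pi.single_eq_same]; exact Derivation.map_one_eq_zero _
      · rw [Pi.single_eq_of_ne h, map_zero]
    rw [h1, h1]
    ring

theorem isGl_gE : IsGl (gE k) := by
  intro i j l m
  unfold gE
  have h1 : mX k i * pD k j * (mX k l * pD k m)
      = mX k i * (pD k j * mX k l) * pD k m := by noncomm_ring
  have h2 : mX k l * pD k m * (mX k i * pD k j)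
      = mX k l * (pD k m * mX k i) * pD k j := by noncomm_ring
  rw [h1, h2, pD_mX, pD_mX, mul_add, add_mul, mul_add, add_mul]
  have h3 : mX k i * (mX k l * pD k j) * pD k m = mX k l * (mX k i * pD k m) * pD k j := by
    calc mX k i * (mX k l * pD k j) * pD k m
        = (mX k i * mX k l) * (pD k j * pD k m) := by noncomm_ring
      _ = (mX k l * mX k i) * (pD k m * pD k j) := by rw [mX_mX k i l, pD_pD k j m]
      _ = mX k l * (mX k i * pD k m) * pD k j := by noncomm_ring
  rw [h3]
  have h4 : (if m = i then (1 : Module.End k (PO k)) else 0) = if i = m then 1 else 0 := by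
    by_cases h : i = m
    · rw [if_pos h, if_pos h.symm]
    · rw [if_neg h, if_neg (fun h2 => h h2.symm)]
  rw [h4]
  by_cases hjl : j = l <;> by_cases him : i = m
  · rw [if_pos hjl, if_pos him, if_pos hjl, if_pos him]
    rw [mul_one, mul_one]
    abel
  · rw [if_pos hjl, if_neg him, if_pos hjl, if_neg him]
    rw [mul_one, mul_zero, zero_mul]
    abel
  · rw [if_neg hjl, if_pos him, if_neg hjl, if_pos him]
    rw [mul_one, mul_zero, zero_mul]
    abel
  · rw [if_neg hjl, if_neg him, if_neg hjl, if_neg him]
    rw [mul_zero, mul_zero, zero_mul, zero_mul]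
    abel

theorem mX_mem (c : Fin 2) (n : ℕ) (f : PO k) (hf : f ∈ Vn k n) : mX k c f ∈ Vn k (n + 1) := by
  rw [Vn, MvPolynomial.mem_homogeneousSubmodule] at *
  rw [poly_mX_apply, add_comm]
  exact (MvPolynomial.isHomogeneous_X k c).mul hf

theorem pD_mem (c : Fin 2) (n : ℕ) (f : PO k) (hf : f ∈ Vn k (n + 1)) :
    pD k c f ∈ Vn k n := by
  rw [Vn, MvPolynomial.mem_homogeneousSubmodule] at *
  rw [poly_pD_apply]
  exact hf.pderiv

theorem pD_mem_zero (c : Fin 2) (f : PO k) (hf : f ∈ Vn k 0) : pD k c f = 0 := by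
  rw [Vn, MvPolynomial.mem_homogeneousSubmodule] at hf
  rw [poly_pD_apply]
  rw [← MvPolynomial.totalDegree_zero_iff_isHomogeneous,
    MvPolynomial.totalDegree_eq_zero_iff_eq_C] at hf
  rw [hf, MvPolynomial.pderiv_C]

theorem gE_mem (a b : Fin 2) (n : ℕ) (f : PO k) (hf : f ∈ Vn k n) : gE k a b f ∈ Vn k n := by
  unfold gE
  rw [Module.End.mul_apply]
  cases n with
  | zero =>
    rw [pD_mem_zero k b f hf, map_zero]
    exact Submodule.zero_mem _
  | succ n => exact mX_mem k a n _ (pD_mem k b n f hf)

theorem euler (n : ℕ) (f : PO k) (hf : f ∈ Vn k n) : ∑ a, gE k a a f = (n : k) • f := by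
  rw [Vn, MvPolynomial.mem_homogeneousSubmodule] at hf
  have h := hf.sum_X_mul_pderiv
  unfold gE
  simp only [Module.End.mul_apply, poly_mX_apply, poly_pD_apply]
  rw [h, Nat.cast_smul_eq_nsmul]

theorem Vn_finite (n : ℕ) : Module.Finite k (Vn k n) :=
  Module.Finite.iff_fg.2 (MvPolynomial.homogeneousSubmodule_fg (Fin 2) k n)

theorem one_mem_Vn_zero : (1 : PO k) ∈ Vn k 0 := by
  rw [Vn, MvPolynomial.mem_homogeneousSubmodule]
  exact MvPolynomial.isHomogeneous_one _ _

end P176
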