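import Vale.Agent.P176.Defs

/-!
# P176, module RELE: the twisted modules `M ⊗ W`, `E(M)` and the cone satisfy the relations of `B`

All statements are checked on components: apply `LinearMap.ext`, use the `_apply` lemmas of
`Defs.lean`, expand sums over `Fin 2` (`Fin.sum_univ_two`), `fin_cases` on the indices and use the
relations `h.xi_xi`, `h.tau_xi`, `h.tau_tau` in the form of identities
`xi a b (xi c d m) = - xi c d (xi a b m)`, `tau (xi a b m) = - xi a b (tau m) - ∑ l, ...`.
-/

namespace P176

variable {k : Type} [Field k] {M : Type} [AddCommGroup M] [Module k M]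

private theorem rele_xx {xi : Fin 2 → Fin 2 → Module.End k M} {tau : Module.End k M}
    (h : IsB xi tau) (a b c d : Fin 2) (m : M) :
    xi a b (xi c d m) + xi c d (xi a b m) = 0 := by
  have := LinearMap.congr_fun (h.xi_xi a b c d) m
  simpa using this

private theorem rele_tx {xi : Fin 2 → Fin 2 → Module.End k M} {tau : Module.End k M}
    (h : IsB xi tau) (a b : Fin 2) (m : M) :
    tau (xi a b m) + xi a b (tau m) = -(xi a 0 (xi 0 b m) + xi a 1 (xi 1 b m)) := by
  have := LinearMap.congr_fun (h.tau_xi a b) m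
  simpa [Fin.sum_univ_two] using this

private theorem rele_tt {xi : Fin 2 → Fin 2 → Module.End k M} {tau : Module.End k M}
    (h : IsB xi tau) (m : M) : tau (tau m) = 0 := by
  have := LinearMap.congr_fun h.tau_tau m
  simpa using this

/-- `M ⊗ W` satisfies the relations of `B`. -/
theorem isB_W {xi : Fin 2 → Fin 2 → Module.End k M} {tau : Module.End k M} (h : IsB xi tau) :
    IsB (fun a b => wmap (xi a b)) (tauW xi tau) := by
  refine ⟨?_, ?_, ?_⟩
  · intro a b c d
    refine LinearMap.ext fun u => funext fun i => ?_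
    simp only [LinearMap.add_apply, Module.End.mul_apply, Pi.add_apply, wmap_apply,
      LinearMap.zero_apply, Pi.zero_apply]
    exact rele_xx h a b c d (u i)
  · intro a b
    refine LinearMap.ext fun u => funext fun i => ?_
    simp only [LinearMap.add_apply, Module.End.mul_apply, Pi.add_apply, wmap_apply,
      tauW_apply, Fin.sum_univ_two, map_sub, map_add, LinearMap.neg_apply, Pi.neg_apply]
    have h1 := rele_tx h a b (u i)
    have h2 := rele_xx h 0 i a b (u 0)
    have h3 := rele_xx h 1 i a b (u 1)
    have e : ∀ t1 t2 x1 x2 y1 y2 r : M, t1 + t2 = r → x1 + y1 = 0 → x2 + y2 = 0 →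
        t1 - (x1 + x2) + (t2 - (y1 + y2)) = r := by
      intro t1 t2 x1 x2 y1 y2 r e1 e2 e3
      have : t1 - (x1 + x2) + (t2 - (y1 + y2)) = (t1 + t2) - (x1 + y1) - (x2 + y2) := by abel
      rw [this, e1, e2, e3]
      abel
    exact e _ _ _ _ _ _ _ h1 h2 h3
  · refine LinearMap.ext fun u => funext fun i => ?_
    simp only [Module.End.mul_apply, tauW_apply, Fin.sum_univ_two, map_sub, map_add,
      LinearMap.zero_apply, Pi.zero_apply]
    have h0 := rele_tt h (u i)
    have h1 := rele_tx h 0 i (u 0)
    have h2 := rele_tx h 1 i (u 1)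
    have a1 := rele_xx h 0 i 0 0 (u 0)
    have a2 := rele_xx h 0 i 1 0 (u 1)
    have a3 := rele_xx h 1 i 0 1 (u 0)
    have a4 := rele_xx h 1 i 1 1 (u 1)
    have e : ∀ t p1 p2 q1 q2 x1 x2 x3 x4 y1 y2 y3 y4 : M, t = 0 → p1 + q1 = -(y1 + y3) →
        p2 + q2 = -(y2 + y4) → x1 + y1 = 0 → x2 + y2 = 0 → x3 + y3 = 0 → x4 + y4 = 0 →
        t - (p1 + p2) - ((q1 - (x1 + x2)) + (q2 - (x3 + x4))) = 0 := by
      intro t p1 p2 q1 q2 x1 x2 x3 x4 y1 y2 y3 y4 e0 e1 e2 e3 e4 e5 e6
      have : t - (p1 + p2) - ((q1 - (x1 + x2)) + (q2 - (x3 + x4))) =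
          t - (p1 + q1) - (p2 + q2) + (x1 + y1) + (x2 + y2) + (x3 + y3) + (x4 + y4)
            - (y1 + y3) - (y2 + y4) := by abel
      rw [this, e0, e1, e2, e3, e4, e5, e6]
      abel
    exact e _ _ _ _ _ _ _ _ _ _ _ _ _ h0 h1 h2 a1 a2 a3 a4

/-- The commutator of the differential of `M ⊗ W` with `θ`. -/
theorem tauW_thW {xi : Fin 2 → Fin 2 → Module.End k M} {tau : Module.End k M} (h : IsB xi tau)
    (a b : Fin 2) :
    tauW xi tau * thW a b - thW a b * tauW xi tau =
      -∑ l, (wmap (xi a l) * thW l b - thW a l * wmap (xi l b)) := by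
  refine LinearMap.ext fun u => funext fun i => ?_
  simp only [Module.End.mul_apply, tauW_apply, Fin.sum_univ_two, map_sub, map_add,
    LinearMap.sub_apply, Pi.sub_apply, LinearMap.neg_apply, Pi.neg_apply, LinearMap.add_apply,
    Pi.add_apply, wmap_apply, thW_apply]
  fin_cases a <;> fin_cases b <;> fin_cases i <;> simp <;> abel

private theorem rele_wth (f : Module.End k M) (a b : Fin 2) (u : Fin 2 → M) :
    wmap f (thW (k := k) a b u) = thW (k := k) a b (wmap f u) := by
  funext c
  simp only [wmap_apply, thW_apply, map_sub]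
  split_ifs <;> simp

/-- `E(M)` satisfies the relations of `B`. -/
theorem isB_E {xi : Fin 2 → Fin 2 → Module.End k M} {tau : Module.End k M} (h : IsB xi tau) :
    IsB (xiE xi) (tauE xi tau) := by
  have hW := isB_W h
  refine ⟨?_, ?_, ?_⟩
  · intro a b c d
    have hx : ∀ u : Fin 2 → M, wmap (xi a b) (wmap (xi c d) u) +
        wmap (xi c d) (wmap (xi a b) u) = 0 := by
      intro u
      have := LinearMap.congr_fun (hW.xi_xi a b c d) u
      simpa using this
    refine LinearMap.ext fun u => Prod.ext ?_ ?_
    · simp only [LinearMap.add_apply, Module.End.mul_apply, xiE_apply, Prod.fst_add,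
        LinearMap.zero_apply, Prod.fst_zero]
      exact hx u.1
    · simp only [LinearMap.add_apply, Module.End.mul_apply, xiE_apply, Prod.snd_add,
        LinearMap.zero_apply, Prod.snd_zero, map_sub, map_neg]
      rw [rele_wth, rele_wth]
      have := hx u.2
      have e : ∀ x y p q : Fin 2 → M, x + y = 0 →
          -(-x - p) - q + (-(-y - q) - p) = 0 := by
        intro x y p q e0
        have : -(-x - p) - q + (-(-y - q) - p) = x + y := by abel
        rw [this, e0]
      exact e _ _ _ _ this
  · intro a b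
    have hx : ∀ u : Fin 2 → M, tauW xi tau (wmap (xi a b) u) +
        wmap (xi a b) (tauW xi tau u) = -(wmap (xi a 0) (wmap (xi 0 b) u) +
          wmap (xi a 1) (wmap (xi 1 b) u)) := by
      intro u
      have := LinearMap.congr_fun (hW.tau_xi a b) u
      simpa only [LinearMap.add_apply, Module.End.mul_apply, LinearMap.neg_apply,
        Fin.sum_univ_two] using this
    have ht : ∀ u : Fin 2 → M, tauW xi tau (thW (k := k) a b u) -
        thW (k := k) a b (tauW xi tau u) =
        -((wmap (xi a 0) (thW (k := k) 0 b u) - thW (k := k) a 0 (wmap (xi 0 b) u)) +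
          (wmap (xi a 1) (thW (k := k) 1 b u) - thW (k := k) a 1 (wmap (xi 1 b) u))) := by
      intro u
      have := LinearMap.congr_fun (tauW_thW h a b) u
      simpa only [LinearMap.add_apply, LinearMap.sub_apply, Module.End.mul_apply,
        LinearMap.neg_apply, Fin.sum_univ_two] using this
    refine LinearMap.ext fun u => Prod.ext ?_ ?_
    · simp only [LinearMap.add_apply, Module.End.mul_apply, xiE_apply, tauE_apply, Prod.fst_add,
        LinearMap.neg_apply, Prod.fst_neg, Fin.sum_univ_two]
      exact hx u.1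
    · simp only [LinearMap.add_apply, Module.End.mul_apply, xiE_apply, tauE_apply, Prod.snd_add,
        LinearMap.neg_apply, Prod.snd_neg, Fin.sum_univ_two, map_sub, map_neg]
      have h1 := hx u.2
      have h2 := ht u.1
      have e : ∀ x y p q r1 r2 s1 s2 v1 v2 : Fin 2 → M, x + y = -(r1 + r2) →
          p - q = -((s1 - v1) + (s2 - v2)) →
          -(-x - p) + (-(-y) - q) = -((-(-r1 - s1) - v1) + (-(-r2 - s2) - v2)) := by
        intro x y p q r1 r2 s1 s2 v1 v2 e1 e2
        have : -(-x - p) + (-(-y) - q) = (x + y) + (p - q) := by abel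
        rw [this, e1, e2]
        abel
      exact e _ _ _ _ _ _ _ _ _ _ h1 h2
  · refine LinearMap.ext fun u => ?_
    have hx : ∀ u : Fin 2 → M, tauW xi tau (tauW xi tau u) = 0 := by
      intro u
      have := LinearMap.congr_fun hW.tau_tau u
      simpa using this
    simp only [Module.End.mul_apply, tauE_apply, map_neg, neg_neg, hx, LinearMap.zero_apply]
    rfl

end P176
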