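import Vale.Agent.P176.RetrDefs

/-!
# P176, module RETR0: the decomposition of `E(Λ ⊗ V_0)`
-/

namespace P176

variable (k : Type) [Field k] [CharZero k]

/-- The map `(u, u') ↦ (u, u' + T u)`. -/
private noncomputable def iMap0 :
    ((Fin 2 → Fk (PO k)) × (Fin 2 → Fk (PO k))) →ₗ[k]
      ((Fin 2 → Fk (PO k)) × (Fin 2 → Fk (PO k))) :=
  LinearMap.prod (LinearMap.fst k _ _) (LinearMap.snd k _ _ + Tt k ∘ₗ LinearMap.fst k _ _)

/-- The map `(v, v') ↦ (v, v' - T v)`. -/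
private noncomputable def rMap0 :
    ((Fin 2 → Fk (PO k)) × (Fin 2 → Fk (PO k))) →ₗ[k]
      ((Fin 2 → Fk (PO k)) × (Fin 2 → Fk (PO k))) :=
  LinearMap.prod (LinearMap.fst k _ _) (LinearMap.snd k _ _ - Tt k ∘ₗ LinearMap.fst k _ _)

omit [CharZero k] in
private theorem iMap0_apply (u : (Fin 2 → Fk (PO k)) × (Fin 2 → Fk (PO k))) :
    iMap0 k u = (u.1, u.2 + Tt k u.1) := rfl

omit [CharZero k] in
private theorem rMap0_apply (u : (Fin 2 → Fk (PO k)) × (Fin 2 → Fk (PO k))) :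
    rMap0 k u = (u.1, u.2 - Tt k u.1) := rfl

omit [CharZero k] in
private theorem tht_zero (j : ℤ) (u : Fin 2 → Fk (PO k))
    (hu : ∀ c, u c ∈ Fk.deg (Vn k 0) j) : tht k u = u := by
  funext c
  have h1 : tht k u c = zz k (u c) + u c - iot k (kap k u) c := rfl
  rw [h1, kap_deg_zero k j u hu, map_zero, zz_deg k 0 j (u c) (hu c)]
  simp

private theorem Tt_tau_zero (j : ℤ) (u : Fin 2 → Fk (PO k))
    (hu : ∀ c, u c ∈ Fk.deg (Vn k 0) j) :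
    Tt k (tauW (cr k) (ce (gE k)) u) + tauW (cr k) (ce (gE k)) (Tt k u) = u := by
  have h := congrArg (fun f => f u) (Tt_tauW k (two_ne_zero (α := k)))
  exact h.trans (tht_zero k j u hu)

omit [CharZero k] in
private theorem Tt_xi_zero (a b : Fin 2) (u : Fin 2 → Fk (PO k)) :
    Tt k (wmap (cr k a b) u) + wmap (cr k a b) (Tt k u) = thW (k := k) a b u :=
  congrArg (fun f => f u) (Tt_cr k a b)

private theorem eeGr_iff (j : ℤ) (m : (Fin 2 → Fk (PO k)) × (Fin 2 → Fk (PO k))) :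
    m ∈ (Gn k 0).ee.gr j ↔
      (∀ c, m.1 c ∈ Fk.deg (Vn k 0) j) ∧ ∀ c, m.2 c ∈ Fk.deg (Vn k 0) (j - 1) :=
  mem_eeGr _ _ _

private theorem coneGr_iff (j : ℤ) (m : (Fin 2 → Fk (PO k)) × (Fin 2 → Fk (PO k))) :
    m ∈ ((Gn k 0).tw.coneC 1).gr j ↔
      (∀ c, m.1 c ∈ Fk.deg (Vn k 0) j) ∧ ∀ c, m.2 c ∈ Fk.deg (Vn k 0) (j - 1) := by
  refine (mem_coneGr _ _ _).trans ?_
  exact and_congr (mem_twGr _ _ _) (mem_twGr _ _ _)

omit [CharZero k] in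
private theorem i_gr (j : ℤ) (m : (Fin 2 → Fk (PO k)) × (Fin 2 → Fk (PO k)))
    (hm : (∀ c, m.1 c ∈ Fk.deg (Vn k 0) j) ∧ ∀ c, m.2 c ∈ Fk.deg (Vn k 0) (j - 1)) :
    (∀ c, (iMap0 k m).1 c ∈ Fk.deg (Vn k 0) j) ∧
      ∀ c, (iMap0 k m).2 c ∈ Fk.deg (Vn k 0) (j - 1) :=
  ⟨hm.1, fun c => Submodule.add_mem _ (hm.2 c) (Tt_deg k _ j _ hm.1 c)⟩

omit [CharZero k] in
private theorem r_gr (j : ℤ) (m : (Fin 2 → Fk (PO k)) × (Fin 2 → Fk (PO k)))
    (hm : (∀ c, m.1 c ∈ Fk.deg (Vn k 0) j) ∧ ∀ c, m.2 c ∈ Fk.deg (Vn k 0) (j - 1)) :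
    (∀ c, (rMap0 k m).1 c ∈ Fk.deg (Vn k 0) j) ∧
      ∀ c, (rMap0 k m).2 c ∈ Fk.deg (Vn k 0) (j - 1) :=
  ⟨hm.1, fun c => Submodule.sub_mem _ (hm.2 c) (Tt_deg k _ j _ hm.1 c)⟩

omit [CharZero k] in
private theorem i_xi (a b : Fin 2) (m : (Fin 2 → Fk (PO k)) × (Fin 2 → Fk (PO k))) :
    iMap0 k (xiE (cr k) a b m) = xiC (fun a b => wmap (cr k a b)) a b (iMap0 k m) := by
  rw [iMap0_apply, iMap0_apply, xiE_apply, xiC_apply]
  refine Prod.ext rfl ?_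
  change -(wmap (cr k a b) m.2) - thW (k := k) a b m.1 + Tt k (wmap (cr k a b) m.1) =
    -(wmap (cr k a b) (m.2 + Tt k m.1))
  rw [← Tt_xi_zero k a b m.1, map_add]
  abel

omit [CharZero k] in
private theorem r_xi (a b : Fin 2) (m : (Fin 2 → Fk (PO k)) × (Fin 2 → Fk (PO k))) :
    rMap0 k (xiC (fun a b => wmap (cr k a b)) a b m) = xiE (cr k) a b (rMap0 k m) := by
  rw [rMap0_apply, rMap0_apply, xiE_apply, xiC_apply]
  refine Prod.ext rfl ?_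
  change -(wmap (cr k a b) m.2) - Tt k (wmap (cr k a b) m.1) =
    -(wmap (cr k a b) (m.2 - Tt k m.1)) - thW (k := k) a b m.1
  rw [← Tt_xi_zero k a b m.1, map_sub]
  abel

private theorem i_tau (j : ℤ) (m : (Fin 2 → Fk (PO k)) × (Fin 2 → Fk (PO k)))
    (hm : ∀ c, m.1 c ∈ Fk.deg (Vn k 0) j) :
    iMap0 k (tauE (cr k) (ce (gE k)) m) =
      tauC (tauW (cr k) (ce (gE k))) ((1 : k) • (1 : Module.End k (Fin 2 → Fk (PO k))))
        (iMap0 k m) := by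
  rw [iMap0_apply, iMap0_apply, tauE_apply, tauC_apply]
  refine Prod.ext rfl ?_
  change -(tauW (cr k) (ce (gE k)) m.2) + Tt k (tauW (cr k) (ce (gE k)) m.1) =
    (1 : k) • m.1 - tauW (cr k) (ce (gE k)) (m.2 + Tt k m.1)
  have h := Tt_tau_zero k j m.1 hm
  rw [← eq_sub_iff_add_eq] at h
  rw [one_smul, map_add, h]
  abel

private theorem r_tau (j : ℤ) (m : (Fin 2 → Fk (PO k)) × (Fin 2 → Fk (PO k)))
    (hm : ∀ c, m.1 c ∈ Fk.deg (Vn k 0) j) :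
    rMap0 k (tauC (tauW (cr k) (ce (gE k)))
        ((1 : k) • (1 : Module.End k (Fin 2 → Fk (PO k)))) m) =
      tauE (cr k) (ce (gE k)) (rMap0 k m) := by
  rw [rMap0_apply, rMap0_apply, tauE_apply, tauC_apply]
  refine Prod.ext rfl ?_
  change (1 : k) • m.1 - tauW (cr k) (ce (gE k)) m.2 -
      Tt k (tauW (cr k) (ce (gE k)) m.1) =
    -(tauW (cr k) (ce (gE k)) (m.2 - Tt k m.1))
  have h := Tt_tau_zero k j m.1 hm
  rw [← eq_sub_iff_add_eq] at h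
  rw [one_smul, map_sub, h]
  abel

omit [CharZero k] in
private theorem r_i (m : (Fin 2 → Fk (PO k)) × (Fin 2 → Fk (PO k))) :
    rMap0 k (iMap0 k m) = m := by
  rw [rMap0_apply, iMap0_apply]
  refine Prod.ext rfl ?_
  change m.2 + Tt k m.1 - Tt k m.1 = m.2
  exact add_sub_cancel_right _ _

/-- The decomposition for `n = 0`: here `κ = 0`, so `θ = 1`, and the map
`(u, u') ↦ (u, u' + T u)` identifies `E(Λ)` with the cone. -/
theorem retr0 :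
    ∃ (i : DG.Hom (Gn k 0).ee ((Gn k 0).tw.coneC 1)) (r : DG.Hom ((Gn k 0).tw.coneC 1) (Gn k 0).ee),
      ∀ j m, m ∈ (Gn k 0).ee.gr j → r.f (i.f m) = m :=
  ⟨⟨iMap0 k,
      fun j m hm => (coneGr_iff k j _).2 (i_gr k j m ((eeGr_iff k j m).1 hm)),
      fun _ m _ a b => i_xi k a b m,
      fun j m hm => i_tau k j m ((eeGr_iff k j m).1 hm).1⟩,
    ⟨rMap0 k,
      fun j m hm => (eeGr_iff k j _).2 (r_gr k j m ((coneGr_iff k j m).1 hm)),
      fun _ m _ a b => r_xi k a b m,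
      fun j m hm => r_tau k j m ((coneGr_iff k j m).1 hm).1⟩,
    fun _ m _ => r_i k m⟩

end P176
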