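import Vale.Agent.P176.RetrDefs

/-!
# P176, module RETR1: the decomposition of `E(Λ ⊗ V_n)`, `n > 0`
-/

namespace P176

variable (k : Type) [Field k] [CharZero k]

set_option linter.unusedSectionVars false

section retra_aux

/-- `M ⊗ W` for `M = Λ ⊗ k[x_0, x_1]`. -/
private abbrev retraW : Type := Fin 2 → Fk (PO k)

/-- `1 - ι κ / c`. -/
private noncomputable def retraP (c : k) : Module.End k (retraW k) :=
  1 - c⁻¹ • (iot k ∘ₗ kap k)

private theorem retraP_apply (c : k) (u : retraW k) :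
    retraP k c u = u - c⁻¹ • iot k (kap k u) := rfl

private theorem retra_zz (n : ℕ) (j : ℤ) (u : retraW k)
    (hu : ∀ c, u c ∈ Fk.deg (Vn k n) j) : wmap (zz k) u = (n : k) • u :=
  funext fun c => zz_deg k n j (u c) (hu c)

private theorem retra_kap_iot (n : ℕ) (j : ℤ) (y : Fk (PO k)) (hy : y ∈ Fk.deg (Vn k n) j) :
    kap k (iot k y) = ((n : k) + 2) • y := by
  rw [kap_iot, zz_deg k n j y hy, add_smul]

private theorem retra_c_ne (n : ℕ) : ((n : k) + 2) ≠ 0 := by
  have h : ((n + 2 : ℕ) : k) ≠ 0 := by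
    rw [Nat.cast_ne_zero]
    omega
  push_cast at h
  exact h

private theorem retra_kapP (n : ℕ) (j : ℤ) (u : retraW k)
    (hu : ∀ c, u c ∈ Fk.deg (Vn k (n + 1)) j) : kap k (retraP k ((n : k) + 2) u) = 0 := by
  rw [retraP_apply, map_sub, map_smul, retra_kap_iot k n j _ (kap_deg k n j u hu), smul_smul,
    inv_mul_cancel₀ (retra_c_ne k n), one_smul, sub_self]

private theorem retra_PP (n : ℕ) (j : ℤ) (u : retraW k)
    (hu : ∀ c, u c ∈ Fk.deg (Vn k (n + 1)) j) :
    retraP k ((n : k) + 2) (retraP k ((n : k) + 2) u) = retraP k ((n : k) + 2) u := by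
  rw [retraP_apply k _ (retraP k ((n : k) + 2) u), retra_kapP k n j u hu, map_zero, smul_zero,
    sub_zero]

private theorem retra_Piot (n : ℕ) (j : ℤ) (y : Fk (PO k)) (hy : y ∈ Fk.deg (Vn k n) j) :
    retraP k ((n : k) + 2) (iot k y) = 0 := by
  rw [retraP_apply, retra_kap_iot k n j y hy, map_smul, smul_smul,
    inv_mul_cancel₀ (retra_c_ne k n), one_smul, sub_self]

private theorem retra_tht (n : ℕ) (j : ℤ) (u : retraW k)
    (hu : ∀ c, u c ∈ Fk.deg (Vn k (n + 1)) j) :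
    tht k u = ((n : k) + 2) • retraP k ((n : k) + 2) u := by
  have h1 : tht k u = wmap (zz k) u + u - iot k (kap k u) := rfl
  rw [h1, retra_zz k (n + 1) j u hu, retraP_apply, smul_sub, smul_smul,
    mul_inv_cancel₀ (retra_c_ne k n), one_smul, Nat.cast_add, Nat.cast_one]
  congr 1
  rw [add_smul, add_smul, one_smul, two_smul, add_assoc]

private theorem retra_P_cr (c : k) (a b : Fin 2) (u : retraW k) :
    retraP k c (wmap (cr k a b) u) = wmap (cr k a b) (retraP k c u) := by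
  rw [retraP_apply, retraP_apply, kap_cr, iot_cr, map_sub, map_smul]

private theorem retra_P_tau (c : k) (u : retraW k) :
    retraP k c (tauW (cr k) (ce (gE k)) u) = tauW (cr k) (ce (gE k)) (retraP k c u) := by
  rw [retraP_apply, retraP_apply, kap_tau, iot_tau, map_sub, map_smul]

private theorem retra_T_cr (a b : Fin 2) (u : retraW k) :
    Tt k (wmap (cr k a b) u) = thW (k := k) a b u - wmap (cr k a b) (Tt k u) := by
  have h := congrArg (fun F : Module.End k (retraW k) => F u) (Tt_cr k a b)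
  exact eq_sub_of_add_eq h

private theorem retra_T_tau (u : retraW k) :
    Tt k (tauW (cr k) (ce (gE k)) u) = tht k u - tauW (cr k) (ce (gE k)) (Tt k u) := by
  have h := congrArg (fun F : Module.End k (retraW k) => F u)
    (Tt_tauW k (two_ne_zero (α := k)))
  exact eq_sub_of_add_eq h

private theorem retra_P_deg (n : ℕ) (j : ℤ) (u : retraW k)
    (hu : ∀ c, u c ∈ Fk.deg (Vn k (n + 1)) j) (c : k) (i : Fin 2) :
    retraP k c u i ∈ Fk.deg (Vn k (n + 1)) j := by
  rw [retraP_apply]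
  exact Submodule.sub_mem _ (hu i)
    (Submodule.smul_mem _ _ (iot_deg k n j _ (kap_deg k n j u hu) i))

/-- the map `i1` -/
private noncomputable def retraI1 (c : k) :
    (retraW k × retraW k) →ₗ[k] (retraW k × retraW k) :=
  LinearMap.prod (retraP k c ∘ₗ LinearMap.fst k _ _)
    (retraP k c ∘ₗ (LinearMap.snd k _ _ + Tt k ∘ₗ LinearMap.fst k _ _))

/-- the map `r1` -/
private noncomputable def retraR1 (c : k) :
    (retraW k × retraW k) →ₗ[k] (retraW k × retraW k) :=
  LinearMap.prod (retraP k c ∘ₗ LinearMap.fst k _ _)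
    (retraP k c ∘ₗ LinearMap.snd k _ _ - Tt k ∘ₗ retraP k c ∘ₗ LinearMap.fst k _ _)

/-- the map `i2` -/
private noncomputable def retraI2 (c : k) :
    (retraW k × retraW k) →ₗ[k] (Fk (PO k) × Fk (PO k)) :=
  LinearMap.prod (c⁻¹ • (kap k ∘ₗ LinearMap.fst k _ _))
    (c⁻¹ • (kap k ∘ₗ (LinearMap.snd k _ _ + Tt k ∘ₗ LinearMap.fst k _ _)))

/-- the map `r2` -/
private noncomputable def retraR2 :
    (Fk (PO k) × Fk (PO k)) →ₗ[k] (retraW k × retraW k) :=
  LinearMap.prod (iot k ∘ₗ LinearMap.fst k _ _)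
    (iot k ∘ₗ LinearMap.snd k _ _ - Tt k ∘ₗ iot k ∘ₗ LinearMap.fst k _ _)

private theorem retraI1_apply (c : k) (m : retraW k × retraW k) :
    retraI1 k c m = (retraP k c m.1, retraP k c (m.2 + Tt k m.1)) := rfl

private theorem retraR1_apply (c : k) (m : retraW k × retraW k) :
    retraR1 k c m = (retraP k c m.1, retraP k c m.2 - Tt k (retraP k c m.1)) := rfl

private theorem retraI2_apply (c : k) (m : retraW k × retraW k) :
    retraI2 k c m = (c⁻¹ • kap k m.1, c⁻¹ • kap k (m.2 + Tt k m.1)) := rfl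

private theorem retraR2_apply (m : Fk (PO k) × Fk (PO k)) :
    retraR2 k m = (iot k m.1, iot k m.2 - Tt k (iot k m.1)) := rfl

private theorem retra_sum (n : ℕ) (j : ℤ) (u u' : retraW k)
    (hu : ∀ c, u c ∈ Fk.deg (Vn k (n + 1)) j)
    (hu' : ∀ c, u' c ∈ Fk.deg (Vn k (n + 1)) (j - 1)) :
    retraR1 k ((n : k) + 2) (retraI1 k ((n : k) + 2) (u, u')) +
      retraR2 k (retraI2 k ((n : k) + 2) (u, u')) = (u, u') := by
  have hT : ∀ c, (u' + Tt k u) c ∈ Fk.deg (Vn k (n + 1)) (j - 1) := fun c =>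
    Submodule.add_mem _ (hu' c) (Tt_deg k _ j u hu c)
  have e1 := retra_PP k n j u hu
  have e2 := retra_PP k n (j - 1) (u' + Tt k u) hT
  rw [retraI1_apply, retraI2_apply, retraR1_apply, retraR2_apply]
  refine Prod.ext ?_ ?_
  · change retraP k ((n : k) + 2) (retraP k ((n : k) + 2) u) +
      iot k (((n : k) + 2)⁻¹ • kap k u) = u
    rw [e1, retraP_apply, map_smul, sub_add_cancel]
  · change retraP k ((n : k) + 2) (retraP k ((n : k) + 2) (u' + Tt k u)) -
      Tt k (retraP k ((n : k) + 2) (retraP k ((n : k) + 2) u)) +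
      (iot k (((n : k) + 2)⁻¹ • kap k (u' + Tt k u)) - Tt k (iot k (((n : k) + 2)⁻¹ • kap k u)))
        = u'
    rw [e1, e2]
    have h1 : iot k (((n : k) + 2)⁻¹ • kap k (u' + Tt k u)) =
        (u' + Tt k u) - retraP k ((n : k) + 2) (u' + Tt k u) := by
      rw [retraP_apply, map_smul, sub_sub_cancel]
    have h2 : iot k (((n : k) + 2)⁻¹ • kap k u) = u - retraP k ((n : k) + 2) u := by
      rw [retraP_apply, map_smul, sub_sub_cancel]
    rw [h1, h2, map_sub]
    abel

private theorem retra_i2r2 (n : ℕ) (j : ℤ) (y y' : Fk (PO k))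
    (hy : y ∈ Fk.deg (Vn k n) j) (hy' : y' ∈ Fk.deg (Vn k n) (j - 1)) :
    retraI2 k ((n : k) + 2) (retraR2 k (y, y')) = (y, y') := by
  rw [retraR2_apply, retraI2_apply]
  refine Prod.ext ?_ ?_
  · change ((n : k) + 2)⁻¹ • kap k (iot k y) = y
    rw [retra_kap_iot k n j y hy, smul_smul, inv_mul_cancel₀ (retra_c_ne k n), one_smul]
  · change ((n : k) + 2)⁻¹ • kap k (iot k y' - Tt k (iot k y) + Tt k (iot k y)) = y'
    rw [sub_add_cancel, retra_kap_iot k n (j - 1) y' hy', smul_smul,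
      inv_mul_cancel₀ (retra_c_ne k n), one_smul]

/-- the differential of `M ⊗ W` -/
private noncomputable abbrev retraD : Module.End k (retraW k) := tauW (cr k) (ce (gE k))

private theorem retra_i1_xi (c : k) (a b : Fin 2) (m : retraW k × retraW k) :
    retraI1 k c (xiE (cr k) a b m) = xiC (fun a b => wmap (cr k a b)) a b (retraI1 k c m) := by
  rw [xiE_apply, xiC_apply, retraI1_apply, retraI1_apply]
  refine Prod.ext ?_ ?_
  · exact retra_P_cr k _ a b m.1
  · change retraP k c ((-(wmap (cr k a b) m.2) - thW (k := k) a b m.1) +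
        Tt k (wmap (cr k a b) m.1)) = -(wmap (cr k a b) (retraP k c
          (m.2 + Tt k m.1)))
    have h : (-(wmap (cr k a b) m.2) - thW (k := k) a b m.1) +
        (thW (k := k) a b m.1 - wmap (cr k a b) (Tt k m.1)) =
        -(wmap (cr k a b) (m.2 + Tt k m.1)) := by
      rw [map_add]
      abel
    rw [retra_T_cr, h, map_neg, retra_P_cr]

private theorem retra_i1_tau (n : ℕ) (j : ℤ) (m : retraW k × retraW k)
    (h1 : ∀ c, m.1 c ∈ Fk.deg (Vn k (n + 1)) j) :
    retraI1 k ((n : k) + 2) (tauE (cr k) (ce (gE k)) m) =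
      tauC (retraD k) (((n : k) + 2) • 1) (retraI1 k ((n : k) + 2) m) := by
  rw [tauE_apply, tauC_apply, retraI1_apply, retraI1_apply]
  refine Prod.ext ?_ ?_
  · exact retra_P_tau k _ m.1
  · change retraP k ((n : k) + 2) (-(retraD k m.2) +
        Tt k (retraD k m.1)) = ((n : k) + 2) • retraP k ((n : k) + 2) m.1 -
          retraD k (retraP k ((n : k) + 2) (m.2 + Tt k m.1))
    rw [retra_T_tau, retra_tht k n j m.1 h1, map_add, map_sub, map_neg, map_smul,
      retra_PP k n j m.1 h1, retra_P_tau, retra_P_tau, map_add, map_add]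
    abel

private theorem retra_r1_xi (c : k) (a b : Fin 2) (m : retraW k × retraW k) :
    retraR1 k c (xiC (fun a b => wmap (cr k a b)) a b m) = xiE (cr k) a b (retraR1 k c m) := by
  rw [xiE_apply, xiC_apply, retraR1_apply, retraR1_apply]
  refine Prod.ext ?_ ?_
  · exact retra_P_cr k _ a b m.1
  · change retraP k c (-(wmap (cr k a b) m.2)) -
        Tt k (retraP k c (wmap (cr k a b) m.1)) =
        -(wmap (cr k a b) (retraP k c m.2 - Tt k (retraP k c m.1))) -
          thW (k := k) a b (retraP k c m.1)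
    rw [retra_P_cr, retra_T_cr, map_neg, retra_P_cr, map_sub]
    abel

private theorem retra_r1_tau (n : ℕ) (j : ℤ) (m : retraW k × retraW k)
    (h1 : ∀ c, m.1 c ∈ Fk.deg (Vn k (n + 1)) j) :
    retraR1 k ((n : k) + 2) (tauC (retraD k) (((n : k) + 2) • 1) m) =
      tauE (cr k) (ce (gE k)) (retraR1 k ((n : k) + 2) m) := by
  rw [tauE_apply, tauC_apply, retraR1_apply, retraR1_apply]
  refine Prod.ext ?_ ?_
  · exact retra_P_tau k _ m.1
  · change retraP k ((n : k) + 2) (((n : k) + 2) • m.1 - retraD k m.2) -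
        Tt k (retraP k ((n : k) + 2) (retraD k m.1)) =
        -(retraD k (retraP k ((n : k) + 2) m.2 -
          Tt k (retraP k ((n : k) + 2) m.1)))
    rw [retra_P_tau, retra_T_tau,
        retra_tht k n j _ (fun c => retra_P_deg k n j m.1 h1 ((n : k) + 2) c),
        retra_PP k n j m.1 h1, map_sub, map_smul, retra_P_tau, map_sub]
    abel

private theorem retra_i2_xi (c : k) (a b : Fin 2) (m : retraW k × retraW k) :
    retraI2 k c (xiE (cr k) a b m) = xiC (cr k) a b (retraI2 k c m) := by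
  rw [xiE_apply, xiC_apply, retraI2_apply, retraI2_apply]
  refine Prod.ext ?_ ?_
  · change c⁻¹ • kap k (wmap (cr k a b) m.1) = cr k a b (c⁻¹ • kap k m.1)
    rw [kap_cr, map_smul]
  · change c⁻¹ • kap k ((-(wmap (cr k a b) m.2) - thW (k := k) a b m.1) +
        Tt k (wmap (cr k a b) m.1)) = -(cr k a b (c⁻¹ • kap k
          (m.2 + Tt k m.1)))
    have h : (-(wmap (cr k a b) m.2) - thW (k := k) a b m.1) +
        (thW (k := k) a b m.1 - wmap (cr k a b) (Tt k m.1)) =
        -(wmap (cr k a b) (m.2 + Tt k m.1)) := by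
      rw [map_add]
      abel
    rw [retra_T_cr, h, map_smul, ← kap_cr, map_neg, smul_neg]

private theorem retra_i2_tau (n : ℕ) (j : ℤ) (m : retraW k × retraW k)
    (h1 : ∀ c, m.1 c ∈ Fk.deg (Vn k (n + 1)) j) :
    retraI2 k ((n : k) + 2) (tauE (cr k) (ce (gE k)) m) =
      tauC (ce (gE k)) ((0 : k) • 1) (retraI2 k ((n : k) + 2) m) := by
  rw [tauE_apply, tauC_apply, retraI2_apply, retraI2_apply]
  refine Prod.ext ?_ ?_
  · change ((n : k) + 2)⁻¹ • kap k (retraD k m.1) =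
        ce (gE k) (((n : k) + 2)⁻¹ • kap k m.1)
    rw [kap_tau, map_smul]
  · change ((n : k) + 2)⁻¹ • kap k (-(retraD k m.2) +
        Tt k (retraD k m.1)) = (0 : k) • (((n : k) + 2)⁻¹ • kap k m.1) -
          ce (gE k) (((n : k) + 2)⁻¹ • kap k (m.2 + Tt k m.1))
    rw [retra_T_tau, retra_tht k n j m.1 h1, zero_smul, zero_sub, map_smul, ← kap_tau,
        ← smul_neg]
    congr 1
    rw [map_add, map_sub, map_neg, map_smul, retra_kapP k n j m.1 h1, smul_zero, map_add,
      map_add]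
    abel

private theorem retra_r2_xi (a b : Fin 2) (m : Fk (PO k) × Fk (PO k)) :
    retraR2 k (xiC (cr k) a b m) = xiE (cr k) a b (retraR2 k m) := by
  rw [xiE_apply, xiC_apply, retraR2_apply, retraR2_apply]
  refine Prod.ext ?_ ?_
  · exact iot_cr k a b m.1
  · change iot k (-(cr k a b m.2)) - Tt k (iot k (cr k a b m.1)) =
        -(wmap (cr k a b) (iot k m.2 - Tt k (iot k m.1))) - thW (k := k) a b (iot k m.1)
    rw [map_neg, iot_cr, iot_cr, retra_T_cr, map_sub]
    abel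

private theorem retra_r2_tau (n : ℕ) (j : ℤ) (m : Fk (PO k) × Fk (PO k))
    (h1 : m.1 ∈ Fk.deg (Vn k n) j) :
    retraR2 k (tauC (ce (gE k)) ((0 : k) • 1) m) = tauE (cr k) (ce (gE k)) (retraR2 k m) := by
  rw [tauE_apply, tauC_apply, retraR2_apply, retraR2_apply]
  refine Prod.ext ?_ ?_
  · exact iot_tau k m.1
  · change iot k ((0 : k) • m.1 - ce (gE k) m.2) - Tt k (iot k (ce (gE k) m.1)) =
        -(retraD k (iot k m.2 - Tt k (iot k m.1)))
    rw [zero_smul, zero_sub, map_neg, iot_tau, iot_tau, retra_T_tau,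
        retra_tht k n j _ (fun c => iot_deg k n j m.1 h1 c), retra_Piot k n j _ h1, smul_zero,
        map_sub]
    abel

private theorem retra_ee_gr (n : ℕ) (j : ℤ) (m : retraW k × retraW k) :
    m ∈ eeGr (Fk.deg (Vn k n)) j ↔
      (∀ c, m.1 c ∈ Fk.deg (Vn k n) j) ∧ (∀ c, m.2 c ∈ Fk.deg (Vn k n) (j - 1)) :=
  mem_eeGr (Fk.deg (Vn k n)) j m

private theorem retra_cw_gr (n : ℕ) (j : ℤ) (m : retraW k × retraW k) :
    m ∈ coneGr (twGr (Fk.deg (Vn k n))) j ↔
      (∀ c, m.1 c ∈ Fk.deg (Vn k n) j) ∧ (∀ c, m.2 c ∈ Fk.deg (Vn k n) (j - 1)) := by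
  rw [mem_coneGr, mem_twGr, mem_twGr]

private theorem retra_i1_gr (n : ℕ) (c : k) (j : ℤ) (m : retraW k × retraW k)
    (hm : m ∈ eeGr (Fk.deg (Vn k (n + 1))) j) :
    retraI1 k c m ∈ coneGr (twGr (Fk.deg (Vn k (n + 1)))) j := by
  obtain ⟨h1, h2⟩ := (retra_ee_gr k _ j m).1 hm
  refine (retra_cw_gr k _ j _).2 ⟨fun i => retra_P_deg k n j _ h1 _ i, fun i => ?_⟩
  exact retra_P_deg k n (j - 1) _ (fun c => Submodule.add_mem _ (h2 c)
      (Tt_deg k _ j _ h1 c)) _ i

private theorem retra_r1_gr (n : ℕ) (c : k) (j : ℤ) (m : retraW k × retraW k)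
    (hm : m ∈ coneGr (twGr (Fk.deg (Vn k (n + 1)))) j) :
    retraR1 k c m ∈ eeGr (Fk.deg (Vn k (n + 1))) j := by
  obtain ⟨h1, h2⟩ := (retra_cw_gr k _ j m).1 hm
  exact (retra_ee_gr k _ j _).2 ⟨fun i => retra_P_deg k n j _ h1 _ i,
      fun i => Submodule.sub_mem _ (retra_P_deg k n (j - 1) _ h2 _ i)
        (Tt_deg k _ j _ (fun c => retra_P_deg k n j _ h1 _ c) i)⟩

private theorem retra_i2_gr (n : ℕ) (c : k) (j : ℤ) (m : retraW k × retraW k)
    (hm : m ∈ eeGr (Fk.deg (Vn k (n + 1))) j) :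
    retraI2 k c m ∈ coneGr (Fk.deg (Vn k n)) j := by
  obtain ⟨h1, h2⟩ := (retra_ee_gr k _ j m).1 hm
  exact (mem_coneGr _ j _).2 ⟨Submodule.smul_mem _ _ (kap_deg k n j _ h1),
      Submodule.smul_mem _ _ (kap_deg k n (j - 1) _ (fun c => Submodule.add_mem _ (h2 c)
      (Tt_deg k _ j _ h1 c)))⟩

private theorem retra_r2_gr (n : ℕ) (j : ℤ) (m : Fk (PO k) × Fk (PO k))
    (hm : m ∈ coneGr (Fk.deg (Vn k n)) j) :
    retraR2 k m ∈ eeGr (Fk.deg (Vn k (n + 1))) j := by
  obtain ⟨h1, h2⟩ := (mem_coneGr _ j m).1 hm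
  exact (retra_ee_gr k _ j _).2 ⟨fun i => iot_deg k n j _ h1 i,
      fun i => Submodule.sub_mem _ (iot_deg k n (j - 1) _ h2 i)
        (Tt_deg k _ j _ (fun c => iot_deg k n j _ h1 c) i)⟩

end retra_aux

/-- The decomposition for `n + 1`. With `c = n + 2`, `u'' = u' + T u`, `π = ι κ / c`:
`i1 (u, u') = (u - π u, u'' - π u'')`, `i2 (u, u') = (κ u / c, κ u'' / c)`,
`r1 (v, v') = (v - π v, (v' - π v') - T (v - π v))`, `r2 (y, y') = (ι y, ι y' - T ι y)`. -/
theorem retr (n : ℕ) :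
    ∃ (i1 : DG.Hom (Gn k (n + 1)).ee ((Gn k (n + 1)).tw.coneC ((n : k) + 2)))
      (r1 : DG.Hom ((Gn k (n + 1)).tw.coneC ((n : k) + 2)) (Gn k (n + 1)).ee)
      (i2 : DG.Hom (Gn k (n + 1)).ee ((Gn k n).coneC 0))
      (r2 : DG.Hom ((Gn k n).coneC 0) (Gn k (n + 1)).ee),
      (∀ j m, m ∈ (Gn k (n + 1)).ee.gr j → r1.f (i1.f m) + r2.f (i2.f m) = m) ∧
      (∀ j m, m ∈ ((Gn k n).coneC 0).gr j → i2.f (r2.f m) = m) := by
  refine ⟨⟨retraI1 k ((n : k) + 2), fun j m hm => retra_i1_gr k n _ j m hm,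
      fun j m hm a b => retra_i1_xi k _ a b m, fun j m hm => ?_⟩,
    ⟨retraR1 k ((n : k) + 2), fun j m hm => retra_r1_gr k n _ j m hm,
      fun j m hm a b => retra_r1_xi k _ a b m, fun j m hm => ?_⟩,
    ⟨retraI2 k ((n : k) + 2), fun j m hm => retra_i2_gr k n _ j m hm,
      fun j m hm a b => retra_i2_xi k _ a b m, fun j m hm => ?_⟩,
    ⟨retraR2 k, fun j m hm => retra_r2_gr k n j m hm,
      fun j m hm a b => retra_r2_xi k a b m, fun j m hm => ?_⟩, fun j m hm => ?_,
      fun j m hm => ?_⟩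
  · exact retra_i1_tau k n j m ((retra_ee_gr k _ j m).1 hm).1
  · exact retra_r1_tau k n j m ((retra_cw_gr k _ j m).1 hm).1
  · exact retra_i2_tau k n j m ((retra_ee_gr k _ j m).1 hm).1
  · exact retra_r2_tau k n j m ((mem_coneGr (Fk.deg (Vn k n)) j m).1 hm).1
  · exact retra_sum k n j m.1 m.2 ((retra_ee_gr k _ j m).1 hm).1 ((retra_ee_gr k _ j m).1 hm).2
  · exact retra_i2r2 k n j m.1 m.2 ((mem_coneGr (Fk.deg (Vn k n)) j m).1 hm).1
      ((mem_coneGr (Fk.deg (Vn k n)) j m).1 hm).2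

end P176
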