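import Vale.Agent.P176.LFree
import Vale.Agent.P176.Theta

/-!
# P176: the modules `Λ ⊗ V_n`
-/

namespace P176

variable (k : Type) [Field k] [CharZero k]

/-- The graded `B`-module `Λ ⊗ V_n`. -/
noncomputable def Gn (n : ℕ) : DG k :=
  fock (two_ne_zero (α := k)) (gE k) (isGl_gE k) (Vn k n) (fun a b f hf => gE_mem k a b n f hf)

/-- `Λ ⊗ V_n` is `Λ`-free. -/
noncomputable def Ln (n : ℕ) : LFree (Gn k n) :=
  lfreeFock (two_ne_zero (α := k)) (gE k) (isGl_gE k) (Vn k n)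
    (fun a b f hf => gE_mem k a b n f hf)

theorem Gn_gr5 (n : ℕ) : (Gn k n).gr 5 = ⊥ := Fk.deg_big _ _ (by norm_num)

end P176
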