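import Vale.Agent.P176.SeqDefs

/-!
# P176, module SEQ1: exactness of `Q`, and the sequence of `F`, `Q`, `Z`
-/

namespace P176

variable {k : Type} [Field k]

/-- The functor `Q` is exact. -/
theorem GExa.Q_exa {R S T : GRep k} {f : GRep.Hom R S} {g : GRep.Hom S T} (h : GExa f g)
    (hR : R.e 0 = 0) (hS : S.e 0 = 0) (hT : T.e 0 = 0) :
    Function.Injective (f.Q hR hS).f ∧ Function.Surjective (g.Q hS hT).f ∧
      ∀ m, (g.Q hS hT).f m = 0 ↔ ∃ x, (f.Q hR hS).f x = m := by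
  refine ⟨?_, ?_, ?_⟩
  · rintro ⟨x0, x1, x2⟩ ⟨y0, y1, y2⟩ hxy
    have e0 : f.f x0 = f.f y0 := congrArg Prod.fst hxy
    have e1 : (fun c => f.f (x1 c)) = fun c => f.f (y1 c) := congrArg (fun z => z.2.1) hxy
    have e2 : (fun c => f.f (x2 c)) = fun c => f.f (y2 c) := congrArg (fun z => z.2.2) hxy
    refine Prod.ext (h.inj e0) (Prod.ext (funext fun c => h.inj ?_) (funext fun c => h.inj ?_))
    · exact congrFun e1 c
    · exact congrFun e2 c
  · rintro ⟨y0, y1, y2⟩
    obtain ⟨x0, hx0⟩ := h.surj y0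
    choose x1 hx1 using fun c => h.surj (y1 c)
    choose x2 hx2 using fun c => h.surj (y2 c)
    exact ⟨(x0, x1, x2), Prod.ext hx0 (Prod.ext (funext hx1) (funext hx2))⟩
  · rintro ⟨m0, m1, m2⟩
    constructor
    · intro hm
      have e0 : g.f m0 = 0 := congrArg Prod.fst hm
      have e1 : (fun c => g.f (m1 c)) = fun _ => 0 := congrArg (fun z => z.2.1) hm
      have e2 : (fun c => g.f (m2 c)) = fun _ => 0 := congrArg (fun z => z.2.2) hm
      obtain ⟨x0, hx0⟩ := (h.exact m0).1 e0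
      choose x1 hx1 using fun c => (h.exact (m1 c)).1 (congrFun e1 c)
      choose x2 hx2 using fun c => (h.exact (m2 c)).1 (congrFun e2 c)
      exact ⟨(x0, x1, x2), Prod.ext hx0 (Prod.ext (funext hx1) (funext hx2))⟩
    · rintro ⟨⟨x0, x1, x2⟩, hx⟩
      have e0 : f.f x0 = m0 := congrArg Prod.fst hx
      have e1 : (fun c => f.f (x1 c)) = m1 := congrArg (fun z => z.2.1) hx
      have e2 : (fun c => f.f (x2 c)) = m2 := congrArg (fun z => z.2.2) hx
      refine Prod.ext ((h.exact m0).2 ⟨x0, e0⟩) (Prod.ext (funext fun c => ?_)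
        (funext fun c => ?_))
      · exact (h.exact (m1 c)).2 ⟨x1 c, congrFun e1 c⟩
      · exact (h.exact (m2 c)).2 ⟨x2 c, congrFun e2 c⟩

/-- The sequence `0 → Z(F(N)) → Q(N) → Z(N) → 0`. -/
theorem fqz (N : GRep k) (h0 : N.e 0 = 0) :
    ∃ (f : Rep.Hom (N.F h0).Z (N.Q h0)) (g : Rep.Hom (N.Q h0) N.Z),
      Function.Injective f.f ∧ Function.Surjective g.f ∧ ∀ m, g.f m = 0 ↔ ∃ x, f.f x = m := by
  refine ⟨⟨LinearMap.inr k N.M ((Fin 2 → N.M) × (Fin 2 → N.M)), ?_⟩,
    ⟨LinearMap.fst k N.M ((Fin 2 → N.M) × (Fin 2 → N.M)), ?_⟩, ?_, ?_, ?_⟩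
  · intro g m
    cases g with
    | e j => exact Prod.ext (map_zero (N.e j)).symm rfl
    | xi a b => exact Prod.ext (map_zero (N.xi a b)).symm rfl
    | tau => exact Prod.ext (map_zero N.tau).symm rfl
    | al c => exact Prod.ext rfl (Prod.ext (Pi.single_zero c).symm rfl)
    | be c => exact Prod.ext rfl (Prod.ext rfl (Pi.single_zero c).symm)
  · intro g m
    cases g with
    | e j => rfl
    | xi a b => rfl
    | tau => rfl
    | al c => rfl
    | be c => rfl
  · exact fun x y hxy => congrArg Prod.snd hxy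
  · exact fun y => ⟨(y, 0), rfl⟩
  · intro m
    constructor
    · intro hm
      exact ⟨m.2, Prod.ext (Eq.symm hm) rfl⟩
    · rintro ⟨x, rfl⟩
      rfl

end P176
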