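import Vale.Agent.P176.SeqDefs

/-!
# P176, module SEQ2: sequences of windows of cones
-/

namespace P176

variable {k : Type} [Field k]

/-- the sign `(-1) ^ i` -/
private def sq2 (k : Type) [Field k] (i : Fin 6) : k := (-1) ^ (i : ℕ)

private theorem sq2_mul (i : Fin 6) : sq2 k i * sq2 k i = 1 := by
  unfold sq2
  rw [← mul_pow]
  simp

private theorem sq2_pred (i : Fin 6) (hi : i ≠ 0) : sq2 k i = -sq2 k (i - 1) := by
  unfold sq2
  fin_cases i <;> first | exact absurd rfl hi | (simp <;> norm_num)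

/-- the inclusion `v ↦ (i ↦ (0, (-1) ^ i v i))` -/
private def sqF (G : DG k) (c : k) (s : ℕ) : GRep.Hom (G.win (s + 1)) ((G.coneC c).win s) where
  f :=
    { toFun := fun v => (G.coneC c).wmk s
        (fun i => G.cinr c (sq2 k i • G.wval (s + 1) v i)) (fun i =>
          G.cinr_mem c _ _ (Submodule.smul_mem _ _ (by
            have h := G.wval_mem (s + 1) v i
            have e : (((i : ℕ) : ℤ) - ((s + 1 : ℕ) : ℤ)) = ((i : ℕ) : ℤ) - (s : ℤ) - 1 := by
              push_cast; ring
            rwa [e] at h)))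
      map_add' := fun v w => by
        refine DG.wval_inj _ _ (funext fun i => ?_)
        show G.cinr c (sq2 k i • G.wval (s + 1) (v + w) i) =
          G.cinr c (sq2 k i • G.wval (s + 1) v i) + G.cinr c (sq2 k i • G.wval (s + 1) w i)
        rw [map_add, Pi.add_apply, smul_add, map_add]
      map_smul' := fun r v => by
        refine DG.wval_inj _ _ (funext fun i => ?_)
        show G.cinr c (sq2 k i • G.wval (s + 1) (r • v) i) =
          r • G.cinr c (sq2 k i • G.wval (s + 1) v i)
        rw [map_smul (G.wval (s + 1)), Pi.smul_apply, smul_comm, map_smul (G.cinr c)] }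
  map_e j v := by
    refine DG.wval_inj _ _ (funext fun i => ?_)
    show G.cinr c (sq2 k i • G.wval (s + 1) ((G.win (s + 1)).e j v) i) =
      if (i : ℕ) = j then G.cinr c (sq2 k i • G.wval (s + 1) v i) else 0
    rw [DG.wval_e]
    split_ifs with h
    · rfl
    · rw [smul_zero, map_zero]
  map_xi a b v := by
    refine DG.wval_inj _ _ (funext fun i => ?_)
    show G.cinr c (sq2 k i • G.wval (s + 1) ((G.win (s + 1)).xi a b v) i) =
      if i = 0 then 0 else (G.coneC c).xi a b (G.cinr c (sq2 k (i - 1) • G.wval (s + 1) v (i - 1)))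
    rw [DG.wval_xi]
    split_ifs with h
    · rw [smul_zero, map_zero]
    · refine G.cone_ext c ?_ ?_
      · rw [DG.cfst_xi, DG.cfst_cinr, DG.cfst_cinr, map_zero]
      · rw [DG.csnd_xi, DG.csnd_cinr, DG.csnd_cinr, map_smul, sq2_pred i h, neg_smul]
  map_tau v := by
    refine DG.wval_inj _ _ (funext fun i => ?_)
    show G.cinr c (sq2 k i • G.wval (s + 1) ((G.win (s + 1)).tau v) i) =
      if i = 0 then 0 else (G.coneC c).tau (G.cinr c (sq2 k (i - 1) • G.wval (s + 1) v (i - 1)))
    rw [DG.wval_tau]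
    split_ifs with h
    · rw [smul_zero, map_zero]
    · refine G.cone_ext c ?_ ?_
      · rw [DG.cfst_tau, DG.cfst_cinr, DG.cfst_cinr, map_zero]
      · rw [DG.csnd_tau, DG.csnd_cinr, DG.csnd_cinr, DG.cfst_cinr, smul_zero, zero_sub, map_smul,
          sq2_pred i h, neg_smul]

private theorem sqF_wval (G : DG k) (c : k) (s : ℕ) (v : (G.win (s + 1)).M) (i : Fin 6) :
    (G.coneC c).wval s ((sqF G c s).f v) i = G.cinr c (sq2 k i • G.wval (s + 1) v i) := rfl

/-- the projection `w ↦ (i ↦ (w i).1)` -/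
private def sqG (G : DG k) (c : k) (s : ℕ) : GRep.Hom ((G.coneC c).win s) (G.win s) where
  f :=
    { toFun := fun w => G.wmk s (fun i => G.cfst c ((G.coneC c).wval s w i)) (fun i =>
        ((G.mem_coneC_gr c _ _).1 ((G.coneC c).wval_mem s w i)).1)
      map_add' := fun v w => by
        refine DG.wval_inj _ _ (funext fun i => ?_)
        show G.cfst c ((G.coneC c).wval s (v + w) i) =
          G.cfst c ((G.coneC c).wval s v i) + G.cfst c ((G.coneC c).wval s w i)
        rw [map_add, Pi.add_apply, map_add]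
      map_smul' := fun r v => by
        refine DG.wval_inj _ _ (funext fun i => ?_)
        show G.cfst c ((G.coneC c).wval s (r • v) i) = r • G.cfst c ((G.coneC c).wval s v i)
        rw [map_smul, Pi.smul_apply, map_smul] }
  map_e j w := by
    refine DG.wval_inj _ _ (funext fun i => ?_)
    show G.cfst c ((G.coneC c).wval s (((G.coneC c).win s).e j w) i) =
      if (i : ℕ) = j then G.cfst c ((G.coneC c).wval s w i) else 0
    rw [DG.wval_e]
    split_ifs with h
    · rfl
    · rw [map_zero]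
  map_xi a b w := by
    refine DG.wval_inj _ _ (funext fun i => ?_)
    show G.cfst c ((G.coneC c).wval s (((G.coneC c).win s).xi a b w) i) =
      if i = 0 then 0 else G.xi a b (G.cfst c ((G.coneC c).wval s w (i - 1)))
    rw [DG.wval_xi]
    split_ifs with h
    · rw [map_zero]
    · rw [DG.cfst_xi]
  map_tau w := by
    refine DG.wval_inj _ _ (funext fun i => ?_)
    show G.cfst c ((G.coneC c).wval s (((G.coneC c).win s).tau w) i) =
      if i = 0 then 0 else G.tau (G.cfst c ((G.coneC c).wval s w (i - 1)))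
    rw [DG.wval_tau]
    split_ifs with h
    · rw [map_zero]
    · rw [DG.cfst_tau]

private theorem sqG_wval (G : DG k) (c : k) (s : ℕ) (w : ((G.coneC c).win s).M) (i : Fin 6) :
    G.wval s ((sqG G c s).f w) i = G.cfst c ((G.coneC c).wval s w i) := rfl

/-- The sequence `0 → win (s + 1) G → win s (cone G) → win s G → 0`, the first map being
`v ↦ (i ↦ (0, (-1) ^ i v i))`. -/
theorem win_seq (G : DG k) (c : k) (s : ℕ) :
    ∃ (f : GRep.Hom (G.win (s + 1)) ((G.coneC c).win s))
      (g : GRep.Hom ((G.coneC c).win s) (G.win s)), GExa f g := by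
  refine ⟨sqF G c s, sqG G c s, ?_, ?_, ?_⟩
  · intro v w hvw
    refine DG.wval_inj _ _ (funext fun i => ?_)
    have h1 : (G.coneC c).wval s ((sqF G c s).f v) i = (G.coneC c).wval s ((sqF G c s).f w) i := by
      rw [hvw]
    rw [sqF_wval, sqF_wval] at h1
    have h2 := congrArg (G.csnd c) h1
    rw [DG.csnd_cinr, DG.csnd_cinr] at h2
    have h3 := congrArg (fun m => sq2 k i • m) h2
    simp only [smul_smul, sq2_mul, one_smul] at h3
    exact h3
  · intro v
    refine ⟨(G.coneC c).wmk s (fun i => G.cinl c (G.wval s v i)) (fun i =>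
      G.cinl_mem c _ _ (G.wval_mem s v i)), ?_⟩
    refine DG.wval_inj _ _ (funext fun i => ?_)
    rw [sqG_wval, DG.wval_wmk, DG.cfst_cinl]
  · intro w
    constructor
    · intro hw
      refine ⟨G.wmk (s + 1) (fun i => sq2 k i • G.csnd c ((G.coneC c).wval s w i)) (fun i => ?_), ?_⟩
      · have h := ((G.mem_coneC_gr c _ _).1 ((G.coneC c).wval_mem s w i)).2
        have e : (((i : ℕ) : ℤ) - ((s + 1 : ℕ) : ℤ)) = ((i : ℕ) : ℤ) - (s : ℤ) - 1 := by
          push_cast; ring
        rw [e]
        exact Submodule.smul_mem _ _ h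
      · refine DG.wval_inj _ _ (funext fun i => ?_)
        rw [sqF_wval, DG.wval_wmk, smul_smul, sq2_mul, one_smul]
        refine G.cone_ext c ?_ ?_
        · rw [DG.cfst_cinr]
          have h1 : G.wval s ((sqG G c s).f w) i = 0 := by
            rw [hw, map_zero]; rfl
          rw [sqG_wval] at h1
          exact h1.symm
        · rw [DG.csnd_cinr]
    · rintro ⟨v, rfl⟩
      refine DG.wval_inj _ _ (funext fun i => ?_)
      rw [sqG_wval, sqF_wval, DG.cfst_cinr, map_zero]
      rfl

/-- the projection `w ↦ (i ↦ (-1) ^ i (w i).2)` for the cone of `0` -/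
private def sqR (G : DG k) : GRep.Hom ((G.coneC 0).win 0) (G.win 1) where
  f :=
    { toFun := fun w => G.wmk 1 (fun i => sq2 k i • G.csnd 0 ((G.coneC 0).wval 0 w i)) (fun i => by
        have h := ((G.mem_coneC_gr 0 _ _).1 ((G.coneC 0).wval_mem 0 w i)).2
        have e : (((i : ℕ) : ℤ) - ((1 : ℕ) : ℤ)) = ((i : ℕ) : ℤ) - ((0 : ℕ) : ℤ) - 1 := by
          push_cast; ring
        rw [e]
        exact Submodule.smul_mem _ _ h)
      map_add' := fun v w => by
        refine DG.wval_inj _ _ (funext fun i => ?_)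
        show sq2 k i • G.csnd 0 ((G.coneC 0).wval 0 (v + w) i) =
          sq2 k i • G.csnd 0 ((G.coneC 0).wval 0 v i) +
            sq2 k i • G.csnd 0 ((G.coneC 0).wval 0 w i)
        rw [map_add, Pi.add_apply, map_add, smul_add]
      map_smul' := fun r v => by
        refine DG.wval_inj _ _ (funext fun i => ?_)
        show sq2 k i • G.csnd 0 ((G.coneC 0).wval 0 (r • v) i) =
          r • sq2 k i • G.csnd 0 ((G.coneC 0).wval 0 v i)
        rw [map_smul, Pi.smul_apply, map_smul, smul_comm] }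
  map_e j w := by
    refine DG.wval_inj _ _ (funext fun i => ?_)
    show sq2 k i • G.csnd 0 ((G.coneC 0).wval 0 (((G.coneC 0).win 0).e j w) i) =
      if (i : ℕ) = j then sq2 k i • G.csnd 0 ((G.coneC 0).wval 0 w i) else 0
    rw [DG.wval_e]
    split_ifs with h
    · rfl
    · rw [map_zero, smul_zero]
  map_xi a b w := by
    refine DG.wval_inj _ _ (funext fun i => ?_)
    show sq2 k i • G.csnd 0 ((G.coneC 0).wval 0 (((G.coneC 0).win 0).xi a b w) i) =
      if i = 0 then 0 else G.xi a b (sq2 k (i - 1) • G.csnd 0 ((G.coneC 0).wval 0 w (i - 1)))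
    rw [DG.wval_xi]
    split_ifs with h
    · rw [map_zero, smul_zero]
    · rw [DG.csnd_xi, sq2_pred i h, neg_smul, smul_neg, neg_neg, map_smul]
  map_tau w := by
    refine DG.wval_inj _ _ (funext fun i => ?_)
    show sq2 k i • G.csnd 0 ((G.coneC 0).wval 0 (((G.coneC 0).win 0).tau w) i) =
      if i = 0 then 0 else G.tau (sq2 k (i - 1) • G.csnd 0 ((G.coneC 0).wval 0 w (i - 1)))
    rw [DG.wval_tau]
    split_ifs with h
    · rw [map_zero, smul_zero]
    · rw [DG.csnd_tau, zero_smul, zero_sub, sq2_pred i h, neg_smul, smul_neg, neg_neg, map_smul]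

private theorem sqR_wval (G : DG k) (w : ((G.coneC 0).win 0).M) (i : Fin 6) :
    G.wval 1 ((sqR G).f w) i = sq2 k i • G.csnd 0 ((G.coneC 0).wval 0 w i) := rfl

/-- `win 1 G` is a retract of `win 0 (cone_0 G)`. -/
theorem cone0_retr (G : DG k) :
    ∃ (f : GRep.Hom (G.win 1) ((G.coneC 0).win 0)) (g : GRep.Hom ((G.coneC 0).win 0) (G.win 1)),
      ∀ v, g.f (f.f v) = v := by
  refine ⟨sqF G 0 0, sqR G, fun v => DG.wval_inj _ _ (funext fun i => ?_)⟩
  rw [sqR_wval, sqF_wval, DG.csnd_cinr, smul_smul, sq2_mul, one_smul]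

/-- the scaling `(u, u') ↦ (r u, u')` -/
private def sqS (G : DG k) (c d r : k) (h : d * r = c) : DG.Hom (G.coneC c) (G.coneC d) where
  f :=
    { toFun := fun m => G.cinl d (r • G.cfst c m) + G.cinr d (G.csnd c m)
      map_add' := fun m n => by
        simp only [map_add, smul_add]
        abel
      map_smul' := fun t m => by
        simp only [map_smul, RingHom.id_apply, smul_add]
        rw [smul_comm] }
  map_gr j m hm := by
    rw [G.mem_coneC_gr] at hm
    exact Submodule.add_mem _ (G.cinl_mem d j _ (Submodule.smul_mem _ _ hm.1))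
      (G.cinr_mem d j _ hm.2)
  map_xi j m _ a b := by
    refine G.cone_ext d ?_ ?_
    · show G.cfst d (G.cinl d (r • G.cfst c ((G.coneC c).xi a b m)) +
        G.cinr d (G.csnd c ((G.coneC c).xi a b m))) =
        G.cfst d ((G.coneC d).xi a b (G.cinl d (r • G.cfst c m) + G.cinr d (G.csnd c m)))
      simp only [map_add, map_smul, DG.cfst_xi, DG.cfst_cinl, DG.cfst_cinr, map_zero, add_zero]
    · show G.csnd d (G.cinl d (r • G.cfst c ((G.coneC c).xi a b m)) +
        G.cinr d (G.csnd c ((G.coneC c).xi a b m))) =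
        G.csnd d ((G.coneC d).xi a b (G.cinl d (r • G.cfst c m) + G.cinr d (G.csnd c m)))
      simp only [map_add, map_smul, DG.csnd_xi, DG.csnd_cinl, DG.csnd_cinr, map_zero, zero_add,
        neg_zero, smul_zero]
  map_tau j m _ := by
    refine G.cone_ext d ?_ ?_
    · show G.cfst d (G.cinl d (r • G.cfst c ((G.coneC c).tau m)) +
        G.cinr d (G.csnd c ((G.coneC c).tau m))) =
        G.cfst d ((G.coneC d).tau (G.cinl d (r • G.cfst c m) + G.cinr d (G.csnd c m)))
      simp only [map_add, map_smul, DG.cfst_tau, DG.cfst_cinl, DG.cfst_cinr, map_zero, add_zero]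
    · show G.csnd d (G.cinl d (r • G.cfst c ((G.coneC c).tau m)) +
        G.cinr d (G.csnd c ((G.coneC c).tau m))) =
        G.csnd d ((G.coneC d).tau (G.cinl d (r • G.cfst c m) + G.cinr d (G.csnd c m)))
      rw [map_add, DG.csnd_cinl, DG.csnd_cinr, DG.csnd_tau, DG.csnd_tau, map_add, map_add,
        DG.cfst_cinl, DG.cfst_cinr, DG.csnd_cinl, DG.csnd_cinr, zero_add, zero_add, add_zero,
        smul_smul, h]

/-- The cones of nonzero scalars are isomorphic to the cone of `1`. -/
theorem cone_scale (G : DG k) (c : k) (hc : c ≠ 0) :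
    ∃ (f : DG.Hom (G.coneC c) (G.coneC 1)) (g : DG.Hom (G.coneC 1) (G.coneC c)),
      ∀ m, g.f (f.f m) = m := by
  refine ⟨sqS G c 1 c (one_mul c), sqS G 1 c c⁻¹ (mul_inv_cancel₀ hc), fun m => ?_⟩
  refine G.cone_ext c ?_ ?_
  · show G.cfst c (G.cinl c (c⁻¹ • G.cfst 1 (G.cinl 1 (c • G.cfst c m) + G.cinr 1 (G.csnd c m))) +
      G.cinr c (G.csnd 1 (G.cinl 1 (c • G.cfst c m) + G.cinr 1 (G.csnd c m)))) = G.cfst c m
    rw [map_add, DG.cfst_cinl, DG.cfst_cinr, map_add, DG.cfst_cinl, DG.cfst_cinr, add_zero,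
      add_zero, smul_smul, inv_mul_cancel₀ hc, one_smul]
  · show G.csnd c (G.cinl c (c⁻¹ • G.cfst 1 (G.cinl 1 (c • G.cfst c m) + G.cinr 1 (G.csnd c m))) +
      G.cinr c (G.csnd 1 (G.cinl 1 (c • G.cfst c m) + G.cinr 1 (G.csnd c m)))) = G.csnd c m
    rw [map_add, DG.csnd_cinl, DG.csnd_cinr, map_add, DG.csnd_cinl, DG.csnd_cinr, zero_add,
      zero_add]

end P176
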