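import Vale.Agent.P176.SeqDefs

/-!
# P176, module SEQ3: `F` of a window is a window of `E`

The map `f` sends `(u, u')` to `i ↦ (c ↦ u c (i + 1), c ↦ u' c i)`, where the first component
is `0` at `i = 5`; the map `g` sends `w` to `(c ↦ i ↦ (w (i - 1)).1 c (0 at i = 0), c ↦ i ↦ (w i).2 c)`.
-/

namespace P176

variable {k : Type} [Field k]

section raw

variable {M : Type} [AddCommGroup M] [Module k M]

private def s3up : (Fin 6 → M) →ₗ[k] (Fin 6 → M) where
  toFun v := fun i => if i = 5 then 0 else v (i + 1)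
  map_add' v w := by
    ext i
    by_cases h : i = 5 <;> simp [h]
  map_smul' c v := by
    ext i
    by_cases h : i = 5 <;> simp [h]

private theorem s3up_apply (v : Fin 6 → M) (i : Fin 6) :
    s3up (k := k) v i = if i = 5 then 0 else v (i + 1) := rfl

private def s3dn : (Fin 6 → M) →ₗ[k] (Fin 6 → M) where
  toFun v := fun i => if i = 0 then 0 else v (i - 1)
  map_add' v w := by
    ext i
    by_cases h : i = 0 <;> simp [h]
  map_smul' c v := by
    ext i
    by_cases h : i = 0 <;> simp [h]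

private theorem s3dn_apply (v : Fin 6 → M) (i : Fin 6) :
    s3dn (k := k) v i = if i = 0 then 0 else v (i - 1) := rfl

end raw

private theorem s3_val : ∀ i : Fin 6, i ≠ 5 → ((i + 1 : Fin 6) : ℕ) = (i : ℕ) + 1 := by decide

private theorem s3_val' : ∀ i : Fin 6, i ≠ 0 → (i : ℕ) = ((i - 1 : Fin 6) : ℕ) + 1 := by decide

private theorem s3_ne0 : ∀ i : Fin 6, i ≠ 5 → i + 1 ≠ 0 := by decide

private theorem s3_ne5 : ∀ i : Fin 6, i ≠ 0 → i - 1 ≠ 5 := by decide

private theorem s3_low (G : DG k) (v : (G.win 1).M) : G.wval 1 v 0 = 0 := by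
  have h := G.wval_mem 1 v 0
  rw [G.gr_neg _ (by norm_num), Submodule.mem_bot] at h
  exact h

/-- the underlying map of `f` -/
private def s3f (G : DG k) :
    ((Fin 2 → (G.win 1).M) × (Fin 2 → (G.win 1).M)) →ₗ[k]
      (Fin 6 → (Fin 2 → G.M) × (Fin 2 → G.M)) where
  toFun u := fun i => (fun c => s3up (k := k) (G.wval 1 (u.1 c)) i, fun c => G.wval 1 (u.2 c) i)
  map_add' u v := by
    funext i
    refine Prod.ext (funext fun c => ?_) (funext fun c => ?_)
    · show s3up (k := k) (G.wval 1 (u.1 c + v.1 c)) i = _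
      rw [map_add, map_add]
      rfl
    · show G.wval 1 (u.2 c + v.2 c) i = _
      rw [map_add]
      rfl
  map_smul' r u := by
    funext i
    refine Prod.ext (funext fun c => ?_) (funext fun c => ?_)
    · show s3up (k := k) (G.wval 1 (r • u.1 c)) i = _
      rw [map_smul, map_smul]
      rfl
    · show G.wval 1 (r • u.2 c) i = _
      rw [map_smul]
      rfl

private theorem s3f_mem (G : DG k) (u : (Fin 2 → (G.win 1).M) × (Fin 2 → (G.win 1).M)) :
    s3f G u ∈ winS (eeGr G.gr) 0 := by
  rw [mem_winS]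
  intro i
  rw [mem_eeGr]
  constructor
  · intro c
    show s3up (k := k) (G.wval 1 (u.1 c)) i ∈ _
    rw [s3up_apply]
    split_ifs with h
    · exact Submodule.zero_mem _
    · have h1 := G.wval_mem 1 (u.1 c) (i + 1)
      rw [s3_val i h] at h1
      have e : (((i : ℕ) + 1 : ℕ) : ℤ) - ((1 : ℕ) : ℤ) = ((i : ℕ) : ℤ) - ((0 : ℕ) : ℤ) := by
        push_cast
        ring
      rw [e] at h1
      exact h1
  · intro c
    have h1 := G.wval_mem 1 (u.2 c) i
    have e : ((i : ℕ) : ℤ) - ((0 : ℕ) : ℤ) - 1 = ((i : ℕ) : ℤ) - ((1 : ℕ) : ℤ) := by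
      push_cast
      ring
    rw [e]
    exact h1

/-- the underlying map of `g` -/
private def s3g (G : DG k) : (G.ee.win 0).M →ₗ[k] ((Fin 2 → (G.win 1).M) × (Fin 2 → (G.win 1).M)) :=
  LinearMap.prod
    (LinearMap.pi fun c => LinearMap.codRestrict (winS G.gr 1)
      (s3dn ∘ₗ ((LinearMap.proj c ∘ₗ LinearMap.fst k (Fin 2 → G.M) (Fin 2 → G.M)).compLeft (Fin 6))
        ∘ₗ (winS (eeGr G.gr) 0).subtype) (by
          intro w
          rw [mem_winS]
          intro i
          show s3dn (k := k) (fun i => (w.1 i).1 c) i ∈ _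
          rw [s3dn_apply]
          split_ifs with h
          · exact Submodule.zero_mem _
          · have h1 := ((mem_eeGr _ _ _).1 ((mem_winS _ _ _).1 w.2 (i - 1))).1 c
            have e : ((i : ℕ) : ℤ) - ((1 : ℕ) : ℤ) =
                (((i - 1 : Fin 6) : ℕ) : ℤ) - ((0 : ℕ) : ℤ) := by
              rw [s3_val' i h]
              push_cast
              ring
            rw [e]
            exact h1))
    (LinearMap.pi fun c => LinearMap.codRestrict (winS G.gr 1)
      (((LinearMap.proj c ∘ₗ LinearMap.snd k (Fin 2 → G.M) (Fin 2 → G.M)).compLeft (Fin 6))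
        ∘ₗ (winS (eeGr G.gr) 0).subtype) (by
          intro w
          rw [mem_winS]
          intro i
          have h1 := ((mem_eeGr _ _ _).1 ((mem_winS _ _ _).1 w.2 i)).2 c
          have e : ((i : ℕ) : ℤ) - ((1 : ℕ) : ℤ) = ((i : ℕ) : ℤ) - ((0 : ℕ) : ℤ) - 1 := by
            push_cast
            ring
          rw [e]
          exact h1))

private theorem s3g_fst (G : DG k) (w : (G.ee.win 0).M) (c : Fin 2) (i : Fin 6) :
    G.wval 1 ((s3g G w).1 c) i = if i = 0 then 0 else (G.ee.wval 0 w (i - 1)).1 c := rfl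

private theorem s3g_snd (G : DG k) (w : (G.ee.win 0).M) (c : Fin 2) (i : Fin 6) :
    G.wval 1 ((s3g G w).2 c) i = (G.ee.wval 0 w i).2 c := rfl

/-- the map `f` -/
private def s3F (G : DG k) : ((Fin 2 → (G.win 1).M) × (Fin 2 → (G.win 1).M)) →ₗ[k] (G.ee.win 0).M :=
  LinearMap.codRestrict (winS (eeGr G.gr) 0) (s3f G) (s3f_mem G)

private theorem s3F_fst (G : DG k) (u : (Fin 2 → (G.win 1).M) × (Fin 2 → (G.win 1).M))
    (i : Fin 6) (c : Fin 2) :
    (G.ee.wval 0 (s3F G u) i).1 c = if i = 5 then 0 else G.wval 1 (u.1 c) (i + 1) := rfl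

private theorem s3F_snd (G : DG k) (u : (Fin 2 → (G.win 1).M) × (Fin 2 → (G.win 1).M))
    (i : Fin 6) (c : Fin 2) :
    (G.ee.wval 0 (s3F G u) i).2 c = G.wval 1 (u.2 c) i := rfl

private theorem s3_ext (G : DG k) {v w : (G.ee.win 0).M}
    (h1 : ∀ i c, (G.ee.wval 0 v i).1 c = (G.ee.wval 0 w i).1 c)
    (h2 : ∀ i c, (G.ee.wval 0 v i).2 c = (G.ee.wval 0 w i).2 c) : v = w :=
  G.ee.wval_inj 0 (funext fun i => Prod.ext (funext fun c => h1 i c) (funext fun c => h2 i c))

/-- the value at `i - 1` of the first component of `f u` -/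
private theorem s3F_pred (G : DG k) (u : (Fin 2 → (G.win 1).M) × (Fin 2 → (G.win 1).M))
    (i : Fin 6) (hi : i ≠ 0) (c : Fin 2) :
    (G.ee.wval 0 (s3F G u) (i - 1)).1 c = G.wval 1 (u.1 c) i := by
  rw [s3F_fst, if_neg (s3_ne5 i hi), sub_add_cancel]

/-- `F(win 1 G)` is isomorphic to `win 0 (E(G))` if `G` vanishes in degree `5`. -/
theorem fwin_iso (G : DG k) (h5 : G.gr 5 = ⊥) :
    ∃ (f : GRep.Hom ((G.win 1).F (G.win_e0 0)) (G.ee.win 0))
      (g : GRep.Hom (G.ee.win 0) ((G.win 1).F (G.win_e0 0))),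
      (∀ v, g.f (f.f v) = v) ∧ ∀ v, f.f (g.f v) = v := by
  have hgf : ∀ u, s3g G (s3F G u) = u := by
    rintro ⟨u1, u2⟩
    refine Prod.ext (funext fun c => G.wval_inj 1 (funext fun i => ?_))
      (funext fun c => G.wval_inj 1 (funext fun i => ?_))
    · rw [s3g_fst]
      split_ifs with h
      · rw [h]
        exact (s3_low G (u1 c)).symm
      · exact s3F_pred G (u1, u2) i h c
    · rfl
  have hfg : ∀ w, s3F G (s3g G w) = w := by
    intro w
    refine s3_ext G (fun i c => ?_) fun i c => rfl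
    rw [s3F_fst]
    split_ifs with h
    · have h1 := ((mem_eeGr _ _ _).1 (G.ee.wval_mem 0 w i)).1 c
      have e : ((i : ℕ) : ℤ) - ((0 : ℕ) : ℤ) = 5 := by
        rw [h]
        rfl
      rw [e, h5, Submodule.mem_bot] at h1
      exact h1.symm
    · rw [s3g_fst, if_neg (s3_ne0 i h), add_sub_cancel_right]
  -- the value of `xi` at the top
  have htop : ∀ (v : (G.win 1).M) (m : G.M), m = G.wval 1 v 5 →
      (∀ a b, G.xi a b m = 0) ∧ G.tau m = 0 := by
    rintro v m rfl
    have h1 := G.wval_mem 1 v 5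
    have e : (((5 : Fin 6) : ℕ) : ℤ) - ((1 : ℕ) : ℤ) = 4 := rfl
    rw [e] at h1
    refine ⟨fun a b => ?_, ?_⟩
    · have h2 := G.xi_gr a b 4 _ h1
      have e2 : (4 : ℤ) + 1 = 5 := rfl
      rw [e2, h5, Submodule.mem_bot] at h2
      exact h2
    · have h2 := G.tau_gr 4 _ h1
      have e2 : (4 : ℤ) + 1 = 5 := rfl
      rw [e2, h5, Submodule.mem_bot] at h2
      exact h2
  have hxi : ∀ a b u, s3F G (xiE (G.win 1).xi a b u) = (G.ee.win 0).xi a b (s3F G u) := by
    intro a b u
    refine s3_ext G (fun i c => ?_) fun i c => ?_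
    · rw [s3F_fst, DG.wval_xi]
      have hL : G.wval 1 ((xiE (G.win 1).xi a b u).1 c) (i + 1) =
          if i + 1 = 0 then 0 else G.xi a b (G.wval 1 (u.1 c) (i + 1 - 1)) := rfl
      rw [hL, add_sub_cancel_right]
      by_cases h0 : i = 0
      · subst h0
        rw [if_neg (by decide), if_neg (by decide), if_pos rfl, s3_low, map_zero]
        rfl
      · rw [if_neg h0]
        have hR : (G.ee.xi a b (G.ee.wval 0 (s3F G u) (i - 1))).1 c =
            G.xi a b ((G.ee.wval 0 (s3F G u) (i - 1)).1 c) := rfl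
        rw [hR, s3F_pred G u i h0 c]
        by_cases hi5 : i = 5
        · subst hi5
          rw [if_pos rfl]
          exact ((htop (u.1 c) _ rfl).1 a b).symm
        · rw [if_neg hi5, if_neg (s3_ne0 i hi5)]
    · rw [s3F_snd, DG.wval_xi]
      have hL : G.wval 1 ((xiE (G.win 1).xi a b u).2 c) i =
          -(if i = 0 then 0 else G.xi a b (G.wval 1 (u.2 c) (i - 1))) -
            G.wval 1 ((if a = b then u.1 c else 0) - (if a = c then u.1 b else 0)) i := rfl
      rw [hL, map_sub, Pi.sub_apply]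
      have hif : ∀ (p : Prop) [Decidable p] (v : (G.win 1).M),
          G.wval 1 (if p then v else 0) i = if p then G.wval 1 v i else 0 := by
        intro p _ v
        split_ifs
        · rfl
        · rfl
      rw [hif, hif]
      by_cases h0 : i = 0
      · subst h0
        rw [if_pos rfl, if_pos rfl, s3_low, s3_low, ite_self, ite_self, neg_zero, sub_zero,
          sub_zero]
        rfl
      · rw [if_neg h0, if_neg h0]
        have hR : (G.ee.xi a b (G.ee.wval 0 (s3F G u) (i - 1))).2 c =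
            -(G.xi a b ((G.ee.wval 0 (s3F G u) (i - 1)).2 c)) -
              ((if a = b then (G.ee.wval 0 (s3F G u) (i - 1)).1 c else 0) -
                (if a = c then (G.ee.wval 0 (s3F G u) (i - 1)).1 b else 0)) := rfl
        rw [hR, s3F_pred G u i h0 c, s3F_pred G u i h0 b, s3F_snd]
  have htau : ∀ u, s3F G (tauE (G.win 1).xi (G.win 1).tau u) = (G.ee.win 0).tau (s3F G u) := by
    intro u
    refine s3_ext G (fun i c => ?_) fun i c => ?_
    · rw [s3F_fst, DG.wval_tau]
      have hL : G.wval 1 ((tauE (G.win 1).xi (G.win 1).tau u).1 c) (i + 1) =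
          G.wval 1 (tauW (G.win 1).xi (G.win 1).tau u.1 c) (i + 1) := rfl
      rw [hL, tauW_apply, map_sub, map_sum, Pi.sub_apply, Finset.sum_apply, DG.wval_tau,
        add_sub_cancel_right]
      simp only [DG.wval_xi, add_sub_cancel_right]
      by_cases h0 : i = 0
      · subst h0
        rw [if_neg (by decide), if_neg (by decide), if_pos rfl]
        simp only [s3_low, map_zero, ite_self, Finset.sum_const_zero, sub_zero]
        rfl
      · rw [if_neg h0]
        have hR : (G.ee.tau (G.ee.wval 0 (s3F G u) (i - 1))).1 c =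
            tauW G.xi G.tau (G.ee.wval 0 (s3F G u) (i - 1)).1 c := rfl
        rw [hR, tauW_apply]
        simp only [s3F_pred G u i h0]
        by_cases hi5 : i = 5
        · subst hi5
          rw [if_pos rfl, (htop (u.1 c) _ rfl).2]
          simp only [fun a => (htop (u.1 a) _ rfl).1]
          simp
        · rw [if_neg hi5, if_neg (s3_ne0 i hi5)]
          simp only [if_neg (s3_ne0 i hi5)]
    · rw [s3F_snd, DG.wval_tau]
      have hL : G.wval 1 ((tauE (G.win 1).xi (G.win 1).tau u).2 c) i =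
          G.wval 1 (-(tauW (G.win 1).xi (G.win 1).tau u.2 c)) i := rfl
      rw [hL, map_neg, Pi.neg_apply, tauW_apply, map_sub, map_sum, Pi.sub_apply,
        Finset.sum_apply, DG.wval_tau]
      simp only [DG.wval_xi]
      by_cases h0 : i = 0
      · subst h0
        rw [if_pos rfl, if_pos rfl]
        simp only [if_pos, Finset.sum_const_zero, sub_zero, neg_zero]
        rfl
      · rw [if_neg h0, if_neg h0]
        have hR : (G.ee.tau (G.ee.wval 0 (s3F G u) (i - 1))).2 c =
            -(tauW G.xi G.tau (G.ee.wval 0 (s3F G u) (i - 1)).2 c) := rfl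
        rw [hR, tauW_apply]
        simp only [if_neg h0, s3F_snd]
  have he : ∀ j u, s3F G (eF (G.win 1).e j u) = (G.ee.win 0).e j (s3F G u) := by
    intro j u
    refine s3_ext G (fun i c => ?_) fun i c => ?_
    · rw [s3F_fst, DG.wval_e]
      have hL : G.wval 1 ((eF (G.win 1).e j u).1 c) (i + 1) =
          if ((i + 1 : Fin 6) : ℕ) = j + 1 then G.wval 1 (u.1 c) (i + 1) else 0 := rfl
      rw [hL]
      by_cases hi5 : i = 5
      · rw [if_pos hi5]
        split_ifs
        · rw [s3F_fst, if_pos hi5]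
        · rfl
      · rw [if_neg hi5, s3_val i hi5]
        by_cases hj : (i : ℕ) = j
        · rw [if_pos hj, if_pos (by rw [hj]), s3F_fst, if_neg hi5]
        · rw [if_neg hj, if_neg (by omega)]
          rfl
    · rw [s3F_snd, DG.wval_e]
      have hL : G.wval 1 ((eF (G.win 1).e j u).2 c) i =
          if (i : ℕ) = j then G.wval 1 (u.2 c) i else 0 := rfl
      rw [hL]
      split_ifs
      · rfl
      · rfl
  refine ⟨⟨s3F G, he, hxi, htau⟩, ⟨s3g G, fun j w => ?_, fun a b w => ?_, fun w => ?_⟩, hgf, hfg⟩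
  · have h1 : s3g G ((G.ee.win 0).e j (s3F G (s3g G w))) = eF (G.win 1).e j (s3g G w) := by
      rw [← he, hgf]
    rw [hfg] at h1
    exact h1
  · have h1 : s3g G ((G.ee.win 0).xi a b (s3F G (s3g G w))) =
        xiE (G.win 1).xi a b (s3g G w) := by
      rw [← hxi, hgf]
    rw [hfg] at h1
    exact h1
  · have h1 : s3g G ((G.ee.win 0).tau (s3F G (s3g G w))) =
        tauE (G.win 1).xi (G.win 1).tau (s3g G w) := by
      rw [← htau, hgf]
    rw [hfg] at h1
    exact h1

end P176
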