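import Vale.Agent.P176.SeqQ

/-!
# P176: functoriality of `Z`, `Q`, windows
-/

namespace P176

variable {k : Type} [Field k]

/-- Exactness of a sequence of representations of `G`. -/
structure GExa {R S T : GRep k} (f : GRep.Hom R S) (g : GRep.Hom S T) : Prop where
  inj : Function.Injective f.f
  surj : Function.Surjective g.f
  exact : ∀ m, g.f m = 0 ↔ ∃ x, f.f x = m

/-- Functoriality of `Z`. -/
def GRep.Hom.Z {N N' : GRep k} (f : GRep.Hom N N') : Rep.Hom N.Z N'.Z where
  f := f.f
  map_op g m := by
    cases g with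
    | e j => exact f.map_e j m
    | xi a b => exact f.map_xi a b m
    | tau => exact f.map_tau m
    | al c => exact map_zero f.f
    | be c => exact map_zero f.f

/-- Functoriality of `Q`. -/
def GRep.Hom.Q {N N' : GRep k} (f : GRep.Hom N N') (h0 : N.e 0 = 0) (h0' : N'.e 0 = 0) :
    Rep.Hom (N.Q h0) (N'.Q h0') where
  f := f.f.prodMap ((f.f.compLeft (Fin 2)).prodMap (f.f.compLeft (Fin 2)))
  map_op g m := qmap_op f h0 h0' g m

/-- Functoriality of windows. -/
def DG.Hom.win {G H : DG k} (f : DG.Hom G H) (s : ℕ) : GRep.Hom (G.win s) (H.win s) where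
  f := LinearMap.restrict (f.f.compLeft (Fin 6)) (p := winS G.gr s) (q := winS H.gr s) (by
    intro v hv
    rw [mem_winS] at hv ⊢
    exact fun i => f.map_gr _ _ (hv i))
  map_e j v := by
    refine Subtype.ext (funext fun i => ?_)
    show f.f (if (i : ℕ) = j then v.1 i else 0) = if (i : ℕ) = j then f.f (v.1 i) else 0
    split_ifs
    · rfl
    · exact map_zero _
  map_xi a b v := by
    refine Subtype.ext (funext fun i => ?_)
    show f.f (if i = 0 then 0 else G.xi a b (v.1 (i - 1))) =
      if i = 0 then 0 else H.xi a b (f.f (v.1 (i - 1)))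
    split_ifs
    · exact map_zero _
    · exact f.map_xi _ _ (G.wval_mem s v (i - 1)) a b
  map_tau v := by
    refine Subtype.ext (funext fun i => ?_)
    show f.f (if i = 0 then 0 else G.tau (v.1 (i - 1))) =
      if i = 0 then 0 else H.tau (f.f (v.1 (i - 1)))
    split_ifs
    · exact map_zero _
    · exact f.map_tau _ _ (G.wval_mem s v (i - 1))

@[simp] theorem DG.Hom.win_wval {G H : DG k} (f : DG.Hom G H) (s : ℕ) (v : (G.win s).M)
    (i : Fin 6) : H.wval s ((f.win s).f v) i = f.f (G.wval s v i) := rfl

end P176
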