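import Vale.Agent.P176.Cons

/-!
# P176, module SEQQ: functoriality of `Q`
-/

namespace P176

variable {k : Type} [Field k]

private theorem sqq_single {M M' : Type} [AddCommGroup M] [Module k M] [AddCommGroup M']
    [Module k M'] (f : M →ₗ[k] M') (c : Fin 2) (m : M) :
    (fun i => f ((Pi.single c m : Fin 2 → M) i)) = (Pi.single c (f m) : Fin 2 → M') := by
  funext i
  by_cases h : i = c
  · subst h
    simp
  · simp [Pi.single_eq_of_ne h]

private theorem sqq_tauW {N N' : GRep k} (f : GRep.Hom N N') (u : Fin 2 → N.M) (c : Fin 2) :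
    f.f (tauW N.xi N.tau u c) = tauW N'.xi N'.tau (fun i => f.f (u i)) c := by
  simp only [tauW_apply, map_sub, map_sum, f.map_tau, f.map_xi]

theorem qmap_op {N N' : GRep k} (f : GRep.Hom N N') (h0 : N.e 0 = 0) (h0' : N'.e 0 = 0)
    (g : Gen) (m : (N.Q h0).M) :
    (f.f.prodMap ((f.f.compLeft (Fin 2)).prodMap (f.f.compLeft (Fin 2)))) ((N.Q h0).op g m) =
      (N'.Q h0').op g
        ((f.f.prodMap ((f.f.compLeft (Fin 2)).prodMap (f.f.compLeft (Fin 2)))) m) := by
  obtain ⟨m0, m1, m2⟩ := m
  cases g with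
  | e j =>
    refine Prod.ext (f.map_e j m0) (Prod.ext (funext fun c => ?_) (funext fun c => ?_))
    · exact f.map_e (j + 1) (m1 c)
    · exact f.map_e j (m2 c)
  | xi a b =>
    refine Prod.ext (f.map_xi a b m0) (Prod.ext (funext fun c => ?_) (funext fun c => ?_))
    · exact f.map_xi a b (m1 c)
    · show f.f (-(N.xi a b (m2 c)) - ((if a = b then m1 c else 0) - (if a = c then m1 b else 0)))
        = -(N'.xi a b (f.f (m2 c))) -
          ((if a = b then f.f (m1 c) else 0) - (if a = c then f.f (m1 b) else 0))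
      rw [map_sub, map_neg, map_sub, f.map_xi]
      split_ifs <;> simp
  | tau =>
    refine Prod.ext (f.map_tau m0) (Prod.ext (funext fun c => ?_) (funext fun c => ?_))
    · exact sqq_tauW f m1 c
    · show f.f (-(tauW N.xi N.tau m2 c)) = -(tauW N'.xi N'.tau (fun i => f.f (m2 i)) c)
      rw [map_neg, sqq_tauW]
  | al c =>
    refine Prod.ext (map_zero f.f) (Prod.ext ?_ ?_)
    · exact sqq_single f.f c m0
    · exact funext fun i => map_zero f.f
  | be c =>
    refine Prod.ext (map_zero f.f) (Prod.ext ?_ ?_)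
    · exact funext fun i => map_zero f.f
    · exact sqq_single f.f c m0

end P176
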