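import Vale.Agent.P176.ThetaDefs

/-!
# P176, module THETAA: the operator `T`

See the explanation in `ThetaDefs.lean`.
-/

namespace P176

section thetaa_aux

variable {k : Type} [Field k] {M : Type} [AddCommGroup M] [Module k M]

private theorem thetaa_wmap_mul (f g : Module.End k M) : wmap (f * g) = wmap f * wmap g := rfl

private theorem thetaa_wmap_add (f g : Module.End k M) : wmap (f + g) = wmap f + wmap g := rfl

private theorem thetaa_wmap_zero : wmap (0 : Module.End k M) = 0 := rfl

private theorem thetaa_wmap_one : wmap (1 : Module.End k M) = 1 := rfl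

private theorem thetaa_wmap_thW (f : Module.End k M) (a b : Fin 2) :
    wmap f * thW a b = thW a b * wmap f := by
  refine LinearMap.ext fun u => funext fun c => ?_
  simp only [Module.End.mul_apply, wmap_apply, thW_apply, map_sub]
  congr 1
  · split_ifs <;> simp
  · split_ifs <;> simp

private theorem thetaa_wmap_single (f : Module.End k M) (c : Fin 2) (m : M) :
    wmap f (Pi.single c m) = Pi.single c (f m) := by
  funext d
  rw [wmap_apply]
  by_cases h : d = c
  · subst h
    simp
  · simp [h]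

end thetaa_aux

variable (k : Type) [Field k]

theorem Tt_cr (a b : Fin 2) :
    Tt k * wmap (cr k a b) + wmap (cr k a b) * Tt k = thW a b := by
  have h : ∀ i j : Fin 2, wmap (an k i j) * thW i j * wmap (cr k a b) +
      wmap (cr k a b) * (wmap (an k i j) * thW i j) =
      (if i = a ∧ j = b then (thW i j : Module.End k (Fin 2 → Fk (PO k))) else 0) := by
    intro i j
    rw [mul_assoc, ← thetaa_wmap_thW, ← mul_assoc, ← mul_assoc, ← add_mul, ← thetaa_wmap_mul,
      ← thetaa_wmap_mul, ← thetaa_wmap_add, an_cr]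
    split_ifs
    · rw [thetaa_wmap_one, one_mul]
    · rw [thetaa_wmap_zero, zero_mul]
  have h2 : Tt k * wmap (cr k a b) + wmap (cr k a b) * Tt k =
      ∑ i : Fin 2, ∑ j : Fin 2,
        (if i = a ∧ j = b then (thW i j : Module.End k (Fin 2 → Fk (PO k))) else 0) := by
    unfold Tt
    rw [Finset.sum_mul, Finset.mul_sum, ← Finset.sum_add_distrib]
    refine Finset.sum_congr rfl fun i _ => ?_
    rw [Finset.sum_mul, Finset.mul_sum, ← Finset.sum_add_distrib]
    exact Finset.sum_congr rfl fun j _ => h i j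
  rw [h2]
  fin_cases a <;> fin_cases b <;> simp [Fin.sum_univ_two]

private theorem thetaa_tht_cr (a b : Fin 2) :
    tht k * wmap (cr k a b) = wmap (cr k a b) * tht k := by
  refine LinearMap.ext fun u => funext fun c => ?_
  have h1 : ∀ v : Fin 2 → Fk (PO k), tht k v c = ∑ x, Fk.map (gE k x x) (v c) + v c -
      Fk.map (mX k c) (∑ x, Fk.map (pD k x) (v x)) := by
    intro v
    simp only [tht, zz, LinearMap.sub_apply, LinearMap.add_apply,
      Pi.sub_apply, Pi.add_apply, wmap_apply, LinearMap.sum_apply, Module.End.one_apply,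
      LinearMap.comp_apply, iot, kap, LinearMap.pi_apply, LinearMap.proj_apply]
  simp only [Module.End.mul_apply, wmap_apply, h1, Fk.map_cr, map_sub, map_add, map_sum]

private theorem thetaa_comm {R : Type} [Ring R] (T τ ξ θ : R) (p q r s : Fin 2 → R)
    (h1 : T * ξ + ξ * T = θ)
    (h1p : ∀ l, T * p l + p l * T = r l)
    (h1q : ∀ l, T * q l + q l * T = s l)
    (h2 : τ * ξ + ξ * τ = -∑ l, p l * q l)
    (h3 : τ * θ - θ * τ = -∑ l, (p l * s l - r l * q l)) :
    (T * τ + τ * T) * ξ = ξ * (T * τ + τ * T) := by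
  rw [Fin.sum_univ_two] at h2 h3
  have e1 := h1p 0
  have e2 := h1p 1
  have e3 := h1q 0
  have e4 := h1q 1
  generalize p 0 = p0 at *
  generalize p 1 = p1 at *
  generalize q 0 = q0 at *
  generalize q 1 = q1 at *
  generalize r 0 = r0 at *
  generalize r 1 = r1 at *
  generalize s 0 = s0 at *
  generalize s 1 = s1 at *
  have a1 : T * ξ = θ - ξ * T := eq_sub_of_add_eq h1
  have a2 : τ * ξ = -(p0 * q0 + p1 * q1) - ξ * τ := eq_sub_of_add_eq h2
  have a3 : T * p0 = r0 - p0 * T := eq_sub_of_add_eq e1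
  have a4 : T * p1 = r1 - p1 * T := eq_sub_of_add_eq e2
  have a5 : T * q0 = s0 - q0 * T := eq_sub_of_add_eq e3
  have a6 : T * q1 = s1 - q1 * T := eq_sub_of_add_eq e4
  have a7 : τ * θ = -(p0 * s0 - r0 * q0 + (p1 * s1 - r1 * q1)) + θ * τ :=
    sub_eq_iff_eq_add.1 h3
  have b1 : T * τ * ξ = ξ * (T * τ) - θ * τ - (p0 * q0 + p1 * q1) * T +
      (p0 * s0 + p1 * s1) - (r0 * q0 + r1 * q1) := by
    calc T * τ * ξ = T * (τ * ξ) := mul_assoc _ _ _
      _ = -(T * p0 * q0 + T * p1 * q1) - T * ξ * τ := by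
          rw [a2, mul_sub, mul_neg, mul_add, mul_assoc, mul_assoc, mul_assoc]
      _ = -((r0 - p0 * T) * q0 + (r1 - p1 * T) * q1) - (θ - ξ * T) * τ := by
          rw [a1, a3, a4]
      _ = -(r0 * q0 + r1 * q1) + (p0 * (T * q0) + p1 * (T * q1)) - θ * τ +
          ξ * (T * τ) := by
          rw [sub_mul, sub_mul, sub_mul, mul_assoc p0, mul_assoc p1, mul_assoc ξ]
          abel
      _ = _ := by
          rw [a5, a6, mul_sub, mul_sub, add_mul, mul_assoc p0 q0, mul_assoc p1 q1]
          abel
  have b2 : τ * T * ξ = ξ * (τ * T) + (p0 * q0 + p1 * q1) * T + τ * θ := by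
    calc τ * T * ξ = τ * (T * ξ) := mul_assoc _ _ _
      _ = τ * θ - τ * ξ * T := by rw [a1, mul_sub, mul_assoc τ ξ]
      _ = _ := by
          rw [a2, sub_mul, neg_mul, mul_assoc ξ τ]
          abel
  rw [add_mul, b1, b2, a7, mul_add]
  abel

private theorem thetaa_an_cr_vac (a b c d : Fin 2) (f : PO k) :
    an k a b (cr k c d (vac k f)) = if a = c ∧ b = d then vac k f else 0 := by
  have h := congrArg (fun F : Module.End k (Fk (PO k)) => F (vac k f)) (an_cr (k := k) a b c d)
  simp only [LinearMap.add_apply, Module.End.mul_apply, an_vac, map_zero, add_zero] at h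
  rw [h]
  split_ifs
  · rfl
  · rfl

private theorem thetaa_Tt_apply (u : Fin 2 → Fk (PO k)) (c : Fin 2) :
    Tt k u c = ∑ a, ∑ b, an k a b ((if a = b then u c else 0) - (if a = c then u b else 0)) := by
  simp only [Tt, LinearMap.sum_apply, Finset.sum_apply, Module.End.mul_apply, wmap_apply,
    thW_apply]

private theorem thetaa_Tt_apply' (u : Fin 2 → Fk (PO k)) (c : Fin 2) :
    Tt k u c = an k 0 0 (u c) + an k 1 1 (u c) - (an k c 0 (u 0) + an k c 1 (u 1)) := by
  rw [thetaa_Tt_apply]
  fin_cases c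
  · simp [Fin.sum_univ_two, map_sub]
  · simp [Fin.sum_univ_two, map_sub]

theorem Tt_tauW (h2 : (2 : k) ≠ 0) :
    Tt k * tauW (cr k) (ce (gE k)) + tauW (cr k) (ce (gE k)) * Tt k = tht k := by
  have hB : IsB (cr k : Fin 2 → Fin 2 → Module.End k (Fk (PO k))) (ce (gE k)) :=
    ⟨cr_cr, ce_cr (gE k), ce_ce h2 (gE k) (isGl_gE k)⟩
  have hW := isB_W hB
  have hcomm : ∀ a b, (Tt k * tauW (cr k) (ce (gE k)) + tauW (cr k) (ce (gE k)) * Tt k) *
      wmap (cr k a b) = wmap (cr k a b) *
      (Tt k * tauW (cr k) (ce (gE k)) + tauW (cr k) (ce (gE k)) * Tt k) := by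
    intro a b
    exact thetaa_comm (Tt k) (tauW (cr k) (ce (gE k))) (wmap (cr k a b)) (thW a b)
      (fun l => wmap (cr k a l)) (fun l => wmap (cr k l b)) (fun l => thW a l)
      (fun l => thW l b) (Tt_cr k a b) (fun l => Tt_cr k a l) (fun l => Tt_cr k l b)
      (hW.tau_xi a b) (tauW_thW hB a b)
  set S := Tt k * tauW (cr k) (ce (gE k)) + tauW (cr k) (ce (gE k)) * Tt k - tht k with hS
  have hS1 : ∀ a b, S * wmap (cr k a b) = wmap (cr k a b) * S := by
    intro a b
    rw [hS, sub_mul, mul_sub, hcomm a b, thetaa_tht_cr]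
  have hS2 : ∀ (c : Fin 2) (f : PO k), S (Pi.single c (vac k f)) = 0 := by
    intro c f
    have hT : Tt k (Pi.single c (vac k f)) = 0 := by
      funext d
      rw [thetaa_Tt_apply', Pi.zero_apply]
      fin_cases c <;> fin_cases d <;> simp [an_vac]
    have hmul : S (Pi.single c (vac k f)) = Tt k (tauW (cr k) (ce (gE k)) (Pi.single c (vac k f)))
        + tauW (cr k) (ce (gE k)) (Tt k (Pi.single c (vac k f))) -
        tht k (Pi.single c (vac k f)) := rfl
    rw [hmul, hT, map_zero, add_zero, sub_eq_zero]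
    funext d
    rw [thetaa_Tt_apply']
    fin_cases c <;> fin_cases d <;>
      simp [tauW_apply, Fin.sum_univ_two, ce_vac, thetaa_an_cr_vac, tht, zz, iot, kap,
        Fk.map_vac, gE, map_sub, map_add] <;> abel
  have hS3 : ∀ (c : Fin 2) (m : Fk (PO k)), S (Pi.single c m) = 0 := by
    intro c m
    have h := Fk.gen' (LinearMap.ker (S ∘ₗ LinearMap.single k (fun _ : Fin 2 => Fk (PO k)) c))
      (fun u => by
        rw [LinearMap.mem_ker, LinearMap.comp_apply]
        exact hS2 c u)
      (fun a b m hm => by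
        rw [LinearMap.mem_ker, LinearMap.comp_apply] at hm ⊢
        have h3 := congrArg (fun F : Module.End k (Fin 2 → Fk (PO k)) => F (Pi.single c m))
          (hS1 a b)
        simp only [Module.End.mul_apply, thetaa_wmap_single] at h3
        refine h3.trans ?_
        have hm' : S (Pi.single c m) = 0 := hm
        rw [hm', map_zero])
    have hm : m ∈ LinearMap.ker (S ∘ₗ LinearMap.single k (fun _ : Fin 2 => Fk (PO k)) c) := by
      rw [h]
      exact Submodule.mem_top
    rw [LinearMap.mem_ker, LinearMap.comp_apply] at hm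
    exact hm
  have hS4 : S = 0 := by
    refine LinearMap.ext fun u => ?_
    have hu : u = Pi.single 0 (u 0) + Pi.single 1 (u 1) := by
      funext d
      fin_cases d <;> simp
    rw [hu, map_add, hS3, hS3, LinearMap.zero_apply, add_zero]
  exact sub_eq_zero.1 hS4

theorem Tt_deg (p : Submodule k (PO k)) (j : ℤ) (u : Fin 2 → Fk (PO k))
    (hu : ∀ c, u c ∈ Fk.deg p j) (c : Fin 2) : Tt k u c ∈ Fk.deg p (j - 1) := by
  rw [thetaa_Tt_apply']
  exact Submodule.sub_mem _
    (Submodule.add_mem _ (Fk.an_deg p 0 0 j _ (hu c)) (Fk.an_deg p 1 1 j _ (hu c)))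
    (Submodule.add_mem _ (Fk.an_deg p c 0 j _ (hu 0)) (Fk.an_deg p c 1 j _ (hu 1)))

end P176
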