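import Vale.Agent.P176.ThetaDefs

/-!
# P176, module THETAB: `κ` and `ι` commute with the differentials, `κ ι = z + 2`
-/

namespace P176

variable (k : Type) [Field k]

theorem thetab_kap (u : Fin 2 → Fk (PO k)) :
    kap k u = ∑ c, Fk.map (pD k c) (u c) := by
  simp only [kap, LinearMap.sum_apply, LinearMap.comp_apply, LinearMap.proj_apply]

theorem thetab_iot (y : Fk (PO k)) (c : Fin 2) : iot k y c = Fk.map (mX k c) y := rfl

theorem thetab_ce (x : Fin 2 → Fin 2 → Module.End k (PO k)) (y : Fk (PO k)) :
    ce x y = (∑ a, ∑ b, cr k a b (Fk.map (x a b) y))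
      - ∑ i, ∑ j, ∑ l, cr k i l (cr k l j (an k i j y)) := by
  simp only [ce, LinearMap.sub_apply, LinearMap.sum_apply, Module.End.mul_apply]

theorem thetab_comp (f g : Module.End k (PO k)) (y : Fk (PO k)) :
    Fk.map f (Fk.map g y) = Fk.map (f * g) y := by
  have h := Fk.map_comp f g
  have h2 := LinearMap.congr_fun h y
  exact h2.symm

theorem thetab_sub (f g : Module.End k (PO k)) (y : Fk (PO k)) :
    Fk.map (f - g) y = Fk.map f y - Fk.map g y := by
  have h := Fk.map_add (f - g) g
  rw [sub_add_cancel] at h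
  have h2 := LinearMap.congr_fun h y
  rw [LinearMap.add_apply] at h2
  rw [h2, add_sub_cancel_right]

theorem thetab_zero (y : Fk (PO k)) : Fk.map (0 : Module.End k (PO k)) y = 0 := by
  have h := thetab_sub k 0 0 y
  rw [sub_zero, sub_self] at h
  exact h

theorem thetab_neg (f : Module.End k (PO k)) (y : Fk (PO k)) :
    Fk.map (-f) y = -Fk.map f y := by
  have h := thetab_sub k 0 f y
  rw [zero_sub, thetab_zero, zero_sub] at h
  exact h

theorem thetab_comm (f : Module.End k (PO k)) (x : Fin 2 → Fin 2 → Module.End k (PO k))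
    (y : Fk (PO k)) : Fk.map f (ce x y) = ce x (Fk.map f y)
      + ∑ a, ∑ b, cr k a b (Fk.map (f * x a b - x a b * f) y) := by
  have h1 : ∀ a b, cr k a b (Fk.map (f * x a b - x a b * f) y)
      = cr k a b (Fk.map (f * x a b) y) - cr k a b (Fk.map (x a b * f) y) := by
    intro a b
    rw [thetab_sub, map_sub]
  simp only [h1, thetab_ce, Finset.sum_sub_distrib, map_sub, map_sum, Fk.map_cr, Fk.map_an,
    thetab_comp]
  abel

theorem kap_cr (a b : Fin 2) (u : Fin 2 → Fk (PO k)) :
    kap k (wmap (cr k a b) u) = cr k a b (kap k u) := by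
  simp only [thetab_kap, wmap_apply, Fk.map_cr, map_sum]

theorem iot_cr (a b : Fin 2) (y : Fk (PO k)) :
    iot k (cr k a b y) = wmap (cr k a b) (iot k y) := by
  funext c
  simp only [thetab_iot, wmap_apply, Fk.map_cr]

theorem thetab_D (c a b : Fin 2) :
    pD k c * gE k a b - gE k a b * pD k c = if c = a then pD k b else 0 := by
  have h1 := pD_mX k c a
  have h2 := pD_pD k c b
  have : pD k c * gE k a b - gE k a b * pD k c
      = (pD k c * mX k a) * pD k b - mX k a * (pD k b * pD k c) := by
    unfold gE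
    noncomm_ring
  rw [this, h1, ← h2]
  split_ifs
  · noncomm_ring
  · noncomm_ring

theorem thetab_X (c a b : Fin 2) :
    mX k c * gE k a b - gE k a b * mX k c = -(if b = c then mX k a else 0) := by
  have h1 := pD_mX k b c
  have h2 := mX_mX k c a
  have : mX k c * gE k a b - gE k a b * mX k c
      = (mX k c * mX k a) * pD k b - mX k a * (pD k b * mX k c) := by
    unfold gE
    noncomm_ring
  rw [this, h1, h2]
  split_ifs
  · noncomm_ring
  · noncomm_ring

theorem kap_tau (u : Fin 2 → Fk (PO k)) :
    kap k (tauW (cr k) (ce (gE k)) u) = ce (gE k) (kap k u) := by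
  have h1 : ∀ c, Fk.map (pD k c) (tauW (cr k) (ce (gE k)) u c)
      = ce (gE k) (Fk.map (pD k c) (u c)) + (∑ b, cr k c b (Fk.map (pD k b) (u c)))
        - ∑ a, cr k a c (Fk.map (pD k c) (u a)) := by
    intro c
    have e1 : ∑ a, ∑ b, cr k a b (Fk.map (pD k c * gE k a b - gE k a b * pD k c) (u c))
        = ∑ b, cr k c b (Fk.map (pD k b) (u c)) := by
      rw [Finset.sum_eq_single c]
      · apply Finset.sum_congr rfl
        intro b _
        rw [thetab_D, if_pos rfl]
      · intro a _ hac
        apply Finset.sum_eq_zero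
        intro b _
        rw [thetab_D, if_neg (Ne.symm hac), thetab_zero, map_zero]
      · intro h
        exact absurd (Finset.mem_univ c) h
    rw [tauW_apply, map_sub, map_sum, thetab_comm, e1]
    simp only [Fk.map_cr]
  rw [thetab_kap, thetab_kap, map_sum]
  simp only [h1, Finset.sum_sub_distrib, Finset.sum_add_distrib]
  rw [Finset.sum_comm (f := fun c a => cr k a c (Fk.map (pD k c) (u a)))]
  abel

theorem iot_tau (y : Fk (PO k)) :
    iot k (ce (gE k) y) = tauW (cr k) (ce (gE k)) (iot k y) := by
  funext c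
  have e1 : ∑ a, ∑ b, cr k a b (Fk.map (mX k c * gE k a b - gE k a b * mX k c) y)
      = -∑ a, cr k a c (Fk.map (mX k a) y) := by
    rw [← Finset.sum_neg_distrib]
    apply Finset.sum_congr rfl
    intro a _
    rw [Finset.sum_eq_single c]
    · rw [thetab_X, if_pos rfl, thetab_neg, map_neg]
    · intro b _ hbc
      rw [thetab_X, if_neg hbc, neg_zero, thetab_zero, map_zero]
    · intro h
      exact absurd (Finset.mem_univ c) h
  rw [tauW_apply, thetab_iot, thetab_comm, e1, sub_eq_add_neg]
  simp only [thetab_iot]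

/-- `κ ι = z + 2`. -/
theorem kap_iot (y : Fk (PO k)) : kap k (iot k y) = zz k y + (2 : k) • y := by
  have h1 : ∀ c, Fk.map (pD k c) (iot k y c) = Fk.map (gE k c c) y + y := by
    intro c
    rw [thetab_iot, thetab_comp, pD_mX, if_pos rfl]
    have h2 := LinearMap.congr_fun (Fk.map_add (mX k c * pD k c) (1 : Module.End k (PO k))) y
    have h3 := LinearMap.congr_fun (Fk.map_id (k := k) (U := PO k)) y
    rw [LinearMap.add_apply] at h2
    refine h2.trans ?_
    congr 1
  rw [thetab_kap]
  simp only [h1, zz, Fin.sum_univ_two, two_smul, LinearMap.add_apply]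
  abel

end P176
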