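import Vale.Agent.P176.ThetaDefs

/-!
# P176, module THETAC: degrees of `κ`, `ι`, and the Euler operator
-/

namespace P176

variable (k : Type) [Field k]

theorem thetac_kap (u : Fin 2 → Fk (PO k)) :
    kap k u = ∑ c, Fk.map (pD k c) (u c) := by
  simp only [kap, LinearMap.sum_apply, LinearMap.comp_apply, LinearMap.proj_apply]

/-- The Euler operator on `Λ ⊗ V_n`. -/
theorem zz_deg (n : ℕ) (j : ℤ) (m : Fk (PO k)) (hm : m ∈ Fk.deg (Vn k n) j) :
    zz k m = (n : k) • m := by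
  have h1 : zz k m = Fk.map (gE k 0 0) m + Fk.map (gE k 1 1) m := by
    simp only [zz, Fin.sum_univ_two, LinearMap.add_apply]
  have h2 : Fk.map (gE k 0 0) m + Fk.map (gE k 1 1) m = Fk.map (gE k 0 0 + gE k 1 1) m := by
    rw [Fk.map_add]
    rfl
  have h3 : Fk.map (gE k 0 0 + gE k 1 1) m
      = Fk.map ((n : k) • (LinearMap.id : PO k →ₗ[k] PO k)) m := by
    apply Fk.map_congr_deg _ _ (Vn k n) _ j m hm
    intro u hu
    have h4 := euler k n u hu
    rw [Fin.sum_univ_two] at h4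
    exact h4
  rw [h1, h2, h3, Fk.map_smul, Fk.map_id]
  rfl

theorem kap_deg (n : ℕ) (j : ℤ) (u : Fin 2 → Fk (PO k))
    (hu : ∀ c, u c ∈ Fk.deg (Vn k (n + 1)) j) : kap k u ∈ Fk.deg (Vn k n) j := by
  rw [thetac_kap]
  apply Submodule.sum_mem
  intro c _
  exact Fk.map_deg (pD k c) (Vn k (n + 1)) (Vn k n) (fun f hf => pD_mem k c n f hf) j (u c) (hu c)

theorem kap_deg_zero (j : ℤ) (u : Fin 2 → Fk (PO k))
    (hu : ∀ c, u c ∈ Fk.deg (Vn k 0) j) : kap k u = 0 := by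
  rw [thetac_kap]
  apply Finset.sum_eq_zero
  intro c _
  have h1 : Fk.map (pD k c) (u c) = Fk.map ((0 : k) • (LinearMap.id : PO k →ₗ[k] PO k)) (u c) := by
    apply Fk.map_congr_deg _ _ (Vn k 0) _ j (u c) (hu c)
    intro f hf
    rw [pD_mem_zero k c f hf, zero_smul]
    rfl
  rw [h1, Fk.map_smul, zero_smul]
  rfl

theorem iot_deg (n : ℕ) (j : ℤ) (y : Fk (PO k)) (hy : y ∈ Fk.deg (Vn k n) j) (c : Fin 2) :
    iot k y c ∈ Fk.deg (Vn k (n + 1)) j :=
  Fk.map_deg (mX k c) (Vn k n) (Vn k (n + 1)) (fun f hf => mX_mem k c n f hf) j y hy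

end P176
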