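import Vale.Agent.P176.RelE
import Vale.Agent.P176.CE
import Vale.Agent.P176.Poly

/-!
# P176: the operators `T`, `κ`, `ι` on `(Λ ⊗ k[x_0, x_1]) ⊗ W`

`M = Fk (PO k)`; a `W`-valued vector is a function `Fin 2 → Fk (PO k)`.

* `Tt u c = ∑ a, ∂_aa u_c - ∑ b, ∂_cb u_b` (that is `T = ∑ ∂_ab θ_ab`),
* `kap u = ∑ c, D_c u_c`, `(iot y) c = X_c y`,
* `zz = Euler operator = ∑ a, X_a D_a`, `tht u c = (z + 1) u_c - X_c ∑ b, D_b u_b`.

Proof of `Tt_tauW`: put `S = T τ_W + τ_W T - tht`. Then `S` commutes with all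
`wmap (cr a b)` (use `Tt_cr`, `tauW_thW` and `isB_W`), and `S` kills all vectors with components
in the vacuum (`Tt` kills them, and `T τ_W vac f = vac (tht f)` is a computation in the Weyl
algebra). By generation (`Fk.gen'` for each component), `S = 0`.
-/

namespace P176

variable (k : Type) [Field k]

/-- The contraction operator `T = ∑ ∂_ab θ_ab`. -/
noncomputable def Tt : Module.End k (Fin 2 → Fk (PO k)) :=
  ∑ a, ∑ b, wmap (an k a b) * thW a b

/-- `κ`. -/
noncomputable def kap : (Fin 2 → Fk (PO k)) →ₗ[k] Fk (PO k) :=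
  ∑ c, Fk.map (pD k c) ∘ₗ LinearMap.proj c

/-- `ι`. -/
noncomputable def iot : Fk (PO k) →ₗ[k] (Fin 2 → Fk (PO k)) :=
  LinearMap.pi fun c => Fk.map (mX k c)

/-- The Euler operator. -/
noncomputable def zz : Module.End k (Fk (PO k)) := ∑ a, Fk.map (gE k a a)

/-- `θ = z + 1 - ι κ`. -/
noncomputable def tht : Module.End k (Fin 2 → Fk (PO k)) :=
  wmap (zz k) + 1 - iot k ∘ₗ kap k

end P176
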