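import Vale.Agent.P176.Cons

/-!
# P176, module UPQ1: the universal property of `Q(N)`
-/

namespace P176

variable {k : Type} [Field k]

/-- Relations of a representation, applied to an element. -/
theorem upq_app {M : Type} [AddCommGroup M] [Module k M] {f g : Module.End k M} (h : f = g)
    (m : M) : f m = g m := by rw [h]

/-- The underlying map of a morphism to the underlying representation. -/
def upqPhi {N : GRep k} (R : Rep k) (φ : GRep.Hom N R.toG) : N.M →ₗ[k] R.M := φ.f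

/-- The underlying map of the extension. -/
def upqF {N : GRep k} (R : Rep k) (φ : GRep.Hom N R.toG) :
    (N.M × (Fin 2 → N.M) × (Fin 2 → N.M)) →ₗ[k] R.M :=
  LinearMap.coprod (upqPhi R φ)
    (LinearMap.coprod
      (∑ c : Fin 2, R.op (.al c) ∘ₗ upqPhi R φ ∘ₗ
        (LinearMap.proj c : (Fin 2 → N.M) →ₗ[k] N.M))
      (∑ c : Fin 2, R.op (.be c) ∘ₗ upqPhi R φ ∘ₗ
        (LinearMap.proj c : (Fin 2 → N.M) →ₗ[k] N.M)))

theorem upqF_apply {N : GRep k} (R : Rep k) (φ : GRep.Hom N R.toG)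
    (n : N.M) (u u' : Fin 2 → N.M) :
    upqF R φ (n, u, u') =
      upqPhi R φ n + (R.op (.al 0) (upqPhi R φ (u 0)) + R.op (.al 1) (upqPhi R φ (u 1)) +
        (R.op (.be 0) (upqPhi R φ (u' 0)) + R.op (.be 1) (upqPhi R φ (u' 1)))) := by
  simp only [upqF, LinearMap.coprod_apply, Fin.sum_univ_two, LinearMap.add_apply,
    LinearMap.comp_apply, LinearMap.proj_apply]

/-- The extension is a morphism. -/
theorem upqF_op {N : GRep k} (R : Rep k) (φ : GRep.Hom N R.toG) (g : Gen)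
    (m : N.M × (Fin 2 → N.M) × (Fin 2 → N.M)) :
    upqF R φ (opQ N.e N.xi N.tau g m) = R.op g (upqF R φ m) := by
  have me : ∀ j m, upqPhi R φ (N.e j m) = R.op (.e j) (upqPhi R φ m) := φ.map_e
  have mx : ∀ a b m, upqPhi R φ (N.xi a b m) = R.op (.xi a b) (upqPhi R φ m) := φ.map_xi
  have mt : ∀ m, upqPhi R φ (N.tau m) = R.op .tau (upqPhi R φ m) := φ.map_tau
  have ae : ∀ c j (x : R.M), R.op (.al c) (R.op (.e (j + 1)) x) = R.op (.e j) (R.op (.al c) x) :=
    fun c j x => upq_app (R.isRep.al_e c j) x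
  have be : ∀ c j (x : R.M), R.op (.be c) (R.op (.e j) x) = R.op (.e j) (R.op (.be c) x) :=
    fun c j x => upq_app (R.isRep.be_e c j) x
  have aa : ∀ c d (x : R.M), R.op (.al c) (R.op (.al d) x) = 0 :=
    fun c d x => upq_app (R.isRep.al_al c d) x
  have ab : ∀ c d (x : R.M), R.op (.al c) (R.op (.be d) x) = 0 :=
    fun c d x => upq_app (R.isRep.al_be c d) x
  have ba : ∀ c d (x : R.M), R.op (.be c) (R.op (.al d) x) = 0 :=
    fun c d x => upq_app (R.isRep.be_al c d) x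
  have bb : ∀ c d (x : R.M), R.op (.be c) (R.op (.be d) x) = 0 :=
    fun c d x => upq_app (R.isRep.be_be c d) x
  have xa : ∀ a b c (x : R.M), R.op (.xi a b) (R.op (.al c) x) =
      R.op (.al c) (R.op (.xi a b) x) + (if b = c then R.op (.be a) x else 0) -
        (if a = b then R.op (.be c) x else 0) := by
    intro a b c x
    have h := upq_app (R.isRep.xi_al a b c) x
    rw [Module.End.mul_apply, LinearMap.sub_apply, LinearMap.add_apply, Module.End.mul_apply] at h
    rw [h]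
    congr 1
    · congr 1
      split_ifs <;> rfl
    · split_ifs <;> rfl
  have xb : ∀ a b c (x : R.M), R.op (.xi a b) (R.op (.be c) x) =
      -(R.op (.be c) (R.op (.xi a b) x)) := fun a b c x => upq_app (R.isRep.xi_be a b c) x
  have ta : ∀ c (x : R.M), R.op .tau (R.op (.al c) x) =
      R.op (.al c) (R.op .tau x) -
        (R.op (.al 0) (R.op (.xi c 0) x) + R.op (.al 1) (R.op (.xi c 1) x)) := by
    intro c x
    have h := upq_app (R.isRep.tau_al c) x
    rw [Fin.sum_univ_two] at h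
    exact h
  have tb : ∀ c (x : R.M), R.op .tau (R.op (.be c) x) =
      -(R.op (.be c) (R.op .tau x)) +
        (R.op (.be 0) (R.op (.xi c 0) x) + R.op (.be 1) (R.op (.xi c 1) x)) := by
    intro c x
    have h := upq_app (R.isRep.tau_be c) x
    rw [Fin.sum_univ_two] at h
    exact h
  obtain ⟨n, u, u'⟩ := m
  cases g with
  | e j =>
    rw [opQ_e, eF_apply, upqF_apply, upqF_apply]
    simp only [wmap_apply, me, ae, be, map_add]
  | xi a b =>
    rw [opQ_xi, xiE_apply, upqF_apply, upqF_apply]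
    simp only [Pi.sub_apply, Pi.neg_apply, wmap_apply, thW_apply, map_sub, map_neg, mx, map_add,
      xa, xb]
    fin_cases a <;> fin_cases b <;> simp <;> abel
  | tau =>
    rw [opQ_tau, tauE_apply, upqF_apply, upqF_apply]
    simp only [Pi.neg_apply, tauW_apply, Fin.sum_univ_two, map_sub, map_neg, mx, mt, map_add,
      ta, tb]
    abel
  | al c =>
    rw [opQ_al, upqF_apply, upqF_apply]
    simp only [map_add, aa, ab]
    fin_cases c <;> simp
  | be c =>
    rw [opQ_be, upqF_apply, upqF_apply]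
    simp only [map_add, ba, bb]
    fin_cases c <;> simp

/-- Morphisms `N → R` of `G`-representations extend to `Q(N) → R`:
`F (n, u, u') = φ n + ∑ al_c φ (u c) + ∑ be_c φ (u' c)`. -/
theorem qlift {N : GRep k} (h0 : N.e 0 = 0) (R : Rep k) (φ : GRep.Hom N R.toG) :
    ∃ F : Rep.Hom (N.Q h0) R, ∀ n : N.M, F.f ((n, 0, 0) : N.M × (Fin 2 → N.M) × (Fin 2 → N.M)) =
      φ.f n := by
  refine ⟨⟨upqF R φ, upqF_op R φ⟩, fun n => ?_⟩
  change upqF R φ (n, 0, 0) = upqPhi R φ n
  rw [upqF_apply]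
  simp

/-- An element of `Q(N)`. -/
def upqm {N : GRep k} (h0 : N.e 0 = 0) (n : N.M) (u u' : Fin 2 → N.M) : (N.Q h0).M :=
  ((n, u, u') : N.M × (Fin 2 → N.M) × (Fin 2 → N.M))

theorem upqm_eq {N : GRep k} (h0 : N.e 0 = 0) (n : N.M) (u u' : Fin 2 → N.M) :
    upqm h0 n u u' = upqm h0 n 0 0 +
      (((N.Q h0).op (.al 0) (upqm h0 (u 0) 0 0) + (N.Q h0).op (.al 1) (upqm h0 (u 1) 0 0)) +
        ((N.Q h0).op (.be 0) (upqm h0 (u' 0) 0 0) + (N.Q h0).op (.be 1) (upqm h0 (u' 1) 0 0))) := by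
  change ((n, u, u') : N.M × (Fin 2 → N.M) × (Fin 2 → N.M)) =
      ((n, 0, 0) : N.M × (Fin 2 → N.M) × (Fin 2 → N.M)) +
        ((((0, Pi.single 0 (u 0), 0) : N.M × (Fin 2 → N.M) × (Fin 2 → N.M)) +
          ((0, Pi.single 1 (u 1), 0) : N.M × (Fin 2 → N.M) × (Fin 2 → N.M))) +
        (((0, 0, Pi.single 0 (u' 0)) : N.M × (Fin 2 → N.M) × (Fin 2 → N.M)) +
          ((0, 0, Pi.single 1 (u' 1)) : N.M × (Fin 2 → N.M) × (Fin 2 → N.M))))
  refine Prod.ext ?_ (Prod.ext ?_ ?_)
  · simp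
  · funext c
    fin_cases c <;> simp
  · funext c
    fin_cases c <;> simp

/-- Morphisms from `Q(N)` are determined on `N`. -/
theorem qext {N : GRep k} (h0 : N.e 0 = 0) (R : Rep k) (F F' : Rep.Hom (N.Q h0) R)
    (h : ∀ n : N.M, F.f ((n, 0, 0) : N.M × (Fin 2 → N.M) × (Fin 2 → N.M)) =
      F'.f ((n, 0, 0) : N.M × (Fin 2 → N.M) × (Fin 2 → N.M))) (m : (N.Q h0).M) :
    F.f m = F'.f m := by
  have h' : ∀ n : N.M, F.f (upqm h0 n 0 0) = F'.f (upqm h0 n 0 0) := h
  obtain ⟨n, u, u'⟩ := m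
  change F.f (upqm h0 n u u') = F'.f (upqm h0 n u u')
  rw [upqm_eq]
  simp only [map_add, Rep.Hom.map_op, h']

end P176
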