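import Vale.Agent.P176.WinGen

/-!
# P176, module UPQ2: the window at `0` maps into the part killed by `al`, `be`
-/

namespace P176

variable {k : Type} [Field k]

section
variable {M : Type} [AddCommGroup M] [Module k M] {op : Gen → Module.End k M}

private theorem upq2_be_xi (h : IsRep op) {w : M} (hw : ∀ c, op (.al c) w = 0 ∧ op (.be c) w = 0)
    (a b c : Fin 2) : op (.be c) (op (.xi a b) w) = 0 := by
  have h1 := LinearMap.congr_fun (h.xi_be a b c) w
  simp only [Module.End.mul_apply, LinearMap.neg_apply, (hw c).2, map_zero] at h1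
  exact neg_eq_zero.1 h1.symm

private theorem upq2_al_xi (h : IsRep op) {w : M} (hw : ∀ c, op (.al c) w = 0 ∧ op (.be c) w = 0)
    (a b c : Fin 2) : op (.al c) (op (.xi a b) w) = 0 := by
  have h1 := LinearMap.congr_fun (h.xi_al a b c) w
  have h2 : (if b = c then op (.be a) else 0) w = 0 := by
    split_ifs
    · exact (hw a).2
    · rfl
  have h3 : (if a = b then op (.be c) else 0) w = 0 := by
    split_ifs
    · exact (hw c).2
    · rfl
  simp only [Module.End.mul_apply, LinearMap.sub_apply, LinearMap.add_apply, (hw c).1, map_zero,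
    h2, h3, add_zero, sub_zero] at h1
  exact h1.symm

private theorem upq2_al_tau (h : IsRep op) {w : M}
    (hw : ∀ c, op (.al c) w = 0 ∧ op (.be c) w = 0)
    (c : Fin 2) : op (.al c) (op .tau w) = 0 := by
  have h1 := LinearMap.congr_fun (h.tau_al c) w
  simp only [Module.End.mul_apply, LinearMap.sub_apply, LinearMap.sum_apply, (hw c).1, map_zero,
    upq2_al_xi h hw, Finset.sum_const_zero, sub_zero] at h1
  exact h1.symm

private theorem upq2_be_tau (h : IsRep op) {w : M}
    (hw : ∀ c, op (.al c) w = 0 ∧ op (.be c) w = 0)
    (c : Fin 2) : op (.be c) (op .tau w) = 0 := by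
  have h1 := LinearMap.congr_fun (h.tau_be c) w
  simp only [Module.End.mul_apply, LinearMap.neg_apply, LinearMap.add_apply, LinearMap.sum_apply,
    (hw c).2, map_zero, upq2_be_xi h hw, Finset.sum_const_zero, add_zero] at h1
  exact neg_eq_zero.1 h1.symm

end

/-- A morphism of `G`-representations from the window at `0` of a cone to a representation of `A`
has image killed by `al` and `be`. (Use `win_gen` for the subspace of all `v` with
`al_c φ v = 0`, `be_c φ v = 0`; it contains the generators because `al_e0`, `be_e0`, and is
stable under `ξ`, `τ` because of the relations `xi_al`, `xi_be`, `tau_al`, `tau_be`.) -/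
theorem LFree.zkill {G : DG k} (L : LFree G) (R : Rep k)
    (φ : GRep.Hom ((G.coneC 1).win 0) R.toG) (c : Fin 2)
    (v : ((G.coneC 1).win 0).M) :
    R.op (.al c) (φ.f v) = 0 ∧ R.op (.be c) (φ.f v) = 0 := by
  let S : Submodule k ((G.coneC 1).win 0).M :=
    { carrier := {v | ∀ c, R.op (.al c) (φ.f v) = 0 ∧ R.op (.be c) (φ.f v) = 0}
      add_mem' := fun {a b} ha hb c => by
        constructor
        · show R.op (.al c) (φ.f (a + b)) = 0
          rw [map_add]
          exact (map_add _ _ _).trans (by rw [(ha c).1, (hb c).1, add_zero])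
        · show R.op (.be c) (φ.f (a + b)) = 0
          rw [map_add]
          exact (map_add _ _ _).trans (by rw [(ha c).2, (hb c).2, add_zero])
      zero_mem' := fun c => by
        constructor
        · show R.op (.al c) (φ.f 0) = 0
          rw [map_zero]
          exact map_zero _
        · show R.op (.be c) (φ.f 0) = 0
          rw [map_zero]
          exact map_zero _
      smul_mem' := fun r a ha c => by
        constructor
        · show R.op (.al c) (φ.f (r • a)) = 0
          rw [map_smul]
          exact (map_smul _ _ _).trans (by rw [(ha c).1, smul_zero])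
        · show R.op (.be c) (φ.f (r • a)) = 0
          rw [map_smul]
          exact (map_smul _ _ _).trans (by rw [(ha c).2, smul_zero]) }
  have hS : S = ⊤ := by
    refine L.win_gen 0 S ?_ ?_ ?_
    · intro u hu c
      have he : ((G.coneC 1).win 0).e 0 (L.top 0 u hu) = L.top 0 u hu := by
        refine (G.coneC 1).wval_inj 0 (funext fun i => ?_)
        rw [DG.wval_e]
        split_ifs with h
        · rfl
        · show (0 : (G.coneC 1).M) = if (i : ℕ) = 0 then G.cinl 1 (L.vac u) else 0
          rw [if_neg h]
      have h1 : φ.f (L.top 0 u hu) = R.op (.e 0) (φ.f (L.top 0 u hu)) := by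
        conv_lhs => rw [← he]
        exact φ.map_e 0 _
      constructor
      · have h2 := LinearMap.congr_fun (R.isRep.al_e0 c) (φ.f (L.top 0 u hu))
        rw [h1]
        exact h2
      · have h2 := LinearMap.congr_fun (R.isRep.be_e0 c) (φ.f (L.top 0 u hu))
        rw [h1]
        exact h2
    · intro a b v hv c
      have h1 : φ.f (((G.coneC 1).win 0).xi a b v) = R.op (.xi a b) (φ.f v) := φ.map_xi a b v
      rw [h1]
      exact ⟨upq2_al_xi R.isRep hv a b c, upq2_be_xi R.isRep hv a b c⟩
    · intro v hv c
      have h1 : φ.f (((G.coneC 1).win 0).tau v) = R.op .tau (φ.f v) := φ.map_tau v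
      rw [h1]
      exact ⟨upq2_al_tau R.isRep hv c, upq2_be_tau R.isRep hv c⟩
  have hv : v ∈ S := by
    rw [hS]
    exact Submodule.mem_top
  exact hv c

end P176
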