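import Vale.Agent.P176.LFree

/-!
# P176, module WINLIFT: the universal property of the window of the cone

Let `F0 : G.M → R.M` be the `Λ`-linear extension of `f` from `L.lift` (for `x = R.xi`). Put
`C (m) = F0 (m.1) + τ F0 (m.2) - F0 (τ m.2)` on the cone and `F v = ∑ i, C (v i)`.
By `L.gen`, `F0 m = e_(s + n) F0 m` for `m ∈ gr n`, hence `C m = e_(s + n) C m` for `m` in degree
`n` of the cone; this gives compatibility with the idempotents. `C` commutes with `ξ` and `τ`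
(computation, uses `xi_xi`, `tau_xi`, `tau_tau` in `R` and in `G`), and the last component
(`i = 5`) is killed by `ξ` and `τ` because `ξ e_5 = e_6 ξ = 0`.
-/

namespace P176

variable {k : Type} [Field k]

/-- the map on the cone -/
private noncomputable def wlC {G : DG k} (R : GRep k) (F0 : G.M →ₗ[k] R.M) :
    (G.coneC 1).M →ₗ[k] R.M :=
  F0 ∘ₗ G.cfst 1 + R.tau ∘ₗ F0 ∘ₗ G.csnd 1 - F0 ∘ₗ G.tau ∘ₗ G.csnd 1

private theorem wlC_apply {G : DG k} (R : GRep k) (F0 : G.M →ₗ[k] R.M) (m : (G.coneC 1).M) :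
    wlC R F0 m = F0 (G.cfst 1 m) + R.tau (F0 (G.csnd 1 m)) - F0 (G.tau (G.csnd 1 m)) := rfl

private theorem wlC_xi {G : DG k} (R : GRep k) (F0 : G.M →ₗ[k] R.M)
    (hF : ∀ a b m, F0 (G.xi a b m) = R.xi a b (F0 m)) (a b : Fin 2) (m : (G.coneC 1).M) :
    wlC R F0 ((G.coneC 1).xi a b m) = R.xi a b (wlC R F0 m) := by
  rw [wlC_apply, wlC_apply, DG.cfst_xi, DG.csnd_xi]
  set u := G.cfst 1 m
  set v := G.csnd 1 m
  have h1 : G.tau (G.xi a b v) = -G.xi a b (G.tau v) - ∑ l, G.xi a l (G.xi l b v) := by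
    have h := LinearMap.congr_fun (G.isB.tau_xi a b) v
    simp only [LinearMap.add_apply, Module.End.mul_apply, LinearMap.neg_apply,
      LinearMap.sum_apply] at h
    rw [eq_sub_of_add_eq h]
    abel
  have h2 : R.tau (R.xi a b (F0 v)) =
      -R.xi a b (R.tau (F0 v)) - ∑ l, R.xi a l (R.xi l b (F0 v)) := by
    have h := LinearMap.congr_fun (R.isG.tau_xi a b) (F0 v)
    simp only [LinearMap.add_apply, Module.End.mul_apply, LinearMap.neg_apply,
      LinearMap.sum_apply] at h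
    rw [eq_sub_of_add_eq h]
    abel
  rw [map_neg, map_neg, map_neg, map_neg, h1, map_sub, map_neg, map_sum]
  simp only [hF]
  rw [h2, map_sub, map_add]
  abel

private theorem wlC_tau {G : DG k} (R : GRep k) (F0 : G.M →ₗ[k] R.M) (m : (G.coneC 1).M) :
    wlC R F0 ((G.coneC 1).tau m) = R.tau (wlC R F0 m) := by
  rw [wlC_apply, wlC_apply, DG.cfst_tau, DG.csnd_tau, one_smul]
  set u := G.cfst 1 m
  set v := G.csnd 1 m
  have h1 : G.tau (G.tau v) = 0 := LinearMap.congr_fun G.isB.tau_tau v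
  have h2 : R.tau (R.tau (F0 v)) = 0 := LinearMap.congr_fun R.isG.tau_tau (F0 v)
  simp only [map_sub, map_add, h1, h2, map_zero]
  abel

private theorem wl_gr {G : DG k} (L : LFree G) (s : ℕ) (R : GRep k) (F0 : G.M →ₗ[k] R.M)
    (hF : ∀ a b m, F0 (G.xi a b m) = R.xi a b (F0 m))
    (h0 : ∀ u ∈ L.p, R.e s (F0 (L.vac u)) = F0 (L.vac u)) (n : ℕ) (m : G.M)
    (hm : m ∈ G.gr (n : ℤ)) : R.e (s + n) (F0 m) = F0 m := by
  have key := L.gen (fun n => LinearMap.ker ((R.e (s + n) - 1) ∘ₗ F0)) ?_ ?_ n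
  · have h1 := key hm
    rw [LinearMap.mem_ker] at h1
    have h2 : R.e (s + n) (F0 m) - F0 m = 0 := h1
    exact sub_eq_zero.1 h2
  · intro u hu
    rw [LinearMap.mem_ker]
    change R.e (s + 0) (F0 (L.vac u)) - F0 (L.vac u) = 0
    rw [add_zero, h0 u hu, sub_self]
  · intro n a b m hm
    rw [LinearMap.mem_ker] at hm ⊢
    have h1 : R.e (s + n) (F0 m) - F0 m = 0 := hm
    change R.e (s + (n + 1)) (F0 (G.xi a b m)) - F0 (G.xi a b m) = 0
    have h2 : R.xi a b (R.e (s + n) (F0 m)) = R.e (s + n + 1) (R.xi a b (F0 m)) :=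
      LinearMap.congr_fun (R.isG.xi_e a b (s + n)) (F0 m)
    rw [hF, ← add_assoc, ← h2, sub_eq_zero.1 h1, sub_self]

private theorem wlC_gr {G : DG k} (L : LFree G) (s : ℕ) (R : GRep k) (F0 : G.M →ₗ[k] R.M)
    (hF : ∀ a b m, F0 (G.xi a b m) = R.xi a b (F0 m))
    (h0 : ∀ u ∈ L.p, R.e s (F0 (L.vac u)) = F0 (L.vac u)) (i : ℕ) (m : (G.coneC 1).M)
    (hm : m ∈ (G.coneC 1).gr ((i : ℤ) - (s : ℤ))) : R.e i (wlC R F0 m) = wlC R F0 m := by
  by_cases his : s ≤ i
  · obtain ⟨n, rfl⟩ : ∃ n, i = s + n := ⟨i - s, by omega⟩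
    have e1 : ((s + n : ℕ) : ℤ) - (s : ℤ) = (n : ℤ) := by push_cast; ring
    rw [e1, DG.mem_coneC_gr] at hm
    obtain ⟨hm1, hm2⟩ := hm
    rw [wlC_apply, map_sub, map_add, wl_gr L s R F0 hF h0 n _ hm1]
    rcases n with _ | n
    · have h3 : G.csnd 1 m = 0 := by
        have : G.gr (((0 : ℕ) : ℤ) - 1) = ⊥ := G.gr_neg _ (by norm_num)
        rw [this, Submodule.mem_bot] at hm2
        exact hm2
      rw [h3]
      simp only [map_zero]
    · have e2 : ((n + 1 : ℕ) : ℤ) - 1 = (n : ℤ) := by push_cast; ring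
      rw [e2] at hm2
      have h3 : R.tau (R.e (s + n) (F0 (G.csnd 1 m))) = R.e (s + n + 1) (R.tau (F0 (G.csnd 1 m))) :=
        LinearMap.congr_fun (R.isG.tau_e (s + n)) (F0 (G.csnd 1 m))
      rw [wl_gr L s R F0 hF h0 n _ hm2] at h3
      have h4 := G.tau_gr _ _ hm2
      have e3 : (n : ℤ) + 1 = ((n + 1 : ℕ) : ℤ) := by push_cast; ring
      rw [e3] at h4
      rw [wl_gr L s R F0 hF h0 (n + 1) _ h4, ← add_assoc, ← h3]
  · have h3 : (G.coneC 1).gr ((i : ℤ) - (s : ℤ)) = ⊥ := (G.coneC 1).gr_neg _ (by omega)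
    rw [h3, Submodule.mem_bot] at hm
    rw [hm, map_zero, map_zero]

private theorem wl_shift {T : Type} [AddCommGroup T] (g : Fin 6 → T) (h5 : g 5 = 0) :
    ∑ i : Fin 6, (if i = 0 then 0 else g (i - 1)) = ∑ i : Fin 6, g i := by
  rw [Fin.sum_univ_six, Fin.sum_univ_six, h5, add_zero]
  have e1 : (1 : Fin 6) - 1 = 0 := by decide
  have e2 : (2 : Fin 6) - 1 = 1 := by decide
  have e3 : (3 : Fin 6) - 1 = 2 := by decide
  have e4 : (4 : Fin 6) - 1 = 3 := by decide
  have e5 : (5 : Fin 6) - 1 = 4 := by decide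
  rw [if_pos rfl, if_neg (by decide), if_neg (by decide), if_neg (by decide), if_neg (by decide),
    if_neg (by decide), e1, e2, e3, e4, e5, zero_add]

/-- Universal property of the window of the cone: existence (for `6 ≤ s` both sides vanish,
by `e_big`). -/
theorem LFree.win_lift {G : DG k} (L : LFree G) (s : ℕ) (R : GRep k)
    (f : L.U →ₗ[k] R.M) (hf : ∀ u ∈ L.p, R.e s (f u) = f u) :
    ∃ F : GRep.Hom ((G.coneC 1).win s) R, ∀ u hu, F.f (L.top s u hu) = f u := by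
  have hxx : ∀ a b c d, R.xi a b * R.xi c d + R.xi c d * R.xi a b = 0 := R.isG.xi_xi
  obtain ⟨F0, hF, hv⟩ := L.lift R.M R.xi hxx f
  have h0 : ∀ u ∈ L.p, R.e s (F0 (L.vac u)) = F0 (L.vac u) := by
    intro u hu
    rw [hv, hf u hu]
  let Φ : ((G.coneC 1).win s).M →ₗ[k] R.M :=
    (∑ i : Fin 6, wlC R F0 ∘ₗ LinearMap.proj i) ∘ₗ (G.coneC 1).wval s
  have hΦ : ∀ v, Φ v = ∑ i : Fin 6, wlC R F0 ((G.coneC 1).wval s v i) := by
    intro v
    simp only [Φ, LinearMap.comp_apply, LinearMap.sum_apply, LinearMap.proj_apply]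
  have hgr : ∀ (v : ((G.coneC 1).win s).M) (i : Fin 6),
      R.e (i : ℕ) (wlC R F0 ((G.coneC 1).wval s v i)) = wlC R F0 ((G.coneC 1).wval s v i) :=
    fun v i => wlC_gr L s R F0 hF h0 _ _ ((G.coneC 1).wval_mem s v i)
  have hx5 : ∀ (a b : Fin 2) (v : ((G.coneC 1).win s).M),
      R.xi a b (wlC R F0 ((G.coneC 1).wval s v 5)) = 0 := by
    intro a b v
    have h1 := LinearMap.congr_fun (R.isG.xi_e a b 5) (wlC R F0 ((G.coneC 1).wval s v 5))
    simp only [Module.End.mul_apply] at h1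
    rw [R.isG.e_big 6 le_rfl, LinearMap.zero_apply] at h1
    have h2 : R.e 5 (wlC R F0 ((G.coneC 1).wval s v 5)) = wlC R F0 ((G.coneC 1).wval s v 5) :=
      hgr v 5
    rwa [h2] at h1
  have ht5 : ∀ (v : ((G.coneC 1).win s).M),
      R.tau (wlC R F0 ((G.coneC 1).wval s v 5)) = 0 := by
    intro v
    have h1 := LinearMap.congr_fun (R.isG.tau_e 5) (wlC R F0 ((G.coneC 1).wval s v 5))
    simp only [Module.End.mul_apply] at h1
    rw [R.isG.e_big 6 le_rfl, LinearMap.zero_apply] at h1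
    have h2 : R.e 5 (wlC R F0 ((G.coneC 1).wval s v 5)) = wlC R F0 ((G.coneC 1).wval s v 5) :=
      hgr v 5
    rwa [h2] at h1
  refine ⟨⟨Φ, ?_, ?_, ?_⟩, ?_⟩
  · intro j v
    rw [hΦ, hΦ, map_sum]
    refine Finset.sum_congr rfl fun i _ => ?_
    rw [DG.wval_e]
    by_cases hij : (i : ℕ) = j
    · rw [if_pos hij, ← hij, hgr]
    · rw [if_neg hij, map_zero, ← hgr v i]
      have h1 := LinearMap.congr_fun (R.isG.e_mul j (i : ℕ))
        (wlC R F0 ((G.coneC 1).wval s v i))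
      rw [if_neg (fun h => hij h.symm)] at h1
      exact h1.symm
  · intro a b v
    rw [hΦ, hΦ, map_sum,
      ← wl_shift (fun i => R.xi a b (wlC R F0 ((G.coneC 1).wval s v i))) (hx5 a b v)]
    refine Finset.sum_congr rfl fun i _ => ?_
    rw [DG.wval_xi]
    by_cases hi : i = 0
    · rw [if_pos hi, if_pos hi, map_zero]
    · rw [if_neg hi, if_neg hi, wlC_xi R F0 hF]
  · intro v
    rw [hΦ, hΦ, map_sum,
      ← wl_shift (fun i => R.tau (wlC R F0 ((G.coneC 1).wval s v i))) (ht5 v)]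
    refine Finset.sum_congr rfl fun i _ => ?_
    rw [DG.wval_tau]
    by_cases hi : i = 0
    · rw [if_pos hi, if_pos hi, map_zero]
    · rw [if_neg hi, if_neg hi, wlC_tau R F0]
  · intro u hu
    change Φ (L.top s u hu) = f u
    rw [hΦ]
    unfold LFree.top
    rw [DG.wval_wmk]
    have hval : wlC R F0 (G.cinl 1 (L.vac u)) = f u := by
      rw [wlC_apply, DG.cfst_cinl, DG.csnd_cinl]
      simp only [map_zero, add_zero, sub_zero, hv]
    by_cases hs : s < 6
    · rw [Finset.sum_eq_single (⟨s, hs⟩ : Fin 6)]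
      · rw [if_pos rfl, hval]
      · intro i _ hi
        rw [if_neg (fun h => hi (Fin.ext h)), map_zero]
      · intro h
        exact absurd (Finset.mem_univ _) h
    · have h1 : f u = 0 := by
        rw [← hf u hu, R.isG.e_big s (by omega), LinearMap.zero_apply]
      rw [h1]
      refine Finset.sum_eq_zero fun i _ => ?_
      rw [if_neg (by omega), map_zero]

end P176
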