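import Vale.Agent.P176.UPQ1
import Vale.Agent.P176.UPQ2
import Vale.Agent.P176.WinLift

/-!
# P176, module UPQ3: projectivity of the cone windows

For `isProj`: choose a linear section of the surjection, `LinearMap.exists_extend` to extend the
map from `L.p` to `L.U`, apply `win_lift` (and `qlift`), and compare on generators by `win_gen`
(and `qext`).
-/

namespace P176

variable {k : Type} [Field k]

/-- Projectivity in the category of representations of `A`. -/
def Rep.IsProj (P : Rep k) : Prop :=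
  ∀ (R R' : Rep k) (g : Rep.Hom R R') (_ : Function.Surjective g.f) (h : Rep.Hom P R'),
    ∃ h' : Rep.Hom P R, ∀ m, g.f (h'.f m) = h.f m

/-- The generators as a linear map. -/
def LFree.topL {G : DG k} (L : LFree G) (s : ℕ) : L.p →ₗ[k] ((G.coneC 1).win s).M where
  toFun u := L.top s u.1 u.2
  map_add' u v := by
    refine (G.coneC 1).wval_inj s (funext fun i => ?_)
    rw [map_add]
    simp only [LFree.top, DG.wval_wmk, Pi.add_apply]
    split_ifs with h
    · rw [Submodule.coe_add, map_add, map_add]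
    · rw [add_zero]
  map_smul' c u := by
    refine (G.coneC 1).wval_inj s (funext fun i => ?_)
    rw [map_smul]
    simp only [LFree.top, DG.wval_wmk, Pi.smul_apply, RingHom.id_apply]
    split_ifs with h
    · rw [Submodule.coe_smul, map_smul, map_smul]
    · rw [smul_zero]

theorem LFree.topL_apply {G : DG k} (L : LFree G) (s : ℕ) (u : L.U) (hu : u ∈ L.p) :
    L.topL s ⟨u, hu⟩ = L.top s u hu := rfl

theorem LFree.e_top {G : DG k} (L : LFree G) (s : ℕ) (u : L.U) (hu : u ∈ L.p) :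
    ((G.coneC 1).win s).e s (L.top s u hu) = L.top s u hu := by
  refine (G.coneC 1).wval_inj s (funext fun i => ?_)
  rw [DG.wval_e]
  simp only [LFree.top, DG.wval_wmk]
  split_ifs <;> rfl

/-- Lifting of the generators along a surjection. -/
theorem LFree.lift_gens {G : DG k} (L : LFree G) (s : ℕ) {R R' : Rep k} (g : Rep.Hom R R')
    (hg : Function.Surjective g.f) (φ : L.p →ₗ[k] R'.M)
    (hφ : ∀ u, R'.op (.e s) (φ u) = φ u) :
    ∃ f : L.U →ₗ[k] R.M, (∀ u ∈ L.p, R.op (.e s) (f u) = f u) ∧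
      ∀ u (hu : u ∈ L.p), g.f (f u) = φ ⟨u, hu⟩ := by
  obtain ⟨σ, hσ⟩ := g.f.exists_rightInverse_of_surjective (LinearMap.range_eq_top.2 hg)
  obtain ⟨f, hf⟩ := LinearMap.exists_extend (R.op (.e s) ∘ₗ σ ∘ₗ φ)
  have hf' : ∀ u (hu : u ∈ L.p), f u = R.op (.e s) (σ (φ ⟨u, hu⟩)) := by
    intro u hu
    exact LinearMap.congr_fun hf ⟨u, hu⟩
  have hee : ∀ x, R.op (.e s) (R.op (.e s) x) = R.op (.e s) x := by
    intro x
    have h1 := R.isRep.e_mul s s
    rw [if_pos rfl] at h1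
    exact LinearMap.congr_fun h1 x
  refine ⟨f, ?_, ?_⟩
  · intro u hu
    rw [hf' u hu, hee]
  · intro u hu
    rw [hf' u hu, g.map_op]
    have h2 : g.f (σ (φ ⟨u, hu⟩)) = φ ⟨u, hu⟩ := LinearMap.congr_fun hσ _
    rw [h2, hφ]

/-- The inclusion of `N` in `Q(N)` as a linear map. -/
def qinl {N : GRep k} (h0 : N.e 0 = 0) : N.M →ₗ[k] (N.Q h0).M :=
  LinearMap.inl k N.M ((Fin 2 → N.M) × (Fin 2 → N.M))

theorem qinl_apply {N : GRep k} (h0 : N.e 0 = 0) (n : N.M) :
    qinl h0 n = ((n, 0, 0) : N.M × (Fin 2 → N.M) × (Fin 2 → N.M)) := rfl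

theorem qinl_e {N : GRep k} (h0 : N.e 0 = 0) (j : ℕ) (n : N.M) :
    qinl h0 (N.e j n) = (N.Q h0).op (.e j) (qinl h0 n) := by
  refine Prod.ext rfl (Prod.ext (funext fun c => ?_) (funext fun c => ?_))
  · exact (map_zero (N.e (j + 1))).symm
  · exact (map_zero (N.e j)).symm

theorem qinl_xi {N : GRep k} (h0 : N.e 0 = 0) (a b : Fin 2) (n : N.M) :
    qinl h0 (N.xi a b n) = (N.Q h0).op (.xi a b) (qinl h0 n) := by
  have h : xiE N.xi a b (0 : (Fin 2 → N.M) × (Fin 2 → N.M)) = 0 := map_zero _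
  exact Prod.ext rfl h.symm

theorem qinl_tau {N : GRep k} (h0 : N.e 0 = 0) (n : N.M) :
    qinl h0 (N.tau n) = (N.Q h0).op .tau (qinl h0 n) := by
  have h : tauE N.xi N.tau (0 : (Fin 2 → N.M) × (Fin 2 → N.M)) = 0 := map_zero _
  exact Prod.ext rfl h.symm

/-- Every element of `e_s R` is the image of the generator, for the projective `Q`. -/
theorem LFree.hit_Q {G : DG k} (L : LFree G) (s : ℕ)
    (h0 : ((G.coneC 1).win s).e 0 = 0) (R : Rep k) (f : L.U →ₗ[k] R.M)
    (hf : ∀ u ∈ L.p, R.op (.e s) (f u) = f u) :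
    ∃ F : Rep.Hom (((G.coneC 1).win s).Q h0) R, ∀ u hu,
      F.f ((L.top s u hu, 0, 0) : _ × (Fin 2 → _) × (Fin 2 → _)) = f u := by
  obtain ⟨φ, hφ⟩ := L.win_lift s R.toG f hf
  obtain ⟨F, hF⟩ := qlift h0 R φ
  exact ⟨F, fun u hu => (hF _).trans (hφ u hu)⟩

/-- Every element of `e_0 R` is the image of the generator, for the projective `Z`. -/
theorem LFree.hit_Z {G : DG k} (L : LFree G) (R : Rep k) (f : L.U →ₗ[k] R.M)
    (hf : ∀ u ∈ L.p, R.op (.e 0) (f u) = f u) :
    ∃ F : Rep.Hom (((G.coneC 1).win 0).Z) R, ∀ u hu,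
      F.f (L.top 0 u hu) = f u := by
  obtain ⟨φ, hφ⟩ := L.win_lift 0 R.toG f hf
  refine ⟨⟨φ.f, ?_⟩, hφ⟩
  intro g m
  cases g with
  | e j => exact φ.map_e j m
  | xi a b => exact φ.map_xi a b m
  | tau => exact φ.map_tau m
  | al c => exact (map_zero φ.f).trans (L.zkill R φ c m).1.symm
  | be c => exact (map_zero φ.f).trans (L.zkill R φ c m).2.symm

theorem LFree.isProj_Q {G : DG k} (L : LFree G) (s : ℕ)
    (h0 : ((G.coneC 1).win s).e 0 = 0) : (((G.coneC 1).win s).Q h0).IsProj := by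
  intro R R' g hg h
  obtain ⟨f, hf1, hf2⟩ := L.lift_gens s g hg (h.f ∘ₗ qinl h0 ∘ₗ L.topL s) (by
    intro u
    show R'.op (.e s) (h.f (qinl h0 (L.top s u.1 u.2))) = h.f (qinl h0 (L.top s u.1 u.2))
    rw [← h.map_op, ← qinl_e, L.e_top])
  obtain ⟨φ, hφ⟩ := L.win_lift s R.toG f hf1
  obtain ⟨F, hF⟩ := qlift h0 R φ
  refine ⟨F, ?_⟩
  have hgen : ∀ n : ((G.coneC 1).win s).M, g.f (φ.f n) = h.f (qinl h0 n) := by
    have hS := L.win_gen s (LinearMap.eqLocus (g.f ∘ₗ φ.f) (h.f ∘ₗ qinl h0)) ?_ ?_ ?_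
    · intro n
      have h1 : n ∈ LinearMap.eqLocus (g.f ∘ₗ φ.f) (h.f ∘ₗ qinl h0) := by
        rw [hS]
        exact Submodule.mem_top
      exact h1
    · intro u hu
      exact (congrArg g.f (hφ u hu)).trans (hf2 u hu)
    · intro a b v hv
      have hv' : g.f (φ.f v) = h.f (qinl h0 v) := hv
      show g.f (φ.f (((G.coneC 1).win s).xi a b v)) = h.f (qinl h0 (((G.coneC 1).win s).xi a b v))
      rw [φ.map_xi, qinl_xi, h.map_op, ← hv']
      exact g.map_op (.xi a b) _
    · intro v hv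
      have hv' : g.f (φ.f v) = h.f (qinl h0 v) := hv
      show g.f (φ.f (((G.coneC 1).win s).tau v)) = h.f (qinl h0 (((G.coneC 1).win s).tau v))
      rw [φ.map_tau, qinl_tau, h.map_op, ← hv']
      exact g.map_op .tau _
  let gF : Rep.Hom (((G.coneC 1).win s).Q h0) R' :=
    { f := g.f ∘ₗ F.f
      map_op := fun x m => by
        show g.f (F.f _) = R'.op x (g.f (F.f m))
        rw [F.map_op, g.map_op] }
  intro m
  exact qext h0 R' gF h (fun n => by
    show g.f (F.f _) = _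
    rw [hF]
    exact hgen n) m

theorem LFree.isProj_Z {G : DG k} (L : LFree G) :
    (((G.coneC 1).win 0).Z).IsProj := by
  intro R R' g hg h
  obtain ⟨f, hf1, hf2⟩ := L.lift_gens 0 g hg (h.f ∘ₗ L.topL 0) (by
    intro u
    exact (h.map_op (.e 0) (L.top 0 u.1 u.2)).symm.trans (congrArg h.f (L.e_top 0 u.1 u.2)))
  obtain ⟨F, hF⟩ := L.hit_Z R f hf1
  refine ⟨F, ?_⟩
  have hS := L.win_gen 0 (LinearMap.eqLocus (g.f ∘ₗ F.f) h.f) ?_ ?_ ?_
  · intro n
    exact Submodule.eq_top_iff'.1 hS n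
  · intro u hu
    exact (congrArg g.f (hF u hu)).trans (hf2 u hu)
  · intro a b v hv
    have hv' : g.f (F.f v) = h.f v := hv
    have h1 := F.map_op (.xi a b) v
    have h2 := g.map_op (.xi a b) (F.f v)
    have h3 := h.map_op (.xi a b) v
    exact (congrArg g.f h1).trans (h2.trans ((congrArg _ hv').trans h3.symm))
  · intro v hv
    have hv' : g.f (F.f v) = h.f v := hv
    have h1 := F.map_op .tau v
    have h2 := g.map_op .tau (F.f v)
    have h3 := h.map_op .tau v
    exact (congrArg g.f h1).trans (h2.trans ((congrArg _ hv').trans h3.symm))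

end P176
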