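import Vale.Agent.P176.LFree

/-!
# P176, module WINGEN: generation of the window of the cone

Every element `v` of the window is the sum over `i : Fin 6` of the elements supported at `i`, with
value `cinl (m) + cinr (m')`, `m ∈ gr (i - s)`, `m' ∈ gr (i - s - 1)`. Use `L.gen` for the
subspaces `{m | for all i with i = s + n the element supported at i with value cinl m is in S}`
(extended by the condition `m ∈ gr n` to have membership proofs; or work with the image of `S` in
the space of functions `Fin 6 → _`), and `cinr m = τ (cinl m) - cinl (τ m)` (shifted by one vertex).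
For `s ≥ 6` the window is zero.
-/

namespace P176

variable {k : Type} [Field k]

/-- the value at `i` of a shifted function supported at `i - 1` -/
private theorem wg_shift {M : Type} [AddCommGroup M] {i j : Fin 6} (hi : i ≠ 0) (f : M → M)
    (hf : f 0 = 0) (m : M) :
    (if j = 0 then (0 : M) else f ((Pi.single (i - 1) m : Fin 6 → M) (j - 1))) =
      (Pi.single i (f m) : Fin 6 → M) j := by
  by_cases h0 : j = 0
  · rw [if_pos h0, Pi.single_eq_of_ne (by rw [h0]; exact fun h => hi h.symm)]
  · rw [if_neg h0]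
    by_cases h : j = i
    · rw [h, Pi.single_eq_same, Pi.single_eq_same]
    · rw [Pi.single_eq_of_ne h, Pi.single_eq_of_ne (fun h1 => h (sub_left_inj.1 h1)), hf]

private theorem wg_pred {s n : ℕ} {i : Fin 6} (h : (i : ℕ) = s + (n + 1)) :
    i ≠ 0 ∧ ((i - 1 : Fin 6) : ℕ) = s + n := by
  have h1 := i.isLt
  constructor
  · intro h0
    rw [h0] at h
    simp at h
  · rw [Fin.sub_def]
    simp only [Fin.coe_ofNat_eq_mod]
    omega

/-- Generation of the window of the cone (for `6 ≤ s` the window is zero). -/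
theorem LFree.win_gen {G : DG k} (L : LFree G) (s : ℕ)
    (S : Submodule k ((G.coneC 1).win s).M)
    (h0 : ∀ u hu, L.top s u hu ∈ S)
    (hxi : ∀ a b v, v ∈ S → ((G.coneC 1).win s).xi a b v ∈ S)
    (htau : ∀ v, v ∈ S → ((G.coneC 1).win s).tau v ∈ S) : S = ⊤ := by
  classical
  set T : Submodule k (Fin 6 → (G.coneC 1).M) := S.map ((G.coneC 1).wval s) with hT
  -- elements of `T` are stable under the operators
  have hTxi : ∀ a b (i : Fin 6) (m : (G.coneC 1).M), i ≠ 0 → Pi.single (i - 1) m ∈ T →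
      Pi.single i ((G.coneC 1).xi a b m) ∈ T := by
    intro a b i m hi hm
    obtain ⟨v, hv, hv'⟩ := Submodule.mem_map.1 hm
    refine Submodule.mem_map.2 ⟨_, hxi a b v hv, ?_⟩
    funext j
    rw [DG.wval_xi, hv']
    exact wg_shift hi _ (map_zero _) m
  have hTtau : ∀ (i : Fin 6) (m : (G.coneC 1).M), i ≠ 0 → Pi.single (i - 1) m ∈ T →
      Pi.single i ((G.coneC 1).tau m) ∈ T := by
    intro i m hi hm
    obtain ⟨v, hv, hv'⟩ := Submodule.mem_map.1 hm
    refine Submodule.mem_map.2 ⟨_, htau v hv, ?_⟩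
    funext j
    rw [DG.wval_tau, hv']
    exact wg_shift hi _ (map_zero _) m
  -- the family of subspaces
  set S' : ℕ → Submodule k G.M := fun n => ⨅ i : Fin 6, ⨅ (_ : (i : ℕ) = s + n),
    T.comap (LinearMap.single k (fun _ : Fin 6 => (G.coneC 1).M) i ∘ₗ G.cinl 1) with hS'
  have hmem : ∀ n m, m ∈ S' n ↔ ∀ i : Fin 6, (i : ℕ) = s + n →
      (Pi.single i (G.cinl 1 m) : Fin 6 → (G.coneC 1).M) ∈ T := by
    intro n m
    simp only [hS', Submodule.mem_iInf]
    exact Iff.rfl
  have hA : ∀ n : ℕ, G.gr (n : ℤ) ≤ S' n := by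
    refine L.gen S' (fun u hu => ?_) (fun n a b m hm => ?_)
    · rw [hmem]
      intro i hi
      refine Submodule.mem_map.2 ⟨L.top s u hu, h0 u hu, ?_⟩
      funext j
      have e1 : (G.coneC 1).wval s (L.top s u hu) j =
          if (j : ℕ) = s then G.cinl 1 (L.vac u) else 0 := rfl
      rw [e1]
      by_cases h : j = i
      · subst h
        rw [Pi.single_eq_same, if_pos (by omega)]
      · rw [Pi.single_eq_of_ne h, if_neg (fun h1 => h (Fin.ext (by omega)))]
    · rw [hmem] at hm ⊢
      intro i hi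
      obtain ⟨hi0, hi1⟩ := wg_pred hi
      have e1 : G.cinl 1 (G.xi a b m) = (G.coneC 1).xi a b (G.cinl 1 m) := by
        refine G.cone_ext 1 ?_ ?_
        · simp
        · simp
      rw [e1]
      exact hTxi a b i _ hi0 (hm _ hi1)
  have hB : ∀ (n : ℕ) (m : G.M), m ∈ G.gr (n : ℤ) → ∀ i : Fin 6, (i : ℕ) = s + (n + 1) →
      (Pi.single i (G.cinr 1 m) : Fin 6 → (G.coneC 1).M) ∈ T := by
    intro n m hm i hi
    obtain ⟨hi0, hi1⟩ := wg_pred hi
    have e1 : G.cinr 1 m = (G.coneC 1).tau (G.cinl 1 m) - G.cinl 1 (G.tau m) := by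
      refine G.cone_ext 1 ?_ ?_
      · simp
      · simp
    rw [e1, Pi.single_sub]
    refine Submodule.sub_mem _ (hTtau i _ hi0 ((hmem n m).1 (hA n hm) _ hi1)) ?_
    refine (hmem (n + 1) _).1 (hA (n + 1) ?_) i hi
    have := G.tau_gr _ _ hm
    push_cast
    exact this
  -- every element of the window
  rw [eq_top_iff]
  intro v _
  have hv : (G.coneC 1).wval s v ∈ T := by
    have e1 : (G.coneC 1).wval s v = ∑ i, Pi.single i ((G.coneC 1).wval s v i) :=
      (Finset.univ_sum_single _).symm
    rw [e1]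
    refine Submodule.sum_mem _ fun i _ => ?_
    set m := (G.coneC 1).wval s v i with hm
    obtain ⟨g1, g2⟩ := (G.mem_coneC_gr 1 _ m).1 ((G.coneC 1).wval_mem s v i)
    have e2 : m = G.cinl 1 (G.cfst 1 m) + G.cinr 1 (G.csnd 1 m) := by
      refine G.cone_ext 1 ?_ ?_
      · simp
      · simp
    rw [e2, Pi.single_add]
    refine Submodule.add_mem _ ?_ ?_
    · by_cases h : (i : ℕ) < s
      · rw [G.gr_neg _ (by omega), Submodule.mem_bot] at g1
        rw [g1, map_zero, Pi.single_zero]
        exact Submodule.zero_mem _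
      · obtain ⟨n, hn⟩ := Nat.exists_eq_add_of_le (not_lt.1 h)
        have e3 : (((i : ℕ) : ℤ) - (s : ℤ)) = (n : ℤ) := by omega
        rw [e3] at g1
        exact (hmem n _).1 (hA n g1) i hn
    · by_cases h : (i : ℕ) < s + 1
      · rw [G.gr_neg _ (by omega), Submodule.mem_bot] at g2
        rw [g2, map_zero, Pi.single_zero]
        exact Submodule.zero_mem _
      · obtain ⟨n, hn⟩ := Nat.exists_eq_add_of_le (not_lt.1 h)
        have e3 : (((i : ℕ) : ℤ) - (s : ℤ) - 1) = (n : ℤ) := by omega
        rw [e3] at g2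
        exact hB n _ g2 i (by omega)
  obtain ⟨w, hw, hw'⟩ := Submodule.mem_map.1 hv
  rw [← (G.coneC 1).wval_inj s hw']
  exact hw

end P176
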